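import Vale.Agent.P018.Defs

namespace Vale.Agent.P018

open Polynomial Filter Topology

open Classical in
/-- The large primes contribute `o(X)`. -/
def Tail (f : ℤ[X]) (k : ℕ) : Prop :=
  Tendsto (fun X : ℕ => ((((Finset.Icc 1 X).filter fun n : ℕ =>
    ∃ p : ℕ, p.Prime ∧ X < p ∧ (p : ℤ) ^ k ∣ f.eval (n : ℤ)).card : ℕ) : ℝ) / (X : ℝ))
    atTop (𝓝 0)

/-- the `l^1` norm of the coefficients -/
noncomputable def l1 {σ : Type*} (P : MvPolynomial σ ℂ) : ℝ :=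
  ∑ e ∈ P.support, ‖P.coeff e‖

/-- the volume polynomial -/
noncomputable def Qp (n k : ℕ) (α β : ℝ) : ℝ :=
  ∑ j ∈ Finset.range (n + 1),
    (n.choose j : ℝ) * ((n + 2).choose (j + 1) : ℝ) * (k : ℝ) ^ j * α ^ (n + 1 - j) * β ^ (j + 1)

/-- numerical condition under which the range `p ≈ X^y` can be treated -/
def Good (d k : ℕ) (y : ℝ) : Prop :=
  ∃ (n : ℕ) (z α β : ℝ), 0 < z ∧ 0 < α ∧ 0 < β ∧
    ((d : ℝ) - 1) * z + y / d < 1 ∧
    ((d : ℝ) - ((n : ℝ) + 2)) * z + ((n : ℝ) + 2) * y / d < 1 ∧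
    (((n : ℝ) + 3) / ((n : ℝ) + 2)) ^ (n + 2) * ((α * y + β * (d - k * y)) / d) ^ (n + 2)
      < z ^ (n + 1) * Qp n k α β

end Vale.Agent.P018
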