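import Vale.Agent.P018.Basic

namespace Vale.Agent.P018

open MvPolynomial

theorem l1_nonneg {σ : Type*} (P : MvPolynomial σ ℂ) : 0 ≤ l1 P :=
  Finset.sum_nonneg fun _ _ => norm_nonneg _

theorem db_l1_eq {σ : Type*} (P : MvPolynomial σ ℂ) (s : Finset (σ →₀ ℕ)) (hs : P.support ⊆ s) :
    l1 P = ∑ e ∈ s, ‖P.coeff e‖ := by
  refine Finset.sum_subset hs fun e _ he => ?_
  rw [notMem_support_iff.mp he, norm_zero]

theorem l1_add_le {σ : Type*} (P Q : MvPolynomial σ ℂ) : l1 (P + Q) ≤ l1 P + l1 Q := by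
  classical
  rw [db_l1_eq (P + Q) (P.support ∪ Q.support) support_add,
    db_l1_eq P (P.support ∪ Q.support) Finset.subset_union_left,
    db_l1_eq Q (P.support ∪ Q.support) Finset.subset_union_right, ← Finset.sum_add_distrib]
  refine Finset.sum_le_sum fun e _ => ?_
  rw [coeff_add]
  exact norm_add_le _ _

theorem db_l1_monomial {σ : Type*} (e : σ →₀ ℕ) (c : ℂ) :
    l1 (monomial e c : MvPolynomial σ ℂ) = ‖c‖ := by
  classical
  rw [db_l1_eq _ {e} support_monomial_subset]
  simp

theorem db_l1_sum_le {σ ι : Type*} (s : Finset ι) (P : ι → MvPolynomial σ ℂ) :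
    l1 (∑ i ∈ s, P i) ≤ ∑ i ∈ s, l1 (P i) := by
  classical
  induction s using Finset.induction_on with
  | empty => simp [l1]
  | insert a s ha ih =>
    rw [Finset.sum_insert ha, Finset.sum_insert ha]
    exact (l1_add_le _ _).trans (add_le_add le_rfl ih)

theorem l1_mul_le {σ : Type*} (P Q : MvPolynomial σ ℂ) : l1 (P * Q) ≤ l1 P * l1 Q := by
  conv_lhs => rw [P.as_sum, Q.as_sum, Finset.sum_mul_sum]
  unfold l1
  rw [Finset.sum_mul_sum]
  refine (db_l1_sum_le _ _).trans (Finset.sum_le_sum fun a _ => ?_)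
  refine (db_l1_sum_le _ _).trans (Finset.sum_le_sum fun b _ => ?_)
  rw [monomial_mul, db_l1_monomial, norm_mul]

theorem l1_C {σ : Type*} (c : ℂ) : l1 (C c : MvPolynomial σ ℂ) = ‖c‖ := db_l1_monomial 0 c

theorem l1_X {σ : Type*} (v : σ) : l1 (X v : MvPolynomial σ ℂ) = 1 := by
  rw [X, db_l1_monomial, norm_one]

theorem l1_pow_le {σ : Type*} (P : MvPolynomial σ ℂ) (n : ℕ) : l1 (P ^ n) ≤ l1 P ^ n := by
  induction n with
  | zero => rw [pow_zero, pow_zero, ← C_1, l1_C, norm_one]
  | succ n ih =>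
    rw [pow_succ, pow_succ]
    exact (l1_mul_le _ _).trans (mul_le_mul_of_nonneg_right ih (l1_nonneg _))

theorem l1_prod_le {σ ι : Type*} (s : Finset ι) (P : ι → MvPolynomial σ ℂ) :
    l1 (∏ i ∈ s, P i) ≤ ∏ i ∈ s, l1 (P i) := by
  classical
  induction s using Finset.induction_on with
  | empty => rw [Finset.prod_empty, Finset.prod_empty, ← C_1, l1_C, norm_one]
  | insert a s ha ih =>
    rw [Finset.prod_insert ha, Finset.prod_insert ha]
    exact (l1_mul_le _ _).trans (mul_le_mul_of_nonneg_left ih (l1_nonneg _))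

theorem db_one_var (q : ℕ) (w c : ℝ) (hw : 0 < w) (hc : 0 ≤ c) (B : ℕ) : ∀ x : ℝ,
    ∑ f ∈ Finset.range B, (if 0 ≤ x - w * f then (x - w * f + c) ^ q else 0)
      ≤ if 0 ≤ x then (x + c + w) ^ (q + 1) / ((q + 1) * w) else 0 := by
  induction B with
  | zero =>
    intro x
    rw [Finset.sum_range_zero]
    split_ifs with h
    · positivity
    · exact le_rfl
  | succ B ih =>
    intro x
    rw [Finset.sum_range_succ']
    have h1 := ih (x - w)
    have e1 : ∀ f : ℕ, x - w * ((f + 1 : ℕ) : ℝ) = x - w - w * f := by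
      intro f; push_cast; ring
    simp only [e1, Nat.cast_zero, mul_zero, sub_zero]
    by_cases hx : 0 ≤ x
    · rw [if_pos hx, if_pos hx]
      have ht : 0 ≤ x + c := by positivity
      have h2 := pow_add_mul_le_add_pow ht (b := w) (by positivity) (q + 1)
      rw [Nat.add_sub_cancel] at h2
      push_cast at h2
      have h3 : (if 0 ≤ x - w then (x - w + c + w) ^ (q + 1) / ((q + 1) * w) else 0)
          ≤ (x + c) ^ (q + 1) / ((q + 1) * w) := by
        split_ifs
        · rw [show x - w + c + w = x + c by ring]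
        · positivity
      have h4 : (x + c) ^ (q + 1) / ((q + 1) * w) + (x + c) ^ q
          ≤ (x + c + w) ^ (q + 1) / ((q + 1) * w) := by
        rw [div_add' _ _ _ (by positivity)]
        refine div_le_div_of_nonneg_right ?_ (by positivity)
        linarith
      linarith
    · rw [if_neg hx, if_neg hx]
      rw [if_neg (by linarith)] at h1
      linarith

theorem db_key (p : ℕ) : ∀ (M : ℕ) (w : Fin M → ℝ), (∀ v, 0 < w v) →
    ∀ (E : Finset (Fin M → ℕ)) (x : ℝ),
    ∑ e ∈ E, (if 0 ≤ x - ∑ v, w v * e v then (x - ∑ v, w v * e v) ^ p else 0) / p.factorial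
      ≤ if 0 ≤ x then (x + ∑ v, w v) ^ (p + M) / ((p + M).factorial * ∏ v, w v) else 0 := by
  intro M
  induction M with
  | zero =>
    intro w _ E x
    have hE : E ⊆ {fun v => v.elim0} := fun e _ =>
      Finset.mem_singleton.mpr (funext fun v => v.elim0)
    refine (Finset.sum_le_sum_of_subset_of_nonneg hE fun e _ _ => ?_).trans ?_
    · split_ifs <;> positivity
    · simp only [Finset.sum_singleton, Finset.univ_eq_empty, Finset.sum_empty, sub_zero, add_zero,
        Finset.prod_empty, mul_one]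
      split_ifs <;> simp
  | succ M ih =>
    intro w hw E x
    set B := E.sup (fun e => e 0) + 1 with hB
    set E' := E.image (fun e => Fin.tail e) with hE'
    have hsub : E ⊆ (Finset.range B ×ˢ E').image (fun q => Fin.cons q.1 q.2) := by
      intro e he
      refine Finset.mem_image.mpr ⟨(e 0, Fin.tail e), ?_, Fin.cons_self_tail e⟩
      refine Finset.mem_product.mpr ⟨Finset.mem_range.mpr ?_, Finset.mem_image_of_mem _ he⟩
      exact Nat.lt_succ_of_le (Finset.le_sup (f := fun e => e 0) he)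
    refine (Finset.sum_le_sum_of_subset_of_nonneg hsub fun e _ _ => ?_).trans ?_
    · split_ifs <;> positivity
    rw [Finset.sum_image (fun a _ b _ h => by
      have := Fin.cons_injective2 h
      exact Prod.ext this.1 this.2), Finset.sum_product]
    have hc : 0 ≤ ∑ v : Fin M, w v.succ := Finset.sum_nonneg fun v _ => (hw _).le
    have hp : 0 < ∏ v : Fin M, w v.succ := Finset.prod_pos fun v _ => hw _
    have h1 : ∀ f ∈ Finset.range B, ∑ e ∈ E', (if 0 ≤ x - ∑ v, w v *
        ((Fin.cons f e : Fin (M + 1) → ℕ) v : ℝ) then (x - ∑ v, w v *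
        ((Fin.cons f e : Fin (M + 1) → ℕ) v : ℝ)) ^ p else 0) / p.factorial
        ≤ (if 0 ≤ x - w 0 * f then (x - w 0 * f + ∑ v : Fin M, w v.succ) ^ (p + M) else 0)
          / ((p + M).factorial * ∏ v : Fin M, w v.succ) := by
      intro f _
      have := ih (fun v => w v.succ) (fun v => hw _) E' (x - w 0 * f)
      simp only [Fin.sum_univ_succ, Fin.cons_zero, Fin.cons_succ, ← sub_sub]
      refine this.trans (le_of_eq ?_)
      split_ifs <;> simp
    refine (Finset.sum_le_sum h1).trans ?_
    rw [← Finset.sum_div]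
    refine (div_le_div_of_nonneg_right (db_one_var (p + M) (w 0) _ (hw 0) hc B x)
      (by positivity)).trans (le_of_eq ?_)
    split_ifs
    · rw [Fin.sum_univ_succ, Fin.prod_univ_succ, ← add_assoc p M 1, Nat.factorial_succ]
      have := hw 0
      push_cast
      rw [show x + ∑ v : Fin M, w v.succ + w 0 = x + (w 0 + ∑ v : Fin M, w v.succ) by ring]
      field_simp
    · simp

theorem det_bound {ι : Type*} [Fintype ι] [DecidableEq ι] (M : ℕ) (w : Fin M → ℝ)
    (hw : ∀ v, 0 < w v) (P : ι → MvPolynomial (Fin M) ℂ) (K : ℝ) (hP : ∀ j, l1 (P j) ≤ K)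
    (X : ℝ) (hX : 1 ≤ X) (τ : ι → Fin M → ℂ) (hτ : ∀ l v, ‖τ l v‖ ≤ X ^ (-w v))
    (W : ℝ) (hW : 0 ≤ W) :
    ‖(Matrix.of fun l j => MvPolynomial.eval (τ l) (P j)).det‖ ≤
      ((Fintype.card ι).factorial : ℝ) * K ^ (Fintype.card ι) *
        X ^ (-(W * (Fintype.card ι : ℝ) -
          (W + ∑ v, w v) ^ (M + 1) / (((M + 1).factorial : ℝ) * ∏ v, w v))) := by
  classical
  have hX0 : 0 < X := by linarith
  set Y : ℝ := X ^ (-(W * (Fintype.card ι : ℝ) -
          (W + ∑ v, w v) ^ (M + 1) / (((M + 1).factorial : ℝ) * ∏ v, w v))) with hY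
  have hY0 : 0 ≤ Y := Real.rpow_nonneg hX0.le _
  set m : ι → (Fin M →₀ ℕ) → ℂ := fun l e => ∏ v, τ l v ^ e v with hm
  have hexp : (Matrix.of fun l j => MvPolynomial.eval (τ l) (P j)).det
      = ∑ g ∈ Fintype.piFinset (fun j => (P j).support),
        (∏ j, (P j).coeff (g j)) * (Matrix.of fun l j => m l (g j)).det := by
    simp only [Matrix.det_apply', Matrix.of_apply, MvPolynomial.eval_eq', Finset.mul_sum,
      Finset.prod_univ_sum]
    rw [Finset.sum_comm]
    refine Finset.sum_congr rfl fun g _ => Finset.sum_congr rfl fun s _ => ?_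
    rw [Finset.prod_mul_distrib]
    simp only [hm]
    ring
  have hm1 : ∀ l e, ‖m l e‖ ≤ X ^ (-∑ v, w v * e v) := by
    intro l e
    simp only [hm]
    rw [norm_prod, ← Finset.sum_neg_distrib, Real.rpow_sum_of_pos hX0]
    refine Finset.prod_le_prod (fun v _ => norm_nonneg _) fun v _ => ?_
    rw [norm_pow, ← neg_mul, Real.rpow_mul_natCast hX0.le]
    exact pow_le_pow_left₀ (norm_nonneg _) (hτ l v) _
  have hdet : ∀ g : ι → (Fin M →₀ ℕ),
      ‖(Matrix.of fun l j => m l (g j)).det‖ ≤ ((Fintype.card ι).factorial : ℝ) * Y := by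
    intro g
    by_cases hg : Function.Injective g
    · have h1 : W * (Fintype.card ι : ℝ) -
          (W + ∑ v, w v) ^ (M + 1) / (((M + 1).factorial : ℝ) * ∏ v, w v)
          ≤ ∑ j, ∑ v, w v * g j v := by
        have h2 := db_key 1 M w hw (Finset.univ.image fun j => (g j : Fin M → ℕ)) W
        rw [Finset.sum_image (fun a _ b _ h => hg (DFunLike.coe_injective h)), if_pos hW,
          add_comm 1 M] at h2
        have h3 : W * (Fintype.card ι : ℝ) - ∑ j, ∑ v, w v * g j v
            = ∑ j, (W - ∑ v, w v * g j v) := by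
          rw [Finset.sum_sub_distrib, Finset.sum_const, Finset.card_univ, nsmul_eq_mul, mul_comm]
        have h4 : ∑ j, (W - ∑ v, w v * g j v) ≤ ∑ j, (if 0 ≤ W - ∑ v, w v * g j v
            then (W - ∑ v, w v * g j v) ^ 1 else 0) / (Nat.factorial 1) := by
          refine Finset.sum_le_sum fun j _ => ?_
          split_ifs with h
          · simp
          · simp only [zero_div]; linarith
        linarith
      rw [Matrix.det_apply']
      refine (norm_sum_le _ _).trans ?_
      rw [← Fintype.card_perm, ← Finset.card_univ, ← nsmul_eq_mul, ← Finset.sum_const]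
      refine Finset.sum_le_sum fun s _ => ?_
      have hs : ‖((Equiv.Perm.sign s : ℤ) : ℂ)‖ = 1 := by
        rcases Int.units_eq_one_or (Equiv.Perm.sign s) with h | h <;> simp [h]
      rw [norm_mul, hs, one_mul, norm_prod]
      refine (Finset.prod_le_prod (fun j _ => norm_nonneg _) fun j _ => hm1 (s j) (g j)).trans ?_
      rw [← Real.rpow_sum_of_pos hX0, Finset.sum_neg_distrib]
      exact Real.rpow_le_rpow_of_exponent_le hX (neg_le_neg h1)
    · rw [Function.not_injective_iff] at hg
      obtain ⟨a, b, hab, hne⟩ := hg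
      rw [Matrix.det_zero_of_column_eq hne (fun l => by simp [hab]), norm_zero]
      positivity
  rw [hexp]
  refine (norm_sum_le _ _).trans ?_
  have h5 : ∑ g ∈ Fintype.piFinset (fun j => (P j).support), ∏ j, ‖(P j).coeff (g j)‖
      ≤ K ^ (Fintype.card ι) := by
    rw [← Finset.prod_univ_sum (fun j => (P j).support) (fun j e => ‖(P j).coeff e‖),
      ← Finset.card_univ, ← Finset.prod_const]
    exact Finset.prod_le_prod (fun j _ => l1_nonneg _) fun j _ => hP j
  calc ∑ g ∈ Fintype.piFinset (fun j => (P j).support),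
        ‖(∏ j, (P j).coeff (g j)) * (Matrix.of fun l j => m l (g j)).det‖
      ≤ ∑ g ∈ Fintype.piFinset (fun j => (P j).support),
        (∏ j, ‖(P j).coeff (g j)‖) * (((Fintype.card ι).factorial : ℝ) * Y) := by
        refine Finset.sum_le_sum fun g _ => ?_
        rw [norm_mul, norm_prod]
        exact mul_le_mul_of_nonneg_left (hdet g) (Finset.prod_nonneg fun _ _ => norm_nonneg _)
    _ ≤ K ^ (Fintype.card ι) * (((Fintype.card ι).factorial : ℝ) * Y) := by
        rw [← Finset.sum_mul]
        exact mul_le_mul_of_nonneg_right h5 (by positivity)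
    _ = _ := by ring

end Vale.Agent.P018
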