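import Vale.Agent.P018.Basic

namespace Vale.Agent.P018

open Finset

theorem exists_kernel {F ι κ : Type*} [Field F] [Fintype ι] [DecidableEq ι] (T : Finset κ)
    (v : κ → ι → F)
    (h : ∀ l : ι → κ, (∀ j, l j ∈ T) → (Matrix.of fun i j => v (l i) j).det = 0) :
    ∃ c : ι → F, c ≠ 0 ∧ ∀ N ∈ T, ∑ j, c j * v N j = 0 := by
  classical
  set V : Submodule F (ι → F) := Submodule.span F (v '' (T : Set κ)) with hV
  by_cases hVtop : V = ⊤
  · exfalso
    obtain ⟨s, hs, hspan, hli⟩ := exists_linearIndependent F (v '' (T : Set κ))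
    have hfin : s.Finite := ((T.finite_toSet.image v).subset hs)
    haveI : Fintype s := hfin.fintype
    let bs : Module.Basis s F (ι → F) :=
      Module.Basis.mk hli (by
        rw [Subtype.range_coe_subtype]
        simp only [Set.setOf_mem_eq]
        rw [hspan, ← hV, hVtop])
    have hcard : Fintype.card ι = Fintype.card s := by
      rw [← Module.finrank_eq_card_basis bs]; simp
    let eq : ι ≃ s := Fintype.equivOfCardEq hcard
    have hex : ∀ x : s, ∃ N ∈ T, v N = x := fun x => by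
      obtain ⟨N, hN, hN'⟩ := hs x.2
      exact ⟨N, hN, hN'⟩
    choose l hl hl' using hex
    have hdet := h (fun j => l (eq j)) (fun j => hl _)
    have hli' : LinearIndependent F (Matrix.of fun i j => v (l (eq i)) j).row := by
      have : (Matrix.of fun i j => v (l (eq i)) j).row = (fun x : s => (x : ι → F)) ∘ eq := by
        funext i
        simp only [Function.comp]
        rw [← hl']
        rfl
      rw [this]
      exact hli.comp _ eq.injective
    rw [Matrix.linearIndependent_rows_iff_isUnit, Matrix.isUnit_iff_isUnit_det, hdet] at hli'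
    exact not_isUnit_zero hli'
  · obtain ⟨f, hf0, hf⟩ := Submodule.exists_le_ker_of_lt_top V (lt_top_iff_ne_top.mpr hVtop)
    refine ⟨fun j => f (Pi.single j 1), ?_, fun N hN => ?_⟩
    · intro hc
      apply hf0
      refine (Pi.basisFun F ι).ext fun j => ?_
      simpa using congrFun hc j
    · have h1 : v N ∈ V := Submodule.subset_span ⟨N, hN, rfl⟩
      have h2 : f (v N) = 0 := hf h1
      have h3 : v N = ∑ j, v N j • (Pi.single j (1 : F) : ι → F) := by
        funext i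
        simp [Finset.sum_apply, Pi.single_apply]
      rw [h3, map_sum] at h2
      rw [← h2]
      refine Finset.sum_congr rfl fun j _ => ?_
      rw [map_smul, smul_eq_mul, mul_comm]

/-- the exponent vector attached to a pair `(A, B)` -/
noncomputable def expo {n : ℕ} (k b : ℕ) (AB : (Fin (n + 2) → ℕ) × (Fin (n + 2) → ℕ)) :
    Fin (n + 1) →₀ ℕ :=
  Finsupp.equivFunOnFinite.symm fun i => AB.1 i.succ + k * (b - AB.2 i.succ)

theorem expo_apply {n : ℕ} (k b : ℕ) (AB : (Fin (n + 2) → ℕ) × (Fin (n + 2) → ℕ))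
    (i : Fin (n + 1)) : expo k b AB i = AB.1 i.succ + k * (b - AB.2 i.succ) := rfl

theorem entry_eq {K : Type*} [Field K] {n : ℕ} (k a b : ℕ) (α β θ : Fin (n + 2) → K) (m N : K)
    (hα : ∀ i, α i ≠ 0) (hβ : ∀ i, α i ^ k * β i = m ^ k * (N - θ i))
    (AB : (Fin (n + 2) → ℕ) × (Fin (n + 2) → ℕ)) (hA : ∑ i, AB.1 i = a) (hB : ∑ i, AB.2 i = b) :
    ∏ i, (α i ^ AB.1 i * β i ^ AB.2 i) =
      (m ^ (k * b) * α 0 ^ (a + k * ((n + 1) * b)) / ∏ i, α i ^ (k * b)) *
        ((∏ i : Fin (n + 1), (α i.succ / α 0) ^ expo k b AB i) * ∏ i, (N - θ i) ^ AB.2 i) := by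
  have hBi : ∀ i, AB.2 i ≤ b := fun i =>
    hB ▸ Finset.single_le_sum (f := AB.2) (fun _ _ => Nat.zero_le _) (Finset.mem_univ i)
  have hne : ∏ i, α i ^ (k * b) ≠ 0 := Finset.prod_ne_zero_iff.mpr fun i _ => pow_ne_zero _ (hα i)
  have h1 : ∀ i, (α i ^ AB.1 i * β i ^ AB.2 i) * α i ^ (k * b) =
      α i ^ (AB.1 i + k * (b - AB.2 i)) * ((m ^ k) ^ AB.2 i * (N - θ i) ^ AB.2 i) := by
    intro i
    rw [← mul_pow, ← hβ i]
    obtain ⟨c, hc⟩ := Nat.exists_eq_add_of_le (hBi i)
    rw [hc, Nat.add_sub_cancel_left]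
    ring
  have hsum : ∑ i, (AB.1 i + k * (b - AB.2 i)) = a + k * ((n + 1) * b) := by
    rw [Finset.sum_add_distrib, hA, ← Finset.mul_sum]
    congr 2
    have : ∑ i, (b - AB.2 i) + ∑ i, AB.2 i = (n + 2) * b := by
      rw [← Finset.sum_add_distrib]
      rw [Finset.sum_congr rfl fun i _ => Nat.sub_add_cancel (hBi i)]
      simp
    rw [hB] at this
    have h2 : (n + 2) * b = (n + 1) * b + b := by ring
    omega
  have h2 : ∏ i, α i ^ (AB.1 i + k * (b - AB.2 i)) =
      α 0 ^ (a + k * ((n + 1) * b)) * ∏ i : Fin (n + 1), (α i.succ / α 0) ^ expo k b AB i := by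
    have h3 : ∀ i, α i ^ (AB.1 i + k * (b - AB.2 i)) =
        α 0 ^ (AB.1 i + k * (b - AB.2 i)) * (α i / α 0) ^ (AB.1 i + k * (b - AB.2 i)) := by
      intro i
      rw [← mul_pow, mul_div_cancel₀ _ (hα 0)]
    rw [Finset.prod_congr rfl fun i _ => h3 i, Finset.prod_mul_distrib, Finset.prod_pow_eq_pow_sum,
      hsum, Fin.prod_univ_succ (fun i => (α i / α 0) ^ (AB.1 i + k * (b - AB.2 i))),
      div_self (hα 0), one_pow, one_mul]
    rfl
  rw [div_mul_eq_mul_div, eq_div_iff hne, ← Finset.prod_mul_distrib,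
    Finset.prod_congr rfl fun i _ => h1 i, Finset.prod_mul_distrib, Finset.prod_mul_distrib, h2,
    Finset.prod_pow_eq_pow_sum, hB, ← pow_mul]
  ring

/-- the auxiliary polynomial -/
noncomputable def auxPoly {F : Type*} [Field F] {n : ℕ} (k b : ℕ) (θ : Fin (n + 2) → F)
    (G : Finset ((Fin (n + 2) → ℕ) × (Fin (n + 2) → ℕ))) (c : G → F) :
    MvPolynomial (Fin (n + 1)) (Polynomial F) :=
  ∑ j : G, MvPolynomial.monomial (expo k b j.1)
    (Polynomial.C (c j) * ∏ i, (Polynomial.X - Polynomial.C (θ i)) ^ j.1.2 i)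

theorem auxPoly_eval {F : Type*} [Field F] {n : ℕ} (k b : ℕ) (θ : Fin (n + 2) → F)
    (G : Finset ((Fin (n + 2) → ℕ) × (Fin (n + 2) → ℕ))) (c : G → F) (N : F)
    (x : Fin (n + 1) → F) :
    MvPolynomial.eval₂ (Polynomial.evalRingHom N) x (auxPoly k b θ G c) =
      ∑ j : G, c j * ((∏ i : Fin (n + 1), x i ^ expo k b j.1 i) * ∏ i, (N - θ i) ^ j.1.2 i) := by
  unfold auxPoly
  rw [MvPolynomial.eval₂_sum]
  refine Finset.sum_congr rfl fun j _ => ?_
  rw [MvPolynomial.eval₂_monomial, Finsupp.prod_fintype _ _ (by simp)]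
  simp [Polynomial.eval_prod]
  ring

theorem auxPoly_coeff {F : Type*} [Field F] {n : ℕ} (k b : ℕ) (θ : Fin (n + 2) → F)
    (G : Finset ((Fin (n + 2) → ℕ) × (Fin (n + 2) → ℕ))) (c : G → F) (E : Fin (n + 1) →₀ ℕ) :
    (auxPoly k b θ G c).coeff E = ∑ j : G, if expo k b j.1 = E then
      Polynomial.C (c j) * ∏ i, (Polynomial.X - Polynomial.C (θ i)) ^ j.1.2 i else 0 := by
  unfold auxPoly
  rw [MvPolynomial.coeff_sum]
  refine Finset.sum_congr rfl fun j _ => ?_
  rw [MvPolynomial.coeff_monomial]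

theorem auxPoly_support {F : Type*} [Field F] {n : ℕ} (k a b : ℕ) (θ : Fin (n + 2) → F)
    (G : Finset ((Fin (n + 2) → ℕ) × (Fin (n + 2) → ℕ))) (c : G → F)
    (hA : ∀ AB ∈ G, ∑ i, AB.1 i = a) :
    ∀ E ∈ (auxPoly k b θ G c).support, ∀ i, E i ≤ a + k * b := by
  intro E hE i
  rw [MvPolynomial.mem_support_iff, auxPoly_coeff] at hE
  obtain ⟨j, -, hj⟩ := Finset.exists_ne_zero_of_sum_ne_zero hE
  have h1 : expo k b j.1 = E := by
    by_contra h; simp [h] at hj
  rw [← h1, expo_apply]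
  have h2 : j.1.1 i.succ ≤ a := (hA j.1 j.2) ▸
    Finset.single_le_sum (f := j.1.1) (fun _ _ => Nat.zero_le _) (Finset.mem_univ _)
  have h3 : k * (b - j.1.2 i.succ) ≤ k * b := Nat.mul_le_mul_left _ (Nat.sub_le _ _)
  omega

theorem auxPoly_natDegree {F : Type*} [Field F] {n : ℕ} (k b : ℕ) (θ : Fin (n + 2) → F)
    (G : Finset ((Fin (n + 2) → ℕ) × (Fin (n + 2) → ℕ))) (c : G → F)
    (hB : ∀ AB ∈ G, ∑ i, AB.2 i = b) (E : Fin (n + 1) →₀ ℕ) :
    ((auxPoly k b θ G c).coeff E).natDegree ≤ b := by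
  rw [auxPoly_coeff]
  refine Polynomial.natDegree_sum_le_of_forall_le _ _ fun j _ => ?_
  split_ifs
  · refine (Polynomial.natDegree_C_mul_le _ _).trans ?_
    refine (Polynomial.natDegree_prod_le _ _).trans ?_
    rw [← hB j.1 j.2]
    refine Finset.sum_le_sum fun i _ => ?_
    refine Polynomial.natDegree_pow_le.trans ?_
    simp
  · simp

theorem auxPoly_ne_zero {F : Type*} [Field F] {n : ℕ} (k a b : ℕ) (θ : Fin (n + 2) → F)
    (hθ : ∀ i, i ≠ 1 → θ i ≠ θ 1)
    (G : Finset ((Fin (n + 2) → ℕ) × (Fin (n + 2) → ℕ))) (c : G → F) (hc : c ≠ 0)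
    (hA : ∀ AB ∈ G, ∑ i, AB.1 i = a) (hB : ∀ AB ∈ G, ∑ i, AB.2 i = b)
    (hred : ∀ AB ∈ G, ∀ i : Fin n, AB.1 i.succ.succ < k ∨ AB.2 i.succ.succ = 0) :
    auxPoly k b θ G c ≠ 0 := by
  classical
  obtain ⟨j1, hj1⟩ : ∃ j, c j ≠ 0 := by
    by_contra h; push Not at h; exact hc (funext h)
  set E := expo k b j1.1 with hE
  set J : Finset G := Finset.univ.filter fun j => expo k b j.1 = E ∧ c j ≠ 0 with hJ
  have hJne : J.Nonempty := ⟨j1, by simp [hJ, hE, hj1]⟩
  obtain ⟨j0, hj0, hmin⟩ := J.exists_min_image (fun j => j.1.2 1) hJne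
  have hBi : ∀ AB ∈ G, ∀ i, AB.2 i ≤ b := fun AB hAB i =>
    (hB AB hAB) ▸ Finset.single_le_sum (f := AB.2) (fun _ _ => Nat.zero_le _) (Finset.mem_univ i)
  have huniq : ∀ j j' : G, expo k b j.1 = expo k b j'.1 → j.1.2 1 = j'.1.2 1 → j = j' := by
    intro j j' h h1
    have hs : ∀ i : Fin (n + 1), j.1.2 i.succ = j'.1.2 i.succ := by
      intro i
      refine Fin.cases ?_ (fun i => ?_) i
      · exact h1
      · have h2 := congrArg (fun E : Fin (n + 1) →₀ ℕ => E i.succ) h
        simp only [expo_apply] at h2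
        have h3 := hred j.1 j.2 i
        have h4 := hred j'.1 j'.2 i
        have h5 := hBi j.1 j.2 i.succ.succ
        have h6 := hBi j'.1 j'.2 i.succ.succ
        rcases lt_trichotomy (j.1.2 i.succ.succ) (j'.1.2 i.succ.succ) with h7 | h7 | h7
        · exfalso
          have h8 : k * (b - j'.1.2 i.succ.succ) + k ≤ k * (b - j.1.2 i.succ.succ) := by
            rw [← Nat.mul_succ]; exact Nat.mul_le_mul_left _ (by omega)
          omega
        · exact h7
        · exfalso
          have h8 : k * (b - j.1.2 i.succ.succ) + k ≤ k * (b - j'.1.2 i.succ.succ) := by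
            rw [← Nat.mul_succ]; exact Nat.mul_le_mul_left _ (by omega)
          omega
    have hsA : ∀ i : Fin (n + 1), j.1.1 i.succ = j'.1.1 i.succ := by
      intro i
      have h2 := congrArg (fun E : Fin (n + 1) →₀ ℕ => E i) h
      simp only [expo_apply, hs i] at h2
      omega
    have hB0 : j.1.2 0 = j'.1.2 0 := by
      have h2 := hB j.1 j.2
      have h3 := hB j'.1 j'.2
      rw [Fin.sum_univ_succ] at h2 h3
      rw [Finset.sum_congr rfl fun i _ => hs i] at h2
      omega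
    have hA0 : j.1.1 0 = j'.1.1 0 := by
      have h2 := hA j.1 j.2
      have h3 := hA j'.1 j'.2
      rw [Fin.sum_univ_succ] at h2 h3
      rw [Finset.sum_congr rfl fun i _ => hsA i] at h2
      omega
    apply Subtype.ext
    apply Prod.ext
    · funext i; exact Fin.cases hA0 hsA i
    · funext i; exact Fin.cases hB0 hs i
  intro h0
  have hco := auxPoly_coeff k b θ G c E
  rw [h0, MvPolynomial.coeff_zero] at hco
  set f0 := j0.1.2 1 with hf0
  let R : G → Polynomial F := fun j => Polynomial.C (c j) *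
    ((Polynomial.X - Polynomial.C (θ 1)) ^ (j.1.2 1 - f0) *
      ∏ i ∈ Finset.univ.erase 1, (Polynomial.X - Polynomial.C (θ i)) ^ j.1.2 i)
  have hfac : (0 : Polynomial F) = (Polynomial.X - Polynomial.C (θ 1)) ^ f0 * ∑ j ∈ J, R j := by
    rw [hco, Finset.mul_sum, hJ, Finset.sum_filter]
    refine Finset.sum_congr rfl fun j _ => ?_
    by_cases h1 : expo k b j.1 = E
    · by_cases h2 : c j = 0
      · simp [h1, h2]
      · have h3 : f0 ≤ j.1.2 1 := hmin j (by simp [hJ, h1, h2])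
        rw [if_pos h1, if_pos ⟨h1, h2⟩, ← Finset.mul_prod_erase _ _ (Finset.mem_univ 1)]
        obtain ⟨u, hu⟩ := Nat.exists_eq_add_of_le h3
        simp only [R]
        rw [hu, Nat.add_sub_cancel_left, pow_add]
        ring
    · simp [h1]
  have hR : ∑ j ∈ J, R j = 0 := by
    rcases mul_eq_zero.mp hfac.symm with h | h
    · exact absurd h (pow_ne_zero _ (Polynomial.X_sub_C_ne_zero _))
    · exact h
  have hev := congrArg (Polynomial.eval (θ 1)) hR
  rw [Polynomial.eval_finset_sum, Finset.sum_eq_single j0, Polynomial.eval_zero] at hev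
  · simp only [R, hf0, Nat.sub_self, pow_zero, one_mul, Polynomial.eval_mul, Polynomial.eval_C,
      Polynomial.eval_prod, Polynomial.eval_pow, Polynomial.eval_sub, Polynomial.eval_X] at hev
    have hc0 : c j0 ≠ 0 := (Finset.mem_filter.mp hj0).2.2
    rcases mul_eq_zero.mp hev with h | h
    · exact hc0 h
    · obtain ⟨i, hi, hi'⟩ := Finset.prod_eq_zero_iff.mp h
      exact hθ i (Finset.ne_of_mem_erase hi) (sub_eq_zero.mp (pow_eq_zero_iff'.mp hi').1).symm
  · intro j hj hne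
    have h3 : f0 ≤ j.1.2 1 := hmin j hj
    have h4 : j.1.2 1 ≠ f0 := fun h => hne (huniq j j0
      ((Finset.mem_filter.mp hj).2.1.trans (Finset.mem_filter.mp hj0).2.1.symm) h)
    have h5 : j.1.2 1 - f0 ≠ 0 := by omega
    simp [R, h5]
  · intro h; exact absurd hj0 h

end Vale.Agent.P018
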