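import Vale.Agent.P018.Setup
import Vale.Agent.P018.Relation
import Vale.Agent.P018.DetBound

namespace Vale.Agent.P018

open NumberField Finset Filter

/-- value of a real coefficient vector -/
noncomputable def pr {e : ℕ} (u : Fin (e + 1) → ℝ) (t : ℂ) : ℂ := ∑ l, (u l : ℂ) * t ^ (l : ℕ)

theorem norm_pr_le {e : ℕ} (u : Fin (e + 1) → ℝ) (P : ℝ) (hu : ∀ l, |u l| ≤ P) (t : ℂ)
    (Θ : ℝ) (hΘ : 1 ≤ Θ) (ht : ‖t‖ ≤ Θ) : ‖pr u t‖ ≤ (e + 1) * Θ ^ e * P := by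
  have hP : 0 ≤ P := (abs_nonneg _).trans (hu 0)
  unfold pr
  calc ‖∑ l, (u l : ℂ) * t ^ (l : ℕ)‖ ≤ ∑ l : Fin (e + 1), ‖(u l : ℂ) * t ^ (l : ℕ)‖ :=
        norm_sum_le _ _
    _ ≤ ∑ _l : Fin (e + 1), Θ ^ e * P := by
        refine Finset.sum_le_sum fun l _ => ?_
        rw [norm_mul, norm_pow, mul_comm]
        have h1 : ‖t‖ ^ (l : ℕ) ≤ Θ ^ e :=
          (pow_le_pow_left₀ (norm_nonneg _) ht _).trans
            (pow_le_pow_right₀ hΘ (Nat.lt_succ_iff.mp l.2))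
        have h2 : ‖(u l : ℂ)‖ ≤ P := by
          rw [Complex.norm_real, Real.norm_eq_abs]; exact hu l
        gcongr
    _ = (e + 1) * Θ ^ e * P := by simp; ring

theorem pr_sub {e : ℕ} (u v : Fin (e + 1) → ℝ) (t : ℂ) :
    pr u t - pr v t = pr (fun l => u l - v l) t := by
  unfold pr
  rw [← Finset.sum_sub_distrib]
  refine Finset.sum_congr rfl fun l _ => ?_
  push_cast; ring

theorem pv_eq_pr {e : ℕ} (a : Fin (e + 1) → ℤ) (c : ℤ) (hc : c ≠ 0) (t : ℂ) :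
    pv a t = (c : ℂ) * pr (fun l => (a l : ℝ) / c) t := by
  unfold pv pr
  rw [Finset.mul_sum]
  refine Finset.sum_congr rfl fun l _ => ?_
  have : (c : ℂ) ≠ 0 := by exact_mod_cast hc
  push_cast
  field_simp

theorem ratio_close {e : ℕ} (a a' : Fin (e + 1) → ℤ) (l0 : Fin (e + 1)) (C P P' δ : ℝ)
    (hC : 1 ≤ C) (s t : ℂ) (hs : ‖s‖ ≤ C) (ht : ‖t‖ ≤ C)
    (h0 : a l0 ≠ 0) (h0' : a' l0 ≠ 0)
    (hmax' : ∀ l, |(a' l : ℝ)| ≤ |(a' l0 : ℝ)|)
    (hP : |(a l0 : ℝ)| ≤ P) (hP' : |(a' l0 : ℝ)| ≤ P')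
    (hl : P ≤ C * ‖pv a s‖) (hl' : P' ≤ C * ‖pv a' s‖)
    (hδ : ∀ l, |(a l : ℝ) / a l0 - (a' l : ℝ) / a' l0| ≤ δ) :
    ‖pv a t / pv a s - pv a' t / pv a' s‖ ≤ 2 * ((e + 1) * C ^ e) ^ 2 * C ^ 2 * δ := by
  set u : Fin (e + 1) → ℝ := fun l => (a l : ℝ) / a l0
  set u' : Fin (e + 1) → ℝ := fun l => (a' l : ℝ) / a' l0
  set D : ℝ := (e + 1) * C ^ e with hD
  have hδ0 : 0 ≤ δ := (abs_nonneg _).trans (hδ 0)
  have hD0 : 0 ≤ D := by positivity
  have ha0 : (0 : ℝ) < |(a l0 : ℝ)| := abs_pos.mpr (by exact_mod_cast h0)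
  have ha0' : (0 : ℝ) < |(a' l0 : ℝ)| := abs_pos.mpr (by exact_mod_cast h0')
  have hc : (a l0 : ℂ) ≠ 0 := by exact_mod_cast h0
  have hc' : (a' l0 : ℂ) ≠ 0 := by exact_mod_cast h0'
  have low : 1 ≤ C * ‖pr u s‖ := by
    rw [pv_eq_pr a _ h0, norm_mul, Complex.norm_intCast] at hl
    have : |(a l0 : ℝ)| * 1 ≤ |(a l0 : ℝ)| * (C * ‖pr u s‖) := by nlinarith
    exact le_of_mul_le_mul_left this ha0
  have low' : 1 ≤ C * ‖pr u' s‖ := by
    rw [pv_eq_pr a' _ h0', norm_mul, Complex.norm_intCast] at hl'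
    have : |(a' l0 : ℝ)| * 1 ≤ |(a' l0 : ℝ)| * (C * ‖pr u' s‖) := by nlinarith
    exact le_of_mul_le_mul_left this ha0'
  have hs0 : pr u s ≠ 0 := by
    intro h; rw [h] at low; norm_num at low
  have hs0' : pr u' s ≠ 0 := by
    intro h; rw [h] at low'; norm_num at low'
  have hu' : ∀ l, |u' l| ≤ 1 := fun l => by
    simp only [u', abs_div]
    exact (div_le_one ha0').mpr (hmax' l)
  have b1 : ‖pr u t - pr u' t‖ ≤ D * δ := by rw [pr_sub]; exact norm_pr_le _ _ hδ _ _ hC ht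
  have b2 : ‖pr u s - pr u' s‖ ≤ D * δ := by rw [pr_sub]; exact norm_pr_le _ _ hδ _ _ hC hs
  have b3 : ‖pr u' s‖ ≤ D := by simpa using norm_pr_le _ _ hu' _ _ hC hs
  have b4 : ‖pr u' t‖ ≤ D := by simpa using norm_pr_le _ _ hu' _ _ hC ht
  have e1 : pv a t / pv a s - pv a' t / pv a' s =
      ((pr u t - pr u' t) * pr u' s - pr u' t * (pr u s - pr u' s)) / (pr u s * pr u' s) := by
    have f1 : ∀ r, pv a r = (a l0 : ℂ) * pr u r := fun r => pv_eq_pr a _ h0 r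
    have f2 : ∀ r, pv a' r = (a' l0 : ℂ) * pr u' r := fun r => pv_eq_pr a' _ h0' r
    rw [f1, f1, f2, f2]
    generalize pr u s = A at *
    generalize pr u' s = B at *
    generalize pr u t = A' at *
    generalize pr u' t = B' at *
    field_simp
    ring
  have hn : ‖(pr u t - pr u' t) * pr u' s - pr u' t * (pr u s - pr u' s)‖ ≤ 2 * D ^ 2 * δ := by
    refine (norm_sub_le _ _).trans ?_
    rw [norm_mul, norm_mul]
    have : ‖pr u t - pr u' t‖ * ‖pr u' s‖ ≤ D * δ * D := by gcongr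
    have : ‖pr u' t‖ * ‖pr u s - pr u' s‖ ≤ D * (D * δ) := by gcongr
    nlinarith
  rw [e1, norm_div, norm_mul, div_le_iff₀ (by positivity)]
  have h5 : 1 ≤ C ^ 2 * (‖pr u s‖ * ‖pr u' s‖) := by
    have := one_le_mul_of_one_le_of_one_le low low'
    nlinarith
  calc _ ≤ 2 * D ^ 2 * δ * 1 := by linarith
    _ ≤ 2 * D ^ 2 * δ * (C ^ 2 * (‖pr u s‖ * ‖pr u' s‖)) := by gcongr
    _ = _ := by ring

/-- the column polynomial -/
noncomputable def colPoly {n : ℕ} (k b : ℕ) (x0 : Fin (n + 1) → ℂ) (θ : Fin (n + 2) → ℂ)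
    (AB : (Fin (n + 2) → ℕ) × (Fin (n + 2) → ℕ)) : MvPolynomial (Fin (n + 2)) ℂ :=
  (∏ i : Fin (n + 1), (MvPolynomial.C (x0 i) + MvPolynomial.X i.succ) ^ expo k b AB i) *
    ∏ i, (MvPolynomial.C 1 + MvPolynomial.C (-θ i) * MvPolynomial.X 0) ^ AB.2 i

theorem colPoly_eval {n : ℕ} (k b : ℕ) (x0 x : Fin (n + 1) → ℂ) (θ : Fin (n + 2) → ℂ)
    (AB : (Fin (n + 2) → ℕ) × (Fin (n + 2) → ℕ)) (hB : ∑ i, AB.2 i = b) (N : ℂ) (hN : N ≠ 0) :
    (∏ i : Fin (n + 1), x i ^ expo k b AB i) * ∏ i, (N - θ i) ^ AB.2 i =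
      N ^ b * MvPolynomial.eval (Fin.cons N⁻¹ fun i => x i - x0 i) (colPoly k b x0 θ AB) := by
  unfold colPoly
  simp only [map_mul, map_prod, map_pow, map_add, MvPolynomial.eval_C, MvPolynomial.eval_X,
    Fin.cons_succ, Fin.cons_zero, add_sub_cancel]
  have : ∏ i, (N - θ i) ^ AB.2 i = N ^ b * ∏ i, (1 + -θ i * N⁻¹) ^ AB.2 i := by
    rw [← hB, ← Finset.prod_pow_eq_pow_sum, ← Finset.prod_mul_distrib]
    refine Finset.prod_congr rfl fun i _ => ?_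
    rw [← mul_pow]
    congr 1
    field_simp
    ring
  rw [this]; ring

theorem colPoly_l1 {n : ℕ} (k a b : ℕ) (x0 : Fin (n + 1) → ℂ) (θ : Fin (n + 2) → ℂ) (C : ℝ)
    (hC : 0 ≤ C) (hx : ∀ i, ‖x0 i‖ ≤ C) (hθ : ∀ i, ‖θ i‖ ≤ C)
    (AB : (Fin (n + 2) → ℕ) × (Fin (n + 2) → ℕ)) (hA : ∑ i, AB.1 i = a) (hB : ∑ i, AB.2 i = b) :
    l1 (colPoly k b x0 θ AB) ≤ ((1 + C) ^ (a + k * b)) ^ (n + 1) * (1 + C) ^ b := by
  unfold colPoly
  refine (l1_mul_le _ _).trans ?_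
  have h1 : l1 (∏ i : Fin (n + 1), (MvPolynomial.C (x0 i) + MvPolynomial.X i.succ :
      MvPolynomial (Fin (n + 2)) ℂ) ^ expo k b AB i) ≤ ((1 + C) ^ (a + k * b)) ^ (n + 1) := by
    refine (l1_prod_le _ _).trans ?_
    calc _ ≤ ∏ _i : Fin (n + 1), (1 + C) ^ (a + k * b) := by
          refine Finset.prod_le_prod (fun i _ => l1_nonneg _) fun i _ => ?_
          refine (l1_pow_le _ _).trans ?_
          have h2 : l1 (MvPolynomial.C (x0 i) + MvPolynomial.X i.succ :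
              MvPolynomial (Fin (n + 2)) ℂ) ≤ 1 + C := by
            refine (l1_add_le _ _).trans ?_
            rw [l1_C, l1_X]; linarith [hx i]
          have h3 : expo k b AB i ≤ a + k * b := by
            rw [expo_apply]
            have h2 : AB.1 i.succ ≤ a := hA ▸
              Finset.single_le_sum (f := AB.1) (fun _ _ => Nat.zero_le _) (Finset.mem_univ _)
            have h3 : k * (b - AB.2 i.succ) ≤ k * b := Nat.mul_le_mul_left _ (Nat.sub_le _ _)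
            omega
          exact (pow_le_pow_left₀ (l1_nonneg _) h2 _).trans
            (pow_le_pow_right₀ (by linarith) h3)
      _ = _ := by simp
  have h2 : l1 (∏ i, (MvPolynomial.C 1 + MvPolynomial.C (-θ i) * MvPolynomial.X 0 :
      MvPolynomial (Fin (n + 2)) ℂ) ^ AB.2 i) ≤ (1 + C) ^ b := by
    refine (l1_prod_le _ _).trans ?_
    rw [← hB, ← Finset.prod_pow_eq_pow_sum]
    refine Finset.prod_le_prod (fun i _ => l1_nonneg _) fun i _ => ?_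
    refine (l1_pow_le _ _).trans (pow_le_pow_left₀ (l1_nonneg _) ?_ _)
    refine (l1_add_le _ _).trans ?_
    have := l1_mul_le (MvPolynomial.C (-θ i) : MvPolynomial (Fin (n + 2)) ℂ) (MvPolynomial.X 0)
    rw [l1_C, l1_X, norm_neg, mul_one] at this
    rw [l1_C, norm_one]
    linarith [hθ i]
  exact mul_le_mul h1 h2 (l1_nonneg _) (by positivity)

variable {F : Type} [Field F] [NumberField F]

/-- the data attached to an integer `N` -/
structure PtData {e : ℕ} (ϑ : Fin (e + 1) → 𝓞 F) (k : ℕ) (N : ℤ) (p : ℕ)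
    (a : Fin (e + 1) → ℤ) (m : 𝓞 F) (β : Fin (e + 1) → 𝓞 F) : Prop where
  hp : 1 ≤ p
  ha0 : a ≠ 0
  hab : ∀ l, |(a l : ℝ)| ≤ (p : ℝ) ^ (1 / ((e : ℝ) + 1))
  hdvd : (p : ℤ) ∣ ∑ l, a l * N ^ (l : ℕ)
  hm : ∏ i, pv a (ϑ i) = p * m
  hβ : ∀ i, pv a (ϑ i) ^ k * β i = m ^ k * ((N : 𝓞 F) - ϑ i)

theorem rho_bound (e n k a b : ℕ) (C A X y1 y2 : ℝ) (hC : 1 ≤ C) (hX : 1 ≤ X) (hA : 0 ≤ A)
    (p : ℝ) (hp1 : X ^ y1 ≤ p) (hp2 : p ≤ X ^ y2) (m N : ℂ) (α : Fin (n + 2) → ℂ)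
    (hm : ‖m‖ ≤ C) (hN : ‖N‖ ≤ A * X) (hα : ∀ i, ‖α i‖ ≤ C * p ^ (1 / ((e : ℝ) + 1)))
    (hα' : ∀ i, p ^ (1 / ((e : ℝ) + 1)) ≤ C * ‖α i‖) :
    ‖(m ^ (k * b) * α 0 ^ (a + k * ((n + 1) * b)) / ∏ i, α i ^ (k * b)) * N ^ b‖ ≤
      (C ^ (k * b) * C ^ (a + k * ((n + 1) * b)) * (C ^ (k * b)) ^ (n + 2) * A ^ b) *
        X ^ ((a : ℝ) * y2 / ((e : ℝ) + 1) + (b : ℝ) * (1 - k * y1 / ((e : ℝ) + 1))) := by
  have hX0 : 0 < X := by linarith
  have hp0 : 0 < p := lt_of_lt_of_le (by positivity) hp1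
  set P := p ^ (1 / ((e : ℝ) + 1)) with hP
  have hP0 : 0 < P := by positivity
  have hC0 : 0 < C := by linarith
  have hP1 : X ^ (y1 / ((e : ℝ) + 1)) ≤ P := by
    rw [div_eq_mul_one_div, Real.rpow_mul hX0.le]
    exact Real.rpow_le_rpow (by positivity) hp1 (by positivity)
  have hP2 : P ≤ X ^ (y2 / ((e : ℝ) + 1)) := by
    rw [div_eq_mul_one_div y2, Real.rpow_mul hX0.le]
    exact Real.rpow_le_rpow hp0.le hp2 (by positivity)
  have hαpos : ∀ i, 0 < ‖α i‖ := fun i => by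
    have := hα' i
    by_contra h
    have h' : ‖α i‖ = 0 := le_antisymm (not_lt.mp h) (norm_nonneg _)
    rw [h', mul_zero] at this; linarith
  have hden : (P ^ (k * b)) ^ (n + 2) ≤ (C ^ (k * b)) ^ (n + 2) * ‖∏ i, α i ^ (k * b)‖ := by
    rw [norm_prod]
    calc (P ^ (k * b)) ^ (n + 2) = ∏ _i : Fin (n + 2), P ^ (k * b) := by simp
      _ ≤ ∏ i : Fin (n + 2), (C ^ (k * b) * ‖α i ^ (k * b)‖) := by
          refine Finset.prod_le_prod (fun _ _ => by positivity) fun i _ => ?_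
          rw [norm_pow, ← mul_pow]
          exact pow_le_pow_left₀ hP0.le (hα' i) _
      _ = _ := by rw [Finset.prod_mul_distrib]; simp
  have hdenpos : 0 < ‖∏ i, α i ^ (k * b)‖ := by
    rw [norm_prod]; exact Finset.prod_pos fun i _ => by rw [norm_pow]; exact pow_pos (hαpos i) _
  have hexp : X ^ ((a : ℝ) * y2 / ((e : ℝ) + 1) + (b : ℝ) * (1 - k * y1 / ((e : ℝ) + 1))) =
      (X ^ (y2 / ((e : ℝ) + 1))) ^ a * X ^ b / (X ^ (y1 / ((e : ℝ) + 1))) ^ (k * b) := by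
    rw [← Real.rpow_natCast (X ^ (y2 / ((e : ℝ) + 1))), ← Real.rpow_natCast X b,
      ← Real.rpow_natCast (X ^ (y1 / ((e : ℝ) + 1))), ← Real.rpow_mul hX0.le,
      ← Real.rpow_mul hX0.le, ← Real.rpow_add hX0, ← Real.rpow_sub hX0]
    congr 1
    push_cast
    ring
  have step1 : ‖(m ^ (k * b) * α 0 ^ (a + k * ((n + 1) * b)) / ∏ i, α i ^ (k * b)) * N ^ b‖ ≤
      (C ^ (k * b) * (C * P) ^ (a + k * ((n + 1) * b)) *
        ((C ^ (k * b)) ^ (n + 2) / (P ^ (k * b)) ^ (n + 2))) * (A * X) ^ b := by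
    rw [norm_mul, norm_div, norm_mul, norm_pow, norm_pow, norm_pow, div_eq_mul_inv]
    have h1 : ‖∏ i, α i ^ (k * b)‖⁻¹ ≤ (C ^ (k * b)) ^ (n + 2) / (P ^ (k * b)) ^ (n + 2) := by
      rw [le_div_iff₀ (by positivity), inv_mul_le_iff₀ hdenpos]
      linarith
    gcongr
    exact hα 0
  refine step1.trans ?_
  rw [hexp]
  have e2 : (C ^ (k * b) * (C * P) ^ (a + k * ((n + 1) * b)) *
        ((C ^ (k * b)) ^ (n + 2) / (P ^ (k * b)) ^ (n + 2))) * (A * X) ^ b =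
      (C ^ (k * b) * C ^ (a + k * ((n + 1) * b)) * (C ^ (k * b)) ^ (n + 2) * A ^ b) *
        (P ^ a * X ^ b / P ^ (k * b)) := by
    field_simp
    ring
  rw [e2]
  gcongr

theorem box_relation {e : ℕ} (ϑ : Fin (e + 1) → 𝓞 F) (hinj : Function.Injective ϑ)
    (hind : ∀ i (a : Fin (e + 1) → ℤ), a ≠ 0 → pv a (ϑ i) ≠ 0) (n k a b : ℕ)
    (G : Finset ((Fin (n + 2) → ℕ) × (Fin (n + 2) → ℕ)))
    (hA : ∀ AB ∈ G, ∑ i, AB.1 i = a) (hB : ∀ AB ∈ G, ∑ i, AB.2 i = b)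
    (hred : ∀ AB ∈ G, ∀ i : Fin n, AB.1 i.succ.succ < k ∨ AB.2 i.succ.succ = 0)
    (z W y1 y2 A : ℝ) (hz : 0 < z) (hW : 0 ≤ W) (hA0 : 0 ≤ A)
    (H : (G.card : ℝ) * ((a : ℝ) * y2 / ((e : ℝ) + 1) + (b : ℝ) * (1 - k * y1 / ((e : ℝ) + 1))) <
      W * G.card - (W + (((n : ℝ) + 1) * z + 1)) ^ (n + 3) /
        (((n + 3).factorial : ℝ) * z ^ (n + 1))) :
    ∃ κ : ℝ, 0 < κ ∧ κ ≤ 1 ∧ ∀ᶠ X : ℝ in atTop, ∀ (T : Finset ℤ) (p : ℤ → ℕ)
      (av : ℤ → Fin (e + 1) → ℤ) (m : ℤ → 𝓞 F) (β : ℤ → Fin (e + 1) → 𝓞 F) (l0 : Fin (e + 1)),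
      (∀ N ∈ T, PtData ϑ k N (p N) (av N) (m N) (β N)) →
      (∀ N ∈ T, X ≤ |(N : ℝ)| ∧ |(N : ℝ)| ≤ A * X ∧ X ^ y1 ≤ p N ∧ (p N : ℝ) ≤ X ^ y2) →
      (∀ N ∈ T, ∀ l, |(av N l : ℝ)| ≤ |(av N l0 : ℝ)|) →
      (∀ N ∈ T, ∀ N' ∈ T, ∀ l,
        |(av N l : ℝ) / av N l0 - (av N' l : ℝ) / av N' l0| ≤ κ * X ^ (-z)) →
      ∀ τ : Fin (n + 1) ↪ Fin e, ∃ Ψ : MvPolynomial (Fin (n + 1)) (Polynomial F), Ψ ≠ 0 ∧
        (∀ E ∈ Ψ.support, ∀ i, E i ≤ a + k * b) ∧ (∀ E, (Ψ.coeff E).natDegree ≤ b) ∧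
        ∀ N ∈ T, MvPolynomial.eval₂ (Polynomial.evalRingHom ((N : ℤ) : F))
          (fun i => pv (av N) (ϑ (τ i).succ : F) / pv (av N) (ϑ 0 : F)) Ψ = 0 := by
  classical
  obtain ⟨C, hC, hϑ, hup, hlow⟩ := size_bounds ϑ hind
  set κ : ℝ := (2 * ((e + 1) * C ^ e) ^ 2 * C ^ 2)⁻¹ with hκ
  have hκ1 : 1 ≤ 2 * ((e + 1) * C ^ e) ^ 2 * C ^ 2 := by
    have h1 : (1 : ℝ) ≤ (e + 1) * C ^ e :=
      one_le_mul_of_one_le_of_one_le (by linarith [Nat.cast_nonneg (α := ℝ) e]) (one_le_pow₀ hC)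
    have h2 := one_le_mul_of_one_le_of_one_le (one_le_pow₀ (n := 2) h1) (one_le_pow₀ (n := 2) hC)
    nlinarith
  set S0 : ℝ := (a : ℝ) * y2 / ((e : ℝ) + 1) + (b : ℝ) * (1 - k * y1 / ((e : ℝ) + 1)) with hS0
  set E : ℝ := W * G.card - (W + (((n : ℝ) + 1) * z + 1)) ^ (n + 3) /
        (((n + 3).factorial : ℝ) * z ^ (n + 1)) with hE
  set C1 : ℝ := C ^ (k * b) * C ^ (a + k * ((n + 1) * b)) * (C ^ (k * b)) ^ (n + 2) * A ^ b
    with hC1
  set K : ℝ := ((1 + C ^ 2) ^ (a + k * b)) ^ (n + 1) * (1 + C ^ 2) ^ b with hK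
  have hC1' : 0 ≤ C1 := by positivity
  have hlim : Tendsto (fun X : ℝ => (C1 ^ G.card * ((G.card).factorial * K ^ G.card)) *
      X ^ (-(E - G.card * S0))) atTop (nhds 0) := by
    have := (tendsto_rpow_neg_atTop (y := E - G.card * S0) (by linarith)).const_mul
      (C1 ^ G.card * ((G.card).factorial * K ^ G.card))
    simpa using this
  refine ⟨κ, by positivity, inv_le_one_of_one_le₀ hκ1, ?_⟩
  filter_upwards [hlim.eventually (gt_mem_nhds zero_lt_one), eventually_ge_atTop 1] with X hX1 hX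
  intro T p av m β l0 hD hR hmax hclose τ
  have hX0 : 0 < X := by linarith
  let ι : Fin (n + 2) → Fin (e + 1) := Fin.cons 0 fun i => (τ i).succ
  have hι : Function.Injective ι := by
    refine Fin.cons_injective_of_injective ?_ ?_
    · rintro ⟨i, hi⟩; exact Fin.succ_ne_zero _ hi
    · intro i j h; exact τ.injective (Fin.succ_injective _ h)
  let ent : ℤ → G → 𝓞 F := fun N j =>
    ∏ i, (pv (av N) (ϑ (ι i)) ^ j.1.1 i * β N (ι i) ^ j.1.2 i)
  have hl0 : ∀ N ∈ T, av N l0 ≠ 0 := by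
    intro N hN h
    apply (hD N hN).ha0
    funext l
    have := hmax N hN l
    rw [h] at this
    simpa using this
  have hdet : ∀ l : G → ℤ, (∀ j, l j ∈ T) →
      (Matrix.of fun i j => ((ent (l i) j : 𝓞 F) : F)).det = 0 := by
    intro l hl
    have h0 : (Matrix.of fun i j => ent (l i) j).det = 0 := by
      rcases isEmpty_or_nonempty G with hG | ⟨⟨j0⟩⟩
      · exfalso
        have hc : G.card = 0 := by
          rw [← Fintype.card_coe]; exact Fintype.card_eq_zero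
        have h1 : 0 ≤ (W + (((n : ℝ) + 1) * z + 1)) ^ (n + 3) /
          (((n + 3).factorial : ℝ) * z ^ (n + 1)) := by positivity
        rw [hc] at H hE
        simp only [Nat.cast_zero, zero_mul, mul_zero] at H hE
        linarith
      apply eq_zero_of_emb_lt_one
      intro φ
      set N0 := l j0
      let ζ : Fin (n + 2) → ℂ := fun i => emb φ (ϑ (ι i))
      let αc : ℤ → Fin (n + 2) → ℂ := fun N i => pv (av N) (ζ i)
      let xc : ℤ → Fin (n + 1) → ℂ := fun N i => αc N i.succ / αc N 0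
      let ρ : ℤ → ℂ := fun N => (emb φ (m N) ^ (k * b) * αc N 0 ^ (a + k * ((n + 1) * b)) /
        ∏ i, αc N i ^ (k * b)) * (N : ℂ) ^ b
      let tt : ℤ → Fin (n + 2) → ℂ := fun N => Fin.cons (N : ℂ)⁻¹ fun i => xc N i - xc N0 i
      have hb : ∀ N ∈ T, m N ≠ 0 ∧ ‖emb φ (m N)‖ ≤ C ∧
          (∀ i, (p N : ℝ) ^ (1 / ((e : ℝ) + 1)) ≤ C * ‖αc N i‖) ∧
          (∀ i, ‖αc N i‖ ≤ C * (p N : ℝ) ^ (1 / ((e : ℝ) + 1))) := by
        intro N hN
        have h1 := hlow (p N) (av N) (m N) (hD N hN).hp (hD N hN).ha0 (hD N hN).hab (hD N hN).hm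
        exact ⟨h1.1, (h1.2 φ).1, fun i => (h1.2 φ).2 _, fun i => hup φ _ _ _ (hD N hN).hab⟩
      have hPpos : ∀ N ∈ T, 0 < (p N : ℝ) ^ (1 / ((e : ℝ) + 1)) := by
        intro N hN
        have : (0 : ℝ) < p N := by exact_mod_cast (hD N hN).hp
        positivity
      have hαne : ∀ N ∈ T, ∀ i, αc N i ≠ 0 := by
        intro N hN i h
        have := (hb N hN).2.2.1 i
        rw [h, norm_zero, mul_zero] at this
        linarith [hPpos N hN]
      have hNne : ∀ N ∈ T, (N : ℂ) ≠ 0 := by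
        intro N hN h
        have h1 : N = 0 := by exact_mod_cast h
        have := (hR N hN).1
        rw [h1] at this
        simp at this; linarith
      have hent : ∀ N ∈ T, ∀ j : G, emb φ (ent N j) =
          ρ N * MvPolynomial.eval (tt N) (colPoly k b (xc N0) ζ j.1) := by
        intro N hN j
        have h1 := entry_eq k a b (αc N) (fun i => emb φ (β N (ι i))) ζ (emb φ (m N)) (N : ℂ)
          (hαne N hN) (fun i => by
            have := congrArg (emb φ) ((hD N hN).hβ (ι i))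
            simpa [map_pv] using this) j.1 (hA j.1 j.2) (hB j.1 j.2)
        rw [colPoly_eval k b (xc N0) (xc N) ζ j.1 (hB j.1 j.2) (N : ℂ) (hNne N hN)] at h1
        simp only [ent, map_prod, map_mul, map_pow, map_pv]
        rw [h1]
        simp only [ρ, tt]
        ring
      have hdet1 : emb φ (Matrix.of fun i j => ent (l i) j).det =
          (∏ i, ρ (l i)) * (Matrix.of fun i j =>
            MvPolynomial.eval (tt (l i)) (colPoly k b (xc N0) ζ (j : G).1)).det := by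
        rw [RingHom.map_det, ← Matrix.det_mul_column]
        congr 1
        ext i j
        simp [hent (l i) (hl i) j]
      let w : Fin (n + 2) → ℝ := Fin.cons 1 fun _ => z
      have hw : ∀ v, 0 < w v := fun v => Fin.cases (by simp [w]) (fun i => by simp [w, hz]) v
      have hxc0 : ∀ i, ‖xc N0 i‖ ≤ C ^ 2 := by
        intro i
        have h1 := (hb N0 (hl j0)).2.2.1 0
        have h2 := (hb N0 (hl j0)).2.2.2 i.succ
        have h3 : 0 < ‖αc N0 0‖ := norm_pos_iff.mpr (hαne N0 (hl j0) 0)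
        simp only [xc, norm_div]
        rw [div_le_iff₀ h3]
        nlinarith
      have hζ : ∀ i, ‖ζ i‖ ≤ C ^ 2 := fun i => (hϑ φ _).trans (by nlinarith)
      have htt : ∀ i v, ‖tt (l i) v‖ ≤ X ^ (-w v) := by
        intro i v
        refine Fin.cases ?_ (fun v => ?_) v
        · simp only [tt, w, Fin.cons_zero, norm_inv, Complex.norm_intCast]
          rw [Real.rpow_neg hX0.le, Real.rpow_one]
          exact inv_anti₀ hX0 (hR _ (hl i)).1
        · simp only [tt, w, Fin.cons_succ, xc, αc]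
          have h1 := ratio_close (av (l i)) (av N0) l0 C _ _ (κ * X ^ (-z)) hC (ζ 0) (ζ v.succ)
            (hϑ φ _) (hϑ φ _) (hl0 _ (hl i)) (hl0 _ (hl j0)) (hmax _ (hl j0))
            ((hD _ (hl i)).hab l0) ((hD _ (hl j0)).hab l0) ((hb _ (hl i)).2.2.1 0)
            ((hb _ (hl j0)).2.2.1 0) (hclose _ (hl i) _ (hl j0))
          refine h1.trans (le_of_eq ?_)
          rw [hκ, ← mul_assoc, mul_inv_cancel₀ (by linarith), one_mul]
      have hdb := det_bound (ι := G) (n + 2) w hw (fun j => colPoly k b (xc N0) ζ j.1) K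
        (fun j => colPoly_l1 k a b _ _ (C ^ 2) (by positivity) hxc0 hζ j.1 (hA j.1 j.2)
          (hB j.1 j.2)) X hX (fun i => tt (l i)) htt W hW
      have hws : ∑ v, w v = ((n : ℝ) + 1) * z + 1 := by
        rw [Fin.sum_univ_succ]; simp [w]; ring
      have hwp : ∏ v, w v = z ^ (n + 1) := by
        rw [Fin.prod_univ_succ]; simp [w]
      rw [hws, hwp, Fintype.card_coe] at hdb
      have hρ : ‖∏ i, ρ (l i)‖ ≤ (C1 * X ^ S0) ^ G.card := by
        rw [norm_prod]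
        calc _ ≤ ∏ _i : G, C1 * X ^ S0 := by
              refine Finset.prod_le_prod (fun _ _ => norm_nonneg _) fun i _ => ?_
              have h1 := hb _ (hl i)
              have h2 := hR _ (hl i)
              exact rho_bound e n k a b C A X y1 y2 hC hX hA0 (p (l i)) h2.2.2.1 h2.2.2.2
                _ _ (αc (l i)) h1.2.1 (by rw [Complex.norm_intCast]; exact h2.2.1)
                h1.2.2.2 h1.2.2.1
          _ = _ := by simp
      rw [hdet1, norm_mul]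
      refine lt_of_le_of_lt (mul_le_mul hρ hdb (norm_nonneg _) (by positivity)) ?_
      refine lt_of_eq_of_lt ?_ hX1
      have : X ^ (-(E - G.card * S0)) = (X ^ S0) ^ G.card * X ^ (-E) := by
        rw [← Real.rpow_natCast, ← Real.rpow_mul hX0.le, ← Real.rpow_add hX0]
        congr 1; ring
      rw [this, mul_pow]
      simp only [hE]
      ring
    have h1 := congrArg (algebraMap (𝓞 F) F) h0
    rw [RingHom.map_det, map_zero] at h1
    exact h1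
  obtain ⟨c, hc0, hc⟩ := exists_kernel T (fun N j => ((ent N j : 𝓞 F) : F)) hdet
  let θ : Fin (n + 2) → F := fun i => (ϑ (ι i) : F)
  have hθ : ∀ i, i ≠ 1 → θ i ≠ θ 1 := fun i hi h =>
    hi (hι (hinj (RingOfIntegers.ext h)))
  refine ⟨auxPoly k b θ G c, auxPoly_ne_zero k a b θ hθ G c hc0 hA hB hred,
    auxPoly_support k a b θ G c hA, auxPoly_natDegree k b θ G c hB, fun N hN => ?_⟩
  rw [auxPoly_eval]
  let αf : Fin (n + 2) → F := fun i => pv (av N) (θ i)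
  have hαf : ∀ i, αf i = ((pv (av N) (ϑ (ι i)) : 𝓞 F) : F) := fun i =>
    (map_pv (algebraMap (𝓞 F) F) (av N) (ϑ (ι i))).symm
  have hαne : ∀ i, αf i ≠ 0 := fun i => by
    rw [hαf]
    exact RingOfIntegers.coe_ne_zero_iff.mpr (hind _ _ (hD N hN).ha0)
  have hm0 : ((m N : 𝓞 F) : F) ≠ 0 := RingOfIntegers.coe_ne_zero_iff.mpr
    (hlow (p N) (av N) (m N) (hD N hN).hp (hD N hN).ha0 (hD N hN).hab (hD N hN).hm).1
  set ρ : F := ((m N : 𝓞 F) : F) ^ (k * b) * αf 0 ^ (a + k * ((n + 1) * b)) /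
    ∏ i, αf i ^ (k * b) with hρ
  have hρ0 : ρ ≠ 0 := div_ne_zero (mul_ne_zero (pow_ne_zero _ hm0) (pow_ne_zero _ (hαne 0)))
    (Finset.prod_ne_zero_iff.mpr fun i _ => pow_ne_zero _ (hαne i))
  have hent : ∀ j : G, ((ent N j : 𝓞 F) : F) = ρ *
      ((∏ i : Fin (n + 1), (αf i.succ / αf 0) ^ expo k b j.1 i) * ∏ i, ((N : F) - θ i) ^ j.1.2 i) := by
    intro j
    rw [← entry_eq k a b αf (fun i => ((β N (ι i) : 𝓞 F) : F)) θ ((m N : 𝓞 F) : F) (N : F) hαne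
      (fun i => by
        have := congrArg (algebraMap (𝓞 F) F) ((hD N hN).hβ (ι i))
        simpa [map_pv] using this) j.1 (hA j.1 j.2) (hB j.1 j.2)]
    change algebraMap (𝓞 F) F (ent N j) = _
    simp only [ent, map_prod, map_mul, map_pow, map_pv]
    rfl
  have h2 := hc N hN
  simp only [hent] at h2
  apply mul_left_cancel₀ hρ0
  rw [mul_zero, Finset.mul_sum, ← h2]
  refine Finset.sum_congr rfl fun j _ => ?_
  simp only [αf, θ, ι, Fin.cons_succ, Fin.cons_zero]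
  ring

end Vale.Agent.P018
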