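import Vale.Agent.P018.Window

namespace Vale.Agent.P018

open NumberField Finset Filter Topology

variable {F : Type} [Field F] [NumberField F]

theorem poly_bound (e n : ℕ) (C κ z s X : ℝ) (hC : 0 ≤ C) (hκ : 0 < κ) (hκ1 : κ ≤ 1) (hz : 0 < z)
    (hs : 0 ≤ s) (hX : 1 ≤ X) :
    ((e : ℝ) + 1) * (2 * (1 / (κ * X ^ (-z)) + 1) + 1) ^ e *
        (C + C * (2 * X ^ s + 1) * (X ^ s * (κ * X ^ (-z)) + 1) ^ (n + 1)) ≤
      (((e : ℝ) + 1) * (5 / κ) ^ e * (4 * C) * 2 ^ (n + 1)) *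
        (X ^ ((e : ℝ) * z + s) + X ^ (((e : ℝ) - (n + 1)) * z + (n + 2) * s)) := by
  have hX0 : 0 < X := by linarith
  set u := X ^ z with hu
  set v := X ^ s with hv
  have hu1 : 1 ≤ u := Real.one_le_rpow hX hz.le
  have hv1 : 1 ≤ v := Real.one_le_rpow hX hs
  have hneg : X ^ (-z) = u⁻¹ := Real.rpow_neg hX0.le z
  have e1 : X ^ ((e : ℝ) * z + s) = u ^ e * v := by
    rw [Real.rpow_add hX0, mul_comm (e : ℝ), Real.rpow_mul hX0.le, Real.rpow_natCast]
  have e2 : X ^ (((e : ℝ) - (n + 1)) * z + (n + 2) * s) = u ^ e * v * (v / u) ^ (n + 1) := by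
    have : ((e : ℝ) - (n + 1)) * z + (n + 2) * s = (z * e + s) + (s - z) * ((n + 1 : ℕ) : ℝ) := by
      push_cast; ring
    rw [this, Real.rpow_add hX0, Real.rpow_add hX0, Real.rpow_mul hX0.le, Real.rpow_mul hX0.le,
      Real.rpow_natCast, Real.rpow_natCast, Real.rpow_sub hX0]
  rw [hneg, e1, e2]
  have hu0 : 0 < u := by linarith
  have b1 : 2 * (1 / (κ * u⁻¹) + 1) + 1 ≤ 5 / κ * u := by
    have h1 : 1 / (κ * u⁻¹) = u / κ := by field_simp
    have h2 : 1 ≤ u / κ := by rw [le_div_iff₀ hκ]; linarith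
    have h3 : 5 / κ * u = 5 * (u / κ) := by ring
    rw [h1, h3]; linarith
  have b2 : (v * (κ * u⁻¹) + 1) ^ (n + 1) ≤ 2 ^ (n + 1) * (1 + (v / u) ^ (n + 1)) := by
    have h1 : v * (κ * u⁻¹) ≤ v / u := by
      rw [div_eq_mul_inv]
      have : κ * u⁻¹ ≤ 1 * u⁻¹ := by gcongr
      rw [one_mul] at this
      gcongr
    have h0 : 0 ≤ v / u := by positivity
    rcases le_total (v / u) 1 with h | h
    · calc _ ≤ (2 : ℝ) ^ (n + 1) := pow_le_pow_left₀ (by positivity) (by linarith) _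
        _ ≤ _ := le_mul_of_one_le_right (by positivity) (by linarith [pow_nonneg h0 (n + 1)])
    · calc _ ≤ (2 * (v / u)) ^ (n + 1) := pow_le_pow_left₀ (by positivity) (by linarith) _
        _ = 2 ^ (n + 1) * (v / u) ^ (n + 1) := mul_pow _ _ _
        _ ≤ _ := by gcongr; linarith
  have b3 : 1 ≤ (v * (κ * u⁻¹) + 1) ^ (n + 1) := one_le_pow₀ (by
    have : 0 ≤ v * (κ * u⁻¹) := by positivity
    linarith)
  have b4 : C + C * (2 * v + 1) * (v * (κ * u⁻¹) + 1) ^ (n + 1) ≤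
      4 * C * v * (v * (κ * u⁻¹) + 1) ^ (n + 1) := by
    set w := (v * (κ * u⁻¹) + 1) ^ (n + 1)
    have h1 : 1 ≤ v * w := one_le_mul_of_one_le_of_one_le hv1 b3
    have h2 : w ≤ v * w := le_mul_of_one_le_left (by linarith) hv1
    have h3 : 1 + (2 * v + 1) * w ≤ 4 * v * w := by nlinarith
    calc C + C * (2 * v + 1) * w = C * (1 + (2 * v + 1) * w) := by ring
      _ ≤ C * (4 * v * w) := by gcongr
      _ = _ := by ring
  calc _ ≤ ((e : ℝ) + 1) * (5 / κ * u) ^ e *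
        (4 * C * v * (2 ^ (n + 1) * (1 + (v / u) ^ (n + 1)))) := by
        refine mul_le_mul (by gcongr) (b4.trans (by gcongr)) (by positivity) (by positivity)
    _ = _ := by rw [mul_pow]; ring

theorem window {e : ℕ} (he : 1 ≤ e) (ϑ : Fin (e + 1) → 𝓞 F) (hinj : Function.Injective ϑ)
    (hind : ∀ i (a : Fin (e + 1) → ℤ), a ≠ 0 → pv a (ϑ i) ≠ 0) (k A : ℕ) (hk : 1 ≤ k)
    (y : ℝ) (hy : 1 ≤ y) (hyk : (k : ℝ) * y ≤ ((e + 1 : ℕ) : ℝ)) (hgood : Good (e + 1) k y) :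
    ∃ η : ℝ, 0 < η ∧ Tendsto (fun X : ℝ =>
      ((Bad ϑ k A (Set.Icc (y - η) (y + η)) X).card : ℝ) / X) atTop (𝓝 0) := by
  classical
  obtain ⟨n, a, b, z, W, η, hz, hW, hη, -, hQ, hT1, hT2, hH⟩ :=
    window_params (e + 1) k (by omega) y hy hyk hgood
  obtain ⟨G, hA, hB, hred, hG⟩ := exists_family n k a b hk
  push_cast at hT1 hT2
  refine ⟨η, hη, ?_⟩
  have hcard : (0 : ℝ) < G.card := by
    have : (0 : ℝ) < ((n + 2).factorial : ℝ) * G.card := hQ.trans_le hG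
    exact pos_of_mul_pos_left this (by positivity) |> fun h => by
      rcases (Nat.cast_nonneg (α := ℝ) G.card).lt_or_eq with h' | h'
      · exact h'
      · rw [← h'] at this; simp at this
  have H : (G.card : ℝ) * (((a + k * n : ℕ) : ℝ) * (y + η) / ((e : ℝ) + 1) +
      ((b + n : ℕ) : ℝ) * (1 - k * (y - η) / ((e : ℝ) + 1))) <
      W * G.card - (W + (((n : ℝ) + 1) * z + 1)) ^ (n + 3) /
        (((n + 3).factorial : ℝ) * z ^ (n + 1)) := by
    have hd : (((e + 1 : ℕ) : ℝ)) = (e : ℝ) + 1 := by push_cast; ring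
    rw [hd] at hH
    set U := (W + (((n : ℝ) + 1) * z + 1)) ^ (n + 3) with hU
    have hU0 : 0 ≤ U := by positivity
    have h1 : U / (((n + 3).factorial : ℝ) * z ^ (n + 1)) ≤
        G.card * (U / (((n : ℝ) + 3) * z ^ (n + 1) * Qp n k a b)) := by
      rw [← mul_div_assoc, div_le_div_iff₀ (by positivity) (by positivity)]
      have h2 : (((n + 3).factorial : ℕ) : ℝ) = ((n : ℝ) + 3) * ((n + 2).factorial : ℝ) := by
        rw [Nat.factorial_succ (n + 2)]; push_cast; ring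
      rw [h2]
      calc U * (((n : ℝ) + 3) * z ^ (n + 1) * Qp n k a b)
          ≤ U * (((n : ℝ) + 3) * z ^ (n + 1) * (((n + 2).factorial : ℝ) * G.card)) := by gcongr
        _ = _ := by ring
    have h3 := mul_lt_mul_of_pos_left hH hcard
    nlinarith
  obtain ⟨κ, hκ, hκ1, hrel⟩ := box_relation ϑ hinj hind n k (a + k * n) (b + n) G hA hB hred
    z W (y - η) (y + η) A hz hW (Nat.cast_nonneg _) H
  obtain ⟨C, X0, hcount⟩ := box_count he ϑ hinj hind n k (a + k * n + k * (b + n)) (b + n) A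
  set s : ℝ := (y + η) / ((e : ℝ) + 1) with hs
  have hs0 : 0 ≤ s := by positivity
  set C' : ℝ := ((e : ℝ) + 1) * (5 / κ) ^ e * (4 * C) * 2 ^ (n + 1) with hC'
  have hlim : Tendsto (fun X : ℝ => C' * (X ^ (-(1 - ((e : ℝ) * z + s))) +
      X ^ (-(1 - (((e : ℝ) - (n + 1)) * z + (n + 2) * s))))) atTop (𝓝 0) := by
    have h1 := tendsto_rpow_neg_atTop (y := 1 - ((e : ℝ) * z + s)) (by rw [hs]; linarith)
    have h2 := tendsto_rpow_neg_atTop (y := 1 - (((e : ℝ) - (n + 1)) * z + (n + 2) * s)) (by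
      rw [hs]
      have : ((n : ℝ) + 2) * ((y + η) / ((e : ℝ) + 1)) = ((n : ℝ) + 2) * (y + η) / ((e : ℝ) + 1) := by
        ring
      linarith)
    simpa using (h1.add h2).const_mul C'
  refine squeeze_zero' ?_ ?_ hlim
  · filter_upwards [eventually_ge_atTop 0] with X hX
    positivity
  filter_upwards [hrel, eventually_gt_atTop 1, eventually_ge_atTop X0] with X hrelX hX hXX0
  have hX0 : 0 < X := by linarith
  set T := Bad ϑ k A (Set.Icc (y - η) (y + η)) X with hT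
  have hex : ∀ N ∈ T, ∃ (p : ℕ) (av : Fin (e + 1) → ℤ) (m : 𝓞 F) (β : Fin (e + 1) → 𝓞 F)
      (l0 : Fin (e + 1)), PtData ϑ k N p av m β ∧ (p.Prime ∧ X0 ≤ p ∧ |N| ≤ A * p) ∧
      (X ≤ |(N : ℝ)| ∧ |(N : ℝ)| ≤ A * X ∧ X ^ (y - η) ≤ p ∧ (p : ℝ) ≤ X ^ (y + η)) ∧
      ∀ l, |(av l : ℝ)| ≤ |(av l0 : ℝ)| := by
    intro N hN
    rw [hT, Bad, Finset.mem_filter, Finset.mem_Icc] at hN
    obtain ⟨⟨hN1, hN2⟩, hN3, p, hp, hXp, hlog, hdvd⟩ := hN
    obtain ⟨av, h0, h1, h2⟩ := pigeon e p hp.one_le N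
    have hp0 : (p : 𝓞 F) ≠ 0 := by exact_mod_cast hp.ne_zero
    obtain ⟨m, β, h3, h4⟩ := exists_m_beta ϑ k hk p hp0 N av h2 hdvd
    obtain ⟨l0, -, hl0⟩ := Finset.exists_max_image Finset.univ (fun l => |(av l : ℝ)|)
      Finset.univ_nonempty
    have hpr : (0 : ℝ) < p := by exact_mod_cast hp.pos
    have hNA : |(N : ℝ)| ≤ A * X := by
      have h5 : (|N| : ℤ) ≤ ⌊(A : ℝ) * X⌋ := abs_le.mpr ⟨hN1, hN2⟩
      have h6 := Int.le_floor.mp h5
      simpa using h6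
    refine ⟨p, av, m, β, l0, ⟨hp.one_le, h0, h1, h2, h3, h4⟩, ⟨hp, by linarith, ?_⟩,
      ⟨hN3, hNA, ?_, ?_⟩, fun l => hl0 l (Finset.mem_univ l)⟩
    · have : |(N : ℝ)| ≤ A * p := hNA.trans (by gcongr)
      exact_mod_cast this
    · exact (Real.le_logb_iff_rpow_le hX hpr).mp hlog.1
    · exact (Real.logb_le_iff_le_rpow hX hpr).mp hlog.2
  choose! p av m β l0 hD hp hR hmax using hex
  set δ : ℝ := κ * X ^ (-z) with hδ
  have hδ0 : 0 < δ := by positivity
  set M : ℤ := ⌈1 / δ⌉ with hM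
  let key : ℤ → Fin (e + 1) × (Fin e → ℤ) := fun N =>
    (l0 N, fun i => ⌊(av N ((l0 N).succAbove i) : ℝ) / av N (l0 N) / δ⌋)
  let keys : Finset (Fin (e + 1) × (Fin e → ℤ)) :=
    Finset.univ ×ˢ Fintype.piFinset fun _ => Finset.Icc (-M) M
  have hl0 : ∀ N ∈ T, av N (l0 N) ≠ 0 := by
    intro N hN h
    apply (hD N hN).ha0
    funext l
    have := hmax N hN l
    rw [h] at this
    simpa using this
  have hkey : ∀ N ∈ T, key N ∈ keys := by
    intro N hN
    simp only [keys, key, Finset.mem_product, Finset.mem_univ, true_and, Fintype.mem_piFinset,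
      Finset.mem_Icc]
    intro i
    have h0 : (0 : ℝ) < |(av N (l0 N) : ℝ)| := abs_pos.mpr (by exact_mod_cast hl0 N hN)
    have h1 : |(av N ((l0 N).succAbove i) : ℝ) / av N (l0 N)| ≤ 1 := by
      rw [abs_div]; exact (div_le_one h0).mpr (hmax N hN _)
    rw [abs_le] at h1
    have h2 : (1 / δ : ℝ) ≤ M := Int.le_ceil _
    constructor
    · rw [Int.le_floor]
      push_cast
      have : -1 / δ ≤ (av N ((l0 N).succAbove i) : ℝ) / av N (l0 N) / δ := by gcongr; exact h1.1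
      rw [neg_div] at this
      linarith
    · have h3 : (av N ((l0 N).succAbove i) : ℝ) / av N (l0 N) / δ ≤ 1 / δ := by gcongr; exact h1.2
      have h4 := Int.floor_le ((av N ((l0 N).succAbove i) : ℝ) / av N (l0 N) / δ)
      exact_mod_cast h4.trans (h3.trans h2)
  set B : ℝ := C + C * (2 * X ^ s + 1) * (X ^ s * δ + 1) ^ (n + 1) with hBdef
  have hbox : ∀ κ0 ∈ keys, ((T.filter fun N => key N = κ0).card : ℝ) ≤ B := by
    intro κ0 _
    set T0 := T.filter fun N => key N = κ0 with hT0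
    have hT0T : ∀ N ∈ T0, N ∈ T ∧ l0 N = κ0.1 ∧ key N = κ0 := fun N hN => by
      have h1 := Finset.mem_filter.mp hN
      exact ⟨h1.1, congrArg Prod.fst h1.2, h1.2⟩
    have hclose : ∀ N ∈ T0, ∀ N' ∈ T0, ∀ l,
        |(av N l : ℝ) / av N κ0.1 - (av N' l : ℝ) / av N' κ0.1| ≤ δ := by
      intro N hN N' hN' l
      obtain ⟨h1, h2, h3⟩ := hT0T N hN
      obtain ⟨h1', h2', h3'⟩ := hT0T N' hN'
      rcases Fin.eq_self_or_eq_succAbove κ0.1 l with rfl | ⟨i, rfl⟩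
      · have h4 : (av N κ0.1 : ℝ) ≠ 0 := by rw [← h2]; exact_mod_cast hl0 N h1
        have h5 : (av N' κ0.1 : ℝ) ≠ 0 := by rw [← h2']; exact_mod_cast hl0 N' h1'
        rw [div_self h4, div_self h5, sub_self, abs_zero]; exact hδ0.le
      · have h4 := congrFun (congrArg Prod.snd (h3.trans h3'.symm)) i
        simp only [key, h2, h2'] at h4
        have h5 := Int.abs_sub_lt_one_of_floor_eq_floor h4
        rw [← sub_div, abs_div, abs_of_pos hδ0, div_lt_one hδ0] at h5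
        exact h5.le
    have hmax0 : ∀ N ∈ T0, ∀ l, |(av N l : ℝ)| ≤ |(av N κ0.1 : ℝ)| := fun N hN l => by
      rw [← (hT0T N hN).2.1]; exact hmax N (hT0T N hN).1 l
    refine hcount T0 p av m β κ0.1 (X ^ s) δ (by positivity) hδ0.le
      (fun N hN => hD N (hT0T N hN).1) (fun N hN => hp N (hT0T N hN).1) hmax0 (fun N hN => ?_)
      hclose (hrelX T0 p av m β κ0.1 (fun N hN => hD N (hT0T N hN).1)
        (fun N hN => hR N (hT0T N hN).1) hmax0 hclose)
    have h1 := (hT0T N hN).1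
    refine ((hD N h1).hab _).trans ?_
    rw [hs, div_eq_mul_one_div (y + η), Real.rpow_mul hX0.le]
    exact Real.rpow_le_rpow (by positivity) (hR N h1).2.2.2 (by positivity)
  have hM0 : 0 ≤ M := Int.ceil_nonneg (by positivity)
  have hkc : (keys.card : ℝ) ≤ ((e : ℝ) + 1) * (2 * (1 / δ + 1) + 1) ^ e := by
    have h1 : (((Finset.Icc (-M) M).card : ℕ) : ℤ) = 2 * M + 1 := by
      rw [Int.card_Icc_of_le _ _ (by omega)]; ring
    have h2 : (((Finset.Icc (-M) M).card : ℕ) : ℝ) = 2 * (M : ℝ) + 1 := by exact_mod_cast h1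
    have h3 : (M : ℝ) ≤ 1 / δ + 1 := (Int.ceil_lt_add_one _).le
    simp only [keys, Finset.card_product, Finset.card_univ, Fintype.card_fin,
      Fintype.card_piFinset, Finset.prod_const]
    push_cast
    rw [h2]
    gcongr
  have hB0 : 0 ≤ B := by positivity
  have htot : (T.card : ℝ) ≤ keys.card * B := by
    rw [Finset.card_eq_sum_card_fiberwise (f := key) (t := keys) hkey]
    push_cast
    calc _ ≤ ∑ _κ0 ∈ keys, B := Finset.sum_le_sum hbox
      _ = _ := by simp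
  rw [div_le_iff₀ hX0]
  calc (T.card : ℝ) ≤ ((e : ℝ) + 1) * (2 * (1 / δ + 1) + 1) ^ e * B :=
        htot.trans (by gcongr)
    _ ≤ C' * (X ^ ((e : ℝ) * z + s) + X ^ (((e : ℝ) - (n + 1)) * z + (n + 2) * s)) :=
        poly_bound e n C κ z s X (Nat.cast_nonneg _) hκ hκ1 hz hs0 hX.le
    _ = _ := by
        have hh : ∀ t : ℝ, X ^ t = X ^ (-(1 - t)) * X := fun t => by
          rw [← Real.rpow_add_one hX0.ne']; congr 1; ring
        rw [hh ((e : ℝ) * z + s), hh (((e : ℝ) - (n + 1)) * z + (n + 2) * s)]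
        ring

theorem Bad_mono {e : ℕ} (ϑ : Fin (e + 1) → 𝓞 F) (k A : ℕ) {Y Y' : Set ℝ} (h : Y ⊆ Y') (X : ℝ) :
    Bad ϑ k A Y X ⊆ Bad ϑ k A Y' X := by
  intro N hN
  simp only [Bad, Finset.mem_filter] at hN ⊢
  obtain ⟨h1, h2, p, hp, h3, h4, h5⟩ := hN
  exact ⟨h1, h2, p, hp, h3, h h4, h5⟩

theorem Bad_union {e : ℕ} (ϑ : Fin (e + 1) → 𝓞 F) (k A : ℕ) (Y Y' : Set ℝ) (X : ℝ) :
    Bad ϑ k A (Y ∪ Y') X ⊆ Bad ϑ k A Y X ∪ Bad ϑ k A Y' X := by
  intro N hN
  rw [Finset.mem_union]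
  simp only [Bad, Finset.mem_filter] at hN ⊢
  obtain ⟨h1, h2, p, hp, h3, h4 | h4, h5⟩ := hN
  · exact Or.inl ⟨h1, h2, p, hp, h3, h4, h5⟩
  · exact Or.inr ⟨h1, h2, p, hp, h3, h4, h5⟩

/-- The core estimate: if every exponent has a good window, large primes contribute `o(X)`. -/
theorem core_of_windows {e : ℕ} (he : 1 ≤ e) (ϑ : Fin (e + 1) → 𝓞 F)
    (hind : ∀ i (a : Fin (e + 1) → ℤ), a ≠ 0 → pv a (ϑ i) ≠ 0) (k A : ℕ) (hk : 1 ≤ k)
    (hkd : k ≤ e + 1)
    (hwin : ∀ y : ℝ, 1 ≤ y → (k : ℝ) * y ≤ ((e + 1 : ℕ) : ℝ) → ∃ η : ℝ, 0 < η ∧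
      Tendsto (fun X : ℝ => ((Bad ϑ k A (Set.Icc (y - η) (y + η)) X).card : ℝ) / X) atTop (𝓝 0)) :
    Tendsto (fun X : ℝ => ((Bad ϑ k A Set.univ X).card : ℝ) / X) atTop (𝓝 0) := by
  classical
  let P : Set ℝ → Prop := fun Y =>
    Tendsto (fun X : ℝ => ((Bad ϑ k A Y X).card : ℝ) / X) atTop (𝓝 0)
  have hmono : ∀ ⦃s t⦄, s ⊆ t → P t → P s := by
    intro s t hst ht
    refine squeeze_zero' ?_ ?_ ht
    · filter_upwards [eventually_ge_atTop 0] with X hX; positivity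
    · filter_upwards [eventually_ge_atTop 0] with X hX
      gcongr
      exact Bad_mono ϑ k A hst X
  have hunion : ∀ ⦃s t⦄, P s → P t → P (s ∪ t) := by
    intro s t hs ht
    have := hs.add ht
    rw [add_zero] at this
    refine squeeze_zero' ?_ ?_ this
    · filter_upwards [eventually_ge_atTop 0] with X hX; positivity
    · filter_upwards [eventually_ge_atTop 0] with X hX
      rw [← add_div]
      gcongr
      exact_mod_cast (Finset.card_le_card (Bad_union ϑ k A s t X)).trans (Finset.card_union_le _ _)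
  have hk0 : (0 : ℝ) < k := by exact_mod_cast hk
  set y0 : ℝ := ((e + 1 : ℕ) : ℝ) / k with hy0
  have hy01 : 1 ≤ y0 := by
    rw [hy0, le_div_iff₀ hk0, one_mul]; exact_mod_cast hkd
  have hmain : P (Set.Icc 1 y0) := by
    refine isCompact_Icc.induction_on (p := P) ?_ hmono hunion ?_
    · simp [P, Bad]
    · intro y hy
      obtain ⟨η, hη, h⟩ := hwin y hy.1 (by
        have := hy.2
        rw [hy0, le_div_iff₀ hk0] at this
        linarith)
      exact ⟨_, mem_nhdsWithin_of_mem_nhds (Icc_mem_nhds (by linarith) (by linarith)), h⟩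
  obtain ⟨η, hη, hlast⟩ := hwin y0 hy01 (by rw [hy0, mul_div_cancel₀ _ hk0.ne'])
  have hall := hunion hmain hlast
  obtain ⟨Θ, hΘ, hϑ⟩ := exists_theta ϑ
  have hbig : ∀ᶠ X : ℝ in atTop, (A + Θ) ^ (e + 1) ≤ X ^ (k * η) :=
    (tendsto_rpow_atTop (by positivity)).eventually_ge_atTop _
  refine hall.congr' ?_
  filter_upwards [hbig, eventually_gt_atTop 1] with X hXb hX
  have hX0 : 0 < X := by linarith
  congr 2
  refine Finset.card_nbij id (fun N hN => Bad_mono ϑ k A (Set.subset_univ _) X hN)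
    (fun _ _ _ _ h => h) (fun N hN => ⟨N, ?_, rfl⟩)
  simp only [Bad, Finset.coe_filter, Set.mem_ofPred_eq, Finset.mem_Icc] at hN ⊢
  obtain ⟨h1, h2, p, hp, h3, -, t, ht⟩ := hN
  refine ⟨h1, h2, p, hp, h3, ?_, t, ht⟩
  have hpr : (0 : ℝ) < p := by exact_mod_cast hp.pos
  have hlow : 1 ≤ Real.logb X p := by
    rw [Real.le_logb_iff_rpow_le hX hpr, Real.rpow_one]; exact h3
  have hne : ∏ i, ((N : 𝓞 F) - ϑ i) ≠ 0 := by
    refine Finset.prod_ne_zero_iff.mpr fun i _ h => ?_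
    obtain ⟨e', rfl⟩ := Nat.exists_eq_add_of_le' he
    refine hind i (Fin.cons N (Fin.cons (-1) 0)) (fun h0 => ?_) ?_
    · have := congrFun h0 1
      simp at this
    · simp only [pv, Fin.sum_univ_succ, Fin.cons_zero, Fin.cons_succ]
      simp
      rw [← sub_eq_add_neg]; exact h
  have ht0 : t ≠ 0 := by rintro rfl; exact hne (by rw [ht, mul_zero])
  obtain ⟨φ, hφ⟩ := exists_conjugate_one_le_norm (K := F) ht0
  have hNA : |(N : ℝ)| ≤ A * X := by
    have h5 : (|N| : ℤ) ≤ ⌊(A : ℝ) * X⌋ := abs_le.mpr h1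
    have h6 := Int.le_floor.mp h5
    simpa using h6
  have hup : (p : ℝ) ^ k ≤ ((A + Θ) * X) ^ (e + 1) := by
    have h4 := congrArg (fun x => ‖emb φ x‖) ht
    simp only [map_prod, map_mul, map_pow, map_natCast, norm_mul, norm_pow, Complex.norm_natCast,
      norm_prod, map_sub, map_intCast] at h4
    calc (p : ℝ) ^ k ≤ (p : ℝ) ^ k * ‖emb φ t‖ := le_mul_of_one_le_right (by positivity) hφ
      _ = ∏ i, ‖(N : ℂ) - emb φ (ϑ i)‖ := h4.symm
      _ ≤ ∏ _i : Fin (e + 1), (A + Θ) * X := by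
          refine Finset.prod_le_prod (fun _ _ => norm_nonneg _) fun i _ => ?_
          refine (norm_sub_le _ _).trans ?_
          rw [Complex.norm_intCast]
          have := hϑ φ i
          nlinarith
      _ = _ := by simp
  have hup2 : Real.logb X p ≤ y0 + η := by
    rw [Real.logb_le_iff_le_rpow hX hpr]
    refine le_of_pow_le_pow_left₀ (n := k) (by omega) (by positivity) (hup.trans ?_)
    rw [← Real.rpow_natCast (X ^ (y0 + η)), ← Real.rpow_mul hX0.le, add_mul y0, Real.rpow_add hX0,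
      hy0, div_mul_cancel₀ _ hk0.ne', Real.rpow_natCast, mul_pow, mul_comm, mul_comm η]
    gcongr
  rcases le_total (Real.logb X p) y0 with h | h
  · exact Or.inl ⟨hlow, h⟩
  · exact Or.inr ⟨by linarith, hup2⟩

end Vale.Agent.P018
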