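import Vale.Agent.P018.Basic

namespace Vale.Agent.P018

open Finset

/-- exponent vectors below `Q` with at most `j` entries above `D` -/
def cntStd (ι : Type) [Fintype ι] [DecidableEq ι] (D Q j : ℕ) : Finset (ι → ℕ) :=
  (Fintype.piFinset fun _ => range Q).filter fun E => (univ.filter fun i => D < E i).card ≤ j

theorem cnt_mem {ι : Type} [Fintype ι] [DecidableEq ι] {D Q j : ℕ} {E : ι → ℕ} :
    E ∈ cntStd ι D Q j ↔ (∀ i, E i < Q) ∧ (univ.filter fun i => D < E i).card ≤ j := by
  simp [cntStd]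

theorem cnt_card_le (ι : Type) [Fintype ι] [DecidableEq ι] (D Q j : ℕ) (hQ : 1 ≤ Q) :
    (cntStd ι D Q j).card ≤ 2 ^ Fintype.card ι * ((D + 1) ^ Fintype.card ι * Q ^ j) := by
  have hsub : cntStd ι D Q j ⊆ ((univ : Finset (Finset ι)).filter fun J => J.card ≤ j).biUnion
      fun J => Fintype.piFinset fun i => if i ∈ J then range Q else range (D + 1) := by
    intro E hE
    rw [cnt_mem] at hE
    rw [mem_biUnion]
    refine ⟨univ.filter fun i => D < E i, by simpa using hE.2, ?_⟩
    rw [Fintype.mem_piFinset]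
    intro i
    split_ifs with h
    · exact mem_range.mpr (hE.1 i)
    · simp only [mem_filter, mem_univ, true_and, not_lt] at h
      exact mem_range.mpr (Nat.lt_succ_of_le h)
  refine (card_le_card hsub).trans ((card_biUnion_le_card_mul _ _
    ((D + 1) ^ Fintype.card ι * Q ^ j) ?_).trans ?_)
  · intro J hJ
    rw [Fintype.card_piFinset]
    have h1 : ∏ i, (if i ∈ J then range Q else range (D + 1)).card ≤
        ∏ i, ((D + 1) * if i ∈ J then Q else 1) := by
      refine prod_le_prod' fun i _ => ?_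
      split_ifs
      · rw [card_range]; nlinarith
      · simp
    refine h1.trans ?_
    rw [prod_mul_distrib, prod_const, card_univ, prod_ite_mem, univ_inter, prod_const]
    exact Nat.mul_le_mul_left _ (Nat.pow_le_pow_right hQ (mem_filter.mp hJ).2)
  · refine Nat.mul_le_mul_right _ ((card_filter_le _ _).trans ?_)
    simp

/-- positive weights separating the exponent vectors bounded by `D` -/
theorem cnt_exists_weight (ι : Type) [Fintype ι] (D : ℕ) : ∃ om : ι → ℕ, (∀ i, 1 ≤ om i) ∧
    (∀ i, om i ≤ (D + 1) ^ Fintype.card ι) ∧ ∀ E E' : ι →₀ ℕ, (∀ i, E i ≤ D) → (∀ i, E' i ≤ D) →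
      ∑ i, E i * om i = ∑ i, E' i * om i → E = E' := by
  let s := Fintype.equivFin ι
  refine ⟨fun i => (D + 1) ^ (s i : ℕ), fun i => Nat.one_le_pow _ _ (Nat.succ_pos D),
    fun i => Nat.pow_le_pow_right (Nat.succ_pos D) (s i).2.le, fun E E' hE hE' h => ?_⟩
  have key : finFunctionFinEquiv (fun k => (⟨E (s.symm k), Nat.lt_succ_of_le (hE _)⟩ : Fin (D + 1))) =
      finFunctionFinEquiv (fun k => (⟨E' (s.symm k), Nat.lt_succ_of_le (hE' _)⟩ : Fin (D + 1))) := by
    apply Fin.ext
    rw [finFunctionFinEquiv_apply, finFunctionFinEquiv_apply, ← s.sum_comp, ← s.sum_comp]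
    simpa using h
  ext i
  have := congrArg Fin.val (congrFun (finFunctionFinEquiv.injective key) (s i))
  simpa using this

/-- the top monomial of a relation -/
theorem cnt_exists_top {ι R : Type} [Fintype ι] [CommSemiring R] {D : ℕ} {om : ι → ℕ}
    (hom : ∀ E E' : ι →₀ ℕ, (∀ i, E i ≤ D) → (∀ i, E' i ≤ D) →
      ∑ i, E i * om i = ∑ i, E' i * om i → E = E') (Ψ : MvPolynomial ι R) (h0 : Ψ ≠ 0)
    (hD : ∀ E ∈ Ψ.support, ∀ i, E i ≤ D) : ∃ M ∈ Ψ.support, ∀ E ∈ Ψ.support, E ≠ M →
      ∑ i, E i * om i < ∑ i, M i * om i := by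
  obtain ⟨M, hM, hmax⟩ := exists_max_image Ψ.support (fun E => ∑ i, E i * om i)
    (MvPolynomial.support_nonempty.mpr h0)
  exact ⟨M, hM, fun E hE hne => lt_of_le_of_ne (hmax E hE)
    fun h => hne (hom E M (hD E hE) (hD M hM) h)⟩

theorem cnt_shift {ι B : Type} [Fintype ι] [CommRing B] (y : ι → B) (om : ι → ℕ) {E M : ι → ℕ}
    (hME : ∀ i, M i ≤ E i) (E' : ι → ℕ) :
    (∏ i, y i ^ (E i - M i + E' i) = (∏ i, y i ^ (E i - M i)) * ∏ i, y i ^ E' i) ∧
    ∑ i, (E i - M i + E' i) * om i + ∑ i, M i * om i = ∑ i, E i * om i + ∑ i, E' i * om i := by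
  constructor
  · rw [← prod_mul_distrib]; exact prod_congr rfl fun i _ => pow_add _ _ _
  · rw [← sum_add_distrib, ← sum_add_distrib]
    refine sum_congr rfl fun i _ => ?_
    rw [← add_mul, ← add_mul]
    congr 1
    have := hME i
    omega

theorem cnt_step1 (e n Δ b : ℕ) {F B : Type} [Field F] [CommRing B] [Algebra F B] (t : B)
    (xs : Fin e → B)
    (hyp : ∀ J : Finset (Fin e), J.card = n + 1 → ∃ Ψ : MvPolynomial (Fin e) (Polynomial F),
      Ψ ≠ 0 ∧ (∀ E ∈ Ψ.support, E.support ⊆ J ∧ ∀ i, E i ≤ Δ) ∧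
      (∀ E, (Ψ.coeff E).natDegree ≤ b) ∧
      ∑ E ∈ Ψ.support, Polynomial.aeval t (Ψ.coeff E) * ∏ i, xs i ^ E i = 0) :
    ∃ Pi0 : Polynomial F, Pi0 ≠ 0 ∧ Pi0.natDegree ≤ 2 ^ e * b ∧ ∀ h : ℕ, ∃ (w : ℕ) (W : Finset B),
      W.card ≤ 2 ^ e * ((Δ + 1) ^ e * ((Δ + 1) ^ e * h + 1) ^ n) *
        ((2 ^ e * b + b) * ((Δ + 1) ^ e * h) + 1) ∧
      ∀ P : MvPolynomial (Fin e) F, P.totalDegree ≤ h →
        Polynomial.aeval t Pi0 ^ w * MvPolynomial.aeval xs P ∈ Submodule.span F (W : Set B) := by
  classical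
  obtain ⟨om, hom1, hom2, hom⟩ := cnt_exists_weight (Fin e) Δ
  rw [Fintype.card_fin] at hom2
  choose! Ψ hΨ0 hΨs hΨd hΨv using hyp
  have htop := fun J (hJ : J.card = n + 1) =>
    cnt_exists_top hom (Ψ J) (hΨ0 J hJ) fun E hE => (hΨs J hJ E hE).2
  choose! M hM hMmax using htop
  let 𝒥 := powersetCard (n + 1) (univ : Finset (Fin e))
  have h𝒥 : ∀ J, J ∈ 𝒥 ↔ J.card = n + 1 := fun J => by simp [𝒥]
  have h𝒥c : 𝒥.card ≤ 2 ^ e := by
    refine (card_le_univ _).trans ?_
    simp
  have hdeg : ∀ s ⊆ 𝒥, (∏ J ∈ s, (Ψ J).coeff (M J)).natDegree ≤ 2 ^ e * b := by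
    intro s hs
    refine (Polynomial.natDegree_prod_le _ _).trans ?_
    refine (sum_le_card_nsmul _ _ b fun J hJ => hΨd J ((h𝒥 J).mp (hs hJ)) _).trans ?_
    exact Nat.mul_le_mul_right _ ((card_le_card hs).trans h𝒥c)
  set Pi0 := ∏ J ∈ 𝒥, (Ψ J).coeff (M J) with hPi0
  set G := 2 ^ e * b + b with hG
  let W : ℕ → Finset B := fun w => (cntStd (Fin e) Δ (w + 1) n ×ˢ range (G * w + 1)).image
    fun Ef => t ^ Ef.2 * ∏ i, xs i ^ Ef.1 i
  have hWmem : ∀ w (E : Fin e → ℕ) (p : Polynomial F), E ∈ cntStd (Fin e) Δ (w + 1) n →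
      p.natDegree ≤ G * w →
      Polynomial.aeval t p * ∏ i, xs i ^ E i ∈ Submodule.span F (W w : Set B) := by
    intro w E p hE hp
    rw [Polynomial.aeval_eq_sum_range' (Nat.lt_succ_of_le hp), sum_mul]
    refine Submodule.sum_mem _ fun f hf => ?_
    rw [smul_mul_assoc]
    refine Submodule.smul_mem _ _ (Submodule.subset_span ?_)
    exact mem_coe.mpr (mem_image.mpr ⟨(E, f), mem_product.mpr ⟨hE, hf⟩, rfl⟩)
  have hWmul : ∀ w (p : Polynomial F), p.natDegree ≤ G → ∀ v ∈ Submodule.span F (W w : Set B),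
      Polynomial.aeval t p * v ∈ Submodule.span F (W (w + 1) : Set B) := by
    intro w p hp v hv
    induction hv using Submodule.span_induction with
    | mem v hv =>
      obtain ⟨⟨E, f⟩, hEf, rfl⟩ := mem_image.mp (mem_coe.mp hv)
      obtain ⟨hE, hf⟩ := mem_product.mp hEf
      have := hWmem (w + 1) E (p * Polynomial.X ^ f) (by
        rw [cnt_mem] at hE ⊢
        exact ⟨fun i => (hE.1 i).trans (Nat.lt_succ_self _), hE.2⟩) (by
        refine Polynomial.natDegree_mul_le.trans ?_
        have h1 := Polynomial.natDegree_X_pow_le (R := F) f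
        have h2 := mem_range.mp hf
        simp only at h2
        rw [mul_add]
        omega)
      simpa [mul_assoc] using this
    | zero => simp
    | add x y _ _ hx hy => rw [mul_add]; exact Submodule.add_mem _ hx hy
    | smul a x _ hx => rw [mul_smul_comm]; exact Submodule.smul_mem _ _ hx
  have hmain : ∀ w (E : Fin e → ℕ), ∑ i, E i * om i ≤ w →
      Polynomial.aeval t Pi0 ^ w * ∏ i, xs i ^ E i ∈ Submodule.span F (W w : Set B) := by
    have hle : ∀ (E : Fin e → ℕ) i, E i ≤ ∑ i, E i * om i := fun E i =>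
      (Nat.le_mul_of_pos_right _ (hom1 i)).trans
        (single_le_sum (f := fun i => E i * om i) (fun _ _ => Nat.zero_le _) (mem_univ i))
    have hstd : ∀ w (E : Fin e → ℕ), ∑ i, E i * om i ≤ w →
        (univ.filter fun i => Δ < E i).card ≤ n →
        Polynomial.aeval t Pi0 ^ w * ∏ i, xs i ^ E i ∈ Submodule.span F (W w : Set B) := by
      intro w E hE hs
      rw [← map_pow]
      refine hWmem w E _ (cnt_mem.mpr ⟨fun i => Nat.lt_succ_of_le ((hle E i).trans hE), hs⟩) ?_
      refine Polynomial.natDegree_pow_le.trans ?_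
      rw [mul_comm]
      exact Nat.mul_le_mul_right _ ((hdeg _ subset_rfl).trans (Nat.le_add_right _ _))
    intro w
    induction w with
    | zero =>
      intro E hE
      refine hstd 0 E hE ?_
      rw [filter_eq_empty_iff.mpr, card_empty]
      · exact Nat.zero_le _
      · intro i _
        have := (hle E i).trans hE
        omega
    | succ w ih =>
      intro E hE
      by_cases hs : (univ.filter fun i => Δ < E i).card ≤ n
      · exact hstd _ E hE hs
      obtain ⟨J, hJs, hJ⟩ := exists_subset_card_eq (Nat.succ_le_of_lt (not_le.mp hs))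
      have hME : ∀ i, M J i ≤ E i := by
        intro i
        by_cases hi : i ∈ J
        · exact ((hΨs J hJ _ (hM J hJ)).2 i).trans (mem_filter.mp (hJs hi)).2.le
        · rw [Finsupp.notMem_support_iff.mp fun h => hi ((hΨs J hJ _ (hM J hJ)).1 h)]
          exact Nat.zero_le _
      have hrel := hΨv J hJ
      rw [← add_sum_erase _ _ (hM J hJ), add_eq_zero_iff_eq_neg] at hrel
      have hPi : Pi0 = (Ψ J).coeff (M J) * ∏ J' ∈ 𝒥.erase J, (Ψ J').coeff (M J') :=
        (mul_prod_erase _ _ ((h𝒥 J).mpr hJ)).symm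
      set R := ∏ J' ∈ 𝒥.erase J, (Ψ J').coeff (M J') with hR
      have hE' : ∏ i, xs i ^ E i = (∏ i, xs i ^ (E i - M J i)) * ∏ i, xs i ^ M J i := by
        rw [← (cnt_shift xs om hME (M J)).1]
        exact prod_congr rfl fun i _ => by rw [Nat.sub_add_cancel (hME i)]
      have e1 : Polynomial.aeval t Pi0 ^ (w + 1) * ∏ i, xs i ^ E i =
          -∑ E' ∈ (Ψ J).support.erase (M J), Polynomial.aeval t (R * (Ψ J).coeff E') *
            (Polynomial.aeval t Pi0 ^ w * ∏ i, xs i ^ (E i - M J i + E' i)) := by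
        have : Polynomial.aeval t Pi0 ^ (w + 1) * ∏ i, xs i ^ E i =
            Polynomial.aeval t Pi0 ^ w * Polynomial.aeval t R * (∏ i, xs i ^ (E i - M J i)) *
              (Polynomial.aeval t ((Ψ J).coeff (M J)) * ∏ i, xs i ^ M J i) := by
          rw [pow_succ, hE']
          nth_rewrite 2 [hPi]
          rw [map_mul]; ring
        rw [this, hrel, mul_neg, mul_sum]
        congr 1
        refine sum_congr rfl fun E' _ => ?_
        rw [(cnt_shift xs om hME E').1, map_mul]; ring
      rw [e1]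
      refine Submodule.neg_mem _ (Submodule.sum_mem _ fun E' hE'' => hWmul w _ ?_ _ (ih _ ?_))
      · exact Polynomial.natDegree_mul_le.trans
          (add_le_add (hdeg _ (erase_subset _ _)) (hΨd J hJ _))
      · have h1 := (cnt_shift xs om hME E').2
        have h2 := hMmax J hJ E' (mem_of_mem_erase hE'') (ne_of_mem_erase hE'')
        omega
  refine ⟨Pi0, prod_ne_zero_iff.mpr fun J hJ => MvPolynomial.mem_support_iff.mp
    (hM J ((h𝒥 J).mp hJ)), hdeg _ subset_rfl, fun h =>
      ⟨(Δ + 1) ^ e * h, W ((Δ + 1) ^ e * h), ?_, fun P hP => ?_⟩⟩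
  · refine card_image_le.trans ?_
    rw [card_product, card_range]
    refine Nat.mul_le_mul_right _ ?_
    simpa using cnt_card_le (Fin e) Δ ((Δ + 1) ^ e * h + 1) n (Nat.succ_pos _)
  · rw [MvPolynomial.aeval_def, MvPolynomial.eval₂_eq', mul_sum]
    refine Submodule.sum_mem _ fun E hE => ?_
    rw [mul_left_comm, ← Algebra.smul_def]
    refine Submodule.smul_mem _ _ (hmain _ _ ?_)
    have h1 := (MvPolynomial.le_totalDegree hE).trans hP
    rw [Finsupp.sum_fintype _ _ (fun _ => rfl)] at h1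
    calc ∑ i, E i * om i ≤ ∑ i, E i * (Δ + 1) ^ e :=
          sum_le_sum fun i _ => Nat.mul_le_mul_left _ (hom2 i)
      _ = (Δ + 1) ^ e * ∑ i, E i := by rw [← sum_mul, mul_comm]
      _ ≤ _ := Nat.mul_le_mul_left _ h1

theorem cnt_grid {ι F : Type} [Fintype ι] [DecidableEq ι] [Field F] (S : Finset (ι → F))
    (q D k : ℕ) (hq : 1 ≤ q) (I : ι → Finset F) (hI : ∀ l, (I l).card ≤ q)
    (hS : ∀ y ∈ S, ∀ l, y l ∈ I l)
    (hyp : ∀ J : Finset ι, J.card = k + 1 → ∃ Φ : MvPolynomial ι F, Φ ≠ 0 ∧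
      (∀ E ∈ Φ.support, E.support ⊆ J ∧ ∀ i, E i ≤ D) ∧ ∀ y ∈ S, MvPolynomial.eval y Φ = 0) :
    S.card ≤ 2 ^ Fintype.card ι * ((D + 1) ^ Fintype.card ι * q ^ k) := by
  classical
  obtain ⟨om, hom1, -, hom⟩ := cnt_exists_weight ι D
  let ys : ι → S → F := fun l y => y.1 l
  let W : Finset (S → F) := (cntStd ι D q k).image fun E => ∏ i, ys i ^ E i
  have hmain : ∀ w (E : ι → ℕ), ∑ i, E i * om i = w →
      ∏ i, ys i ^ E i ∈ Submodule.span F (W : Set (S → F)) := by
    intro w
    induction w using Nat.strong_induction_on with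
    | _ w ih =>
    intro E hE
    have hred : ∀ (Φ : MvPolynomial ι F) (M : ι →₀ ℕ), M ∈ Φ.support → (∀ i, M i ≤ E i) →
        (∀ E' ∈ Φ.support, E' ≠ M → ∑ i, E' i * om i < ∑ i, M i * om i) →
        (∀ y ∈ S, MvPolynomial.eval y Φ = 0) →
        ∏ i, ys i ^ E i ∈ Submodule.span F (W : Set (S → F)) := by
      intro Φ M hM hME hmax hv
      have hrel : ∑ E' ∈ Φ.support, Φ.coeff E' • ∏ i, ys i ^ E' i = 0 := by
        funext y
        have := hv y y.2
        rw [MvPolynomial.eval_eq'] at this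
        simpa [ys] using this
      rw [← add_sum_erase _ _ hM, add_eq_zero_iff_eq_neg] at hrel
      have hE' : ∏ i, ys i ^ E i = (∏ i, ys i ^ (E i - M i)) * ∏ i, ys i ^ M i := by
        rw [← (cnt_shift ys om hME M).1]
        exact prod_congr rfl fun i _ => by rw [Nat.sub_add_cancel (hME i)]
      rw [← Submodule.smul_mem_iff _ (MvPolynomial.mem_support_iff.mp hM), hE', ← mul_smul_comm,
        hrel, mul_neg, mul_sum]
      refine Submodule.neg_mem _ (Submodule.sum_mem _ fun E' hE'' => ?_)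
      rw [mul_smul_comm, ← (cnt_shift ys om hME E').1]
      refine Submodule.smul_mem _ _ (ih _ ?_ _ rfl)
      have h1 := (cnt_shift ys om hME E').2
      have h2 := hmax E' (mem_of_mem_erase hE'') (ne_of_mem_erase hE'')
      omega
    by_cases h1 : ∀ l, E l < q
    · by_cases h2 : (univ.filter fun i => D < E i).card ≤ k
      · exact Submodule.subset_span (mem_coe.mpr (mem_image.mpr ⟨E, cnt_mem.mpr ⟨h1, h2⟩, rfl⟩))
      obtain ⟨J, hJs, hJ⟩ := exists_subset_card_eq (Nat.succ_le_of_lt (not_le.mp h2))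
      obtain ⟨Φ, hΦ0, hΦs, hΦv⟩ := hyp J hJ
      obtain ⟨M, hM, hmax⟩ := cnt_exists_top hom Φ hΦ0 fun E hE => (hΦs E hE).2
      refine hred Φ M hM (fun i => ?_) hmax hΦv
      by_cases hi : i ∈ J
      · exact ((hΦs _ hM).2 i).trans (mem_filter.mp (hJs hi)).2.le
      · rw [Finsupp.notMem_support_iff.mp fun h => hi ((hΦs _ hM).1 h)]
        exact Nat.zero_le _
    · push Not at h1
      obtain ⟨l, hl⟩ := h1
      let p : Polynomial F := ∏ v ∈ I l, (Polynomial.X - Polynomial.C v)
      have hpm : p.Monic := Polynomial.monic_prod_of_monic _ _ fun v _ => Polynomial.monic_X_sub_C v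
      have hpd : p.natDegree = (I l).card := by simp [p]
      have hp0 : Polynomial.aeval (ys l) p = 0 := by
        funext y
        simp only [p, map_prod, map_sub, Polynomial.aeval_X, Polynomial.aeval_C, prod_apply,
          Pi.zero_apply]
        exact prod_eq_zero (hS y y.2 l) (by simp [ys])
      rw [Polynomial.aeval_eq_sum_range, sum_range_succ, hpm.coeff_natDegree, one_smul,
        add_eq_zero_iff_neg_eq] at hp0
      have hME : ∀ i, (Pi.single l p.natDegree : ι → ℕ) i ≤ E i := by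
        intro i
        by_cases hi : i = l
        · subst hi; rw [Pi.single_eq_same, hpd]; exact (hI i).trans hl
        · simp [hi]
      have hsingle : ∀ j, ∏ i, ys i ^ (Pi.single l j : ι → ℕ) i = ys l ^ j := by
        intro j
        rw [prod_eq_single l (fun i _ hi => by simp [hi]) (by simp), Pi.single_eq_same]
      have hsingle' : ∀ j, ∑ i, (Pi.single l j : ι → ℕ) i * om i = j * om l := by
        intro j
        rw [sum_eq_single l (fun i _ hi => by simp [hi]) (by simp), Pi.single_eq_same]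
      have hE' : ∏ i, ys i ^ E i =
          (∏ i, ys i ^ (E i - (Pi.single l p.natDegree : ι → ℕ) i)) * ys l ^ p.natDegree := by
        rw [← hsingle, ← (cnt_shift ys om hME _).1]
        exact prod_congr rfl fun i _ => by rw [Nat.sub_add_cancel (hME i)]
      rw [hE', ← hp0, mul_neg, mul_sum]
      refine Submodule.neg_mem _ (Submodule.sum_mem _ fun j hj => ?_)
      rw [mul_smul_comm, ← hsingle, ← (cnt_shift ys om hME _).1]
      refine Submodule.smul_mem _ _ (ih _ ?_ _ rfl)
      have h1 := (cnt_shift ys om hME (Pi.single l j)).2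
      rw [hsingle', hsingle'] at h1
      have h2 := Nat.mul_lt_mul_of_lt_of_le (mem_range.mp hj) (le_refl (om l)) (hom1 l)
      omega
  have hpoly : ∀ P : MvPolynomial ι F,
      MvPolynomial.aeval ys P ∈ Submodule.span F (W : Set (S → F)) := by
    intro P
    rw [MvPolynomial.aeval_def, MvPolynomial.eval₂_eq']
    refine Submodule.sum_mem _ fun E _ => ?_
    rw [← Algebra.smul_def]
    exact Submodule.smul_mem _ _ (hmain _ _ rfl)
  have htop : Submodule.span F (W : Set (S → F)) = ⊤ := by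
    rw [eq_top_iff, ← (Pi.basisFun F S).span_eq, Submodule.span_le]
    rintro _ ⟨y₀, rfl⟩
    have hex : ∀ y : S, y ≠ y₀ → ∃ P : MvPolynomial ι F,
        MvPolynomial.aeval ys P y = 0 ∧ MvPolynomial.aeval ys P y₀ = 1 := by
      intro y hy
      obtain ⟨l, hl⟩ := Function.ne_iff.mp fun h => hy (Subtype.ext h)
      refine ⟨MvPolynomial.C (y₀.1 l - y.1 l)⁻¹ * (MvPolynomial.X l - MvPolynomial.C (y.1 l)),
        by simp [ys], ?_⟩
      simpa [ys] using inv_mul_cancel₀ (sub_ne_zero.mpr (Ne.symm hl))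
    choose! P hP0 hP1 using hex
    have e : Pi.basisFun F S y₀ = MvPolynomial.aeval ys (∏ y ∈ univ.erase y₀, P y) := by
      funext y
      rw [map_prod, prod_apply, Pi.basisFun_apply]
      by_cases hy : y = y₀
      · subst hy
        rw [Pi.single_eq_same, prod_eq_one fun z hz => hP1 z (ne_of_mem_erase hz)]
      · rw [Pi.single_eq_of_ne hy]
        exact (prod_eq_zero (f := fun z => MvPolynomial.aeval ys (P z) y)
          (mem_erase.mpr ⟨hy, mem_univ _⟩) (hP0 y hy)).symm
    rw [e]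
    exact hpoly _
  have h1 := finrank_span_finset_le_card (R := F) W
  rw [Set.finrank, htop, finrank_top, Module.finrank_fintype_fun_eq_card, Fintype.card_coe] at h1
  exact h1.trans (card_image_le.trans (cnt_card_le ι D q k hq))

theorem cnt_dep {F B Λ : Type} [Field F] [AddCommGroup B] [Module F B] (s : Finset Λ) (v : Λ → B)
    (W : Finset B) (hv : ∀ i ∈ s, v i ∈ Submodule.span F (W : Set B)) (hW : W.card < s.card) :
    ∃ lam : Λ → F, ∑ i ∈ s, lam i • v i = 0 ∧ ∃ i ∈ s, lam i ≠ 0 := by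
  classical
  have hnot : ¬ LinearIndependent F (fun i : s => v i) := by
    intro hli
    have := linearIndependent_le_span' _ hli (W : Set B) (by rintro _ ⟨i, rfl⟩; exact hv i i.2)
    simp only [Cardinal.mk_fintype, Fintype.card_coe, Finset.coe_sort_coe, Nat.cast_le] at this
    omega
  obtain ⟨g, hg, i, hi⟩ := Fintype.not_linearIndependent_iff.mp hnot
  refine ⟨fun j => if h : j ∈ s then g ⟨j, h⟩ else 0, ?_, i, i.2, by simpa using hi⟩
  rw [← hg, ← sum_coe_sort s]
  simp

theorem cnt_num (e n Δ G : ℕ) : ∃ D : ℕ, 1 ≤ D ∧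
    2 ^ e * ((Δ + 1) ^ e * ((Δ + 1) ^ e * ((n + 2) * D) + 1) ^ n) *
      (G * ((Δ + 1) ^ e * ((n + 2) * D)) + 1) < (D + 1) ^ (n + 2) := by
  set κ := (Δ + 1) ^ e * (n + 2) with hκ
  have hκ1 : 1 ≤ κ := Nat.mul_pos (by positivity) (by omega)
  set D := 2 ^ e * (Δ + 1) ^ e * κ ^ n * ((G + 1) * κ) with hD
  have hD1 : 1 ≤ D := by rw [hD]; exact Nat.succ_le_of_lt (by positivity)
  refine ⟨D, hD1, ?_⟩
  have e1 : (Δ + 1) ^ e * ((n + 2) * D) = κ * D := by rw [hκ]; ring
  rw [e1]
  calc 2 ^ e * ((Δ + 1) ^ e * (κ * D + 1) ^ n) * (G * (κ * D) + 1)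
      ≤ 2 ^ e * ((Δ + 1) ^ e * (κ * (D + 1)) ^ n) * ((G + 1) * κ * (D + 1)) := by
        gcongr
        · nlinarith
        · nlinarith [Nat.zero_le (G * κ), Nat.zero_le (κ * D)]
    _ = D * (D + 1) ^ (n + 1) := by rw [mul_pow]; nth_rewrite 3 [hD]; ring
    _ < (D + 1) ^ (n + 2) := by
        rw [pow_succ' (D + 1) (n + 1)]
        exact Nat.mul_lt_mul_of_pos_right (Nat.lt_succ_self D) (by positivity)

open Classical in
theorem slice_count (e n Δ b : ℕ) : ∃ C : ℕ, ∀ (F : Type) [Field F] [CharZero F]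
    (T : Finset ℤ) (x : ℤ → Fin e → F) (α0 : ℤ → F) (a : ℤ → Fin (e + 1) → ℤ)
    (g : Fin (e + 1) → MvPolynomial (Fin e) F) (l0 : Fin (e + 1)),
    (∀ l, (g l).totalDegree ≤ 1) →
    (∀ N ∈ T, ∀ l, ((a N l : ℤ) : F) = α0 N * MvPolynomial.eval (x N) (g l)) →
    (∀ N ∈ T, a N l0 ≠ 0) →
    (∀ τ : Fin (n + 1) ↪ Fin e, ∃ Ψ : MvPolynomial (Fin (n + 1)) (Polynomial F), Ψ ≠ 0 ∧
      (∀ E ∈ Ψ.support, ∀ i, E i ≤ Δ) ∧ (∀ E, (Ψ.coeff E).natDegree ≤ b) ∧
      ∀ N ∈ T, MvPolynomial.eval₂ (Polynomial.evalRingHom ((N : ℤ) : F))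
        (fun i => x N (τ i)) Ψ = 0) →
    ∃ Pi0 : Polynomial F, Pi0 ≠ 0 ∧ Pi0.natDegree ≤ C ∧
      ∀ (c : ℤ) (q : ℕ) (I : Fin (e + 1) → Finset ℤ), 1 ≤ q → (∀ l, l ≠ l0 → (I l).card ≤ q) →
        ((T.filter fun N => Pi0.eval ((N : ℤ) : F) ≠ 0 ∧ a N l0 = c ∧
          ∀ l, l ≠ l0 → a N l ∈ I l).image a).card ≤ C * q ^ (n + 1) := by
  obtain ⟨D, hD1, hD⟩ := cnt_num e n Δ (2 ^ e * b + b)
  refine ⟨2 ^ e * b + 2 ^ (e + 1) * (D + 1) ^ (e + 1), ?_⟩
  intro F _ _ T x α0 a g l0 hg ha ha0 hΨ
  let t : T → F := fun N => ((N : ℤ) : F)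
  let xs : Fin e → T → F := fun i N => x N i
  have haev : ∀ (p : Polynomial F) (N : T), Polynomial.aeval t p N = p.eval ((N : ℤ) : F) := by
    intro p N
    rw [Polynomial.aeval_eq_sum_range, Polynomial.eval_eq_sum_range]
    simp [t]
  have haev' : ∀ (p : MvPolynomial (Fin e) F) (N : T),
      MvPolynomial.aeval xs p N = MvPolynomial.eval (x N) p := by
    intro p N
    rw [MvPolynomial.aeval_def, MvPolynomial.eval₂_eq', MvPolynomial.eval_eq']
    simp [xs]
  obtain ⟨Pi0, hPi0, hPid, hW⟩ := cnt_step1 e n Δ b (F := F) t xs (by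
    intro J hJ
    let τ := (J.orderEmbOfFin hJ).toEmbedding
    obtain ⟨Ψ, h0, h1, h2, h3⟩ := hΨ τ
    refine ⟨MvPolynomial.rename τ Ψ, fun h => h0 (MvPolynomial.rename_injective τ τ.injective
      (h.trans (map_zero _).symm)), fun E hE => ?_, fun E => ?_, ?_⟩
    · rw [MvPolynomial.support_rename_of_injective τ.injective, mem_image] at hE
      obtain ⟨E', hE', rfl⟩ := hE
      constructor
      · intro i hi
        obtain ⟨j, -, rfl⟩ := mem_image.mp (Finsupp.mapDomain_support hi)
        exact J.orderEmbOfFin_mem hJ j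
      · intro i
        by_cases hi : i ∈ Set.range τ
        · obtain ⟨j, rfl⟩ := hi
          rw [Finsupp.mapDomain_apply τ.injective]
          exact h1 E' hE' j
        · rw [Finsupp.mapDomain_of_notMem_range _ _ hi]
          exact Nat.zero_le _
    · by_cases hE : E ∈ (MvPolynomial.rename τ Ψ).support
      · rw [MvPolynomial.support_rename_of_injective τ.injective, mem_image] at hE
        obtain ⟨E', -, rfl⟩ := hE
        rw [MvPolynomial.coeff_rename_mapDomain _ τ.injective]
        exact h2 E'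
      · rw [MvPolynomial.notMem_support_iff.mp hE]
        simp
    · funext N
      have h4 := h3 N N.2
      have h5 := MvPolynomial.eval₂_rename (Polynomial.evalRingHom ((N : ℤ) : F)) τ (x N) Ψ
      rw [MvPolynomial.eval₂_eq'] at h5
      simp only [Finset.sum_apply, Pi.mul_apply, Finset.prod_apply, Pi.pow_apply, haev,
        Pi.zero_apply]
      exact h5.trans h4)
  refine ⟨Pi0, hPi0, hPid.trans (Nat.le_add_right _ _), fun c q I hq hI => ?_⟩
  set T' := T.filter fun N => Pi0.eval ((N : ℤ) : F) ≠ 0 ∧ a N l0 = c ∧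
    ∀ l, l ≠ l0 → a N l ∈ I l with hT'
  rcases T'.eq_empty_or_nonempty with hemp | ⟨N₀, hN₀⟩
  · simp [hemp]
  have hc : (c : F) ≠ 0 := by
    have h1 := mem_filter.mp hN₀
    exact_mod_cast h1.2.2.1 ▸ ha0 N₀ h1.1
  have hinj : Function.Injective fun (v : Fin (e + 1) → ℤ) (l : Fin (e + 1)) => (v l : F) := by
    intro v v' h
    funext l
    have := congrFun h l
    simp only at this
    exact_mod_cast this
  rw [← card_image_of_injective _ hinj]
  obtain ⟨w, W, hWc, hWP⟩ := hW ((n + 2) * D)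
  refine (cnt_grid _ q D (n + 1) hq
    (fun l => if l = l0 then {(c : F)} else (I l).image Int.cast) ?_ ?_ ?_).trans ?_
  · intro l
    split_ifs with h
    · simpa using hq
    · exact card_image_le.trans (hI l h)
  · intro y hy l
    simp only [mem_image] at hy
    obtain ⟨_, ⟨N, hN, rfl⟩, rfl⟩ := hy
    have h1 := (mem_filter.mp hN).2
    split_ifs with h
    · subst h
      simp [h1.2.1]
    · exact mem_image_of_mem _ (h1.2.2 l h)
  · intro J hJ
    by_cases hl0 : l0 ∈ J
    · refine ⟨MvPolynomial.X l0 - MvPolynomial.C (c : F), ?_, ?_, ?_⟩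
      · intro h
        have := congrArg (MvPolynomial.eval fun _ => (c : F) + 1) h
        simp at this
      · intro E hE
        rcases mem_union.mp (MvPolynomial.support_sub _ _ _ hE) with h | h
        · rw [MvPolynomial.support_X, mem_singleton] at h
          subst h
          refine ⟨Finsupp.support_single_subset.trans (by simpa using hl0), fun i => ?_⟩
          rw [Finsupp.single_apply]
          split_ifs <;> omega
        · have := MvPolynomial.support_monomial_subset h
          rw [mem_singleton] at this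
          subst this
          simp
      · intro y hy
        simp only [mem_image] at hy
        obtain ⟨_, ⟨N, hN, rfl⟩, rfl⟩ := hy
        simp [(mem_filter.mp hN).2.2.1]
    · let Λ : Finset (Fin (e + 1) → ℕ) :=
        Fintype.piFinset fun l => if l ∈ J then range (D + 1) else {0}
      have hΛc : Λ.card = (D + 1) ^ (n + 2) := by
        rw [Fintype.card_piFinset]
        have : ∀ l, (if l ∈ J then range (D + 1) else ({0} : Finset ℕ)).card =
            if l ∈ J then D + 1 else 1 := fun l => by split_ifs <;> simp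
        simp only [this]
        rw [prod_ite_mem, univ_inter, prod_const, hJ]
      have hΛ1 : ∀ E ∈ Λ, ∀ l, E l ≤ if l ∈ J then D else 0 := by
        intro E hE l
        have := Fintype.mem_piFinset.mp hE l
        split_ifs at this ⊢
        · exact Nat.le_of_lt_succ (mem_range.mp this)
        · simpa using this
      have hΛ2 : ∀ E ∈ Λ, ∑ l, E l ≤ (n + 2) * D := by
        intro E hE
        refine (sum_le_sum fun l _ => hΛ1 E hE l).trans ?_
        rw [sum_ite_mem, univ_inter, sum_const, hJ, smul_eq_mul]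
      let P : (Fin (e + 1) → ℕ) → MvPolynomial (Fin e) F := fun E =>
        (∏ l, g l ^ E l) * g l0 ^ ((n + 2) * D - ∑ l, E l)
      have hPd : ∀ E ∈ Λ, (P E).totalDegree ≤ (n + 2) * D := by
        intro E hE
        have h1 : ∀ l k, (g l ^ k).totalDegree ≤ k := fun l k =>
          (MvPolynomial.totalDegree_pow _ _).trans (by nlinarith [hg l])
        refine (MvPolynomial.totalDegree_mul _ _).trans ?_
        have h2 := (MvPolynomial.totalDegree_finsetProd univ fun l => g l ^ E l).trans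
          (sum_le_sum fun l _ => h1 l (E l))
        have h3 := h1 l0 ((n + 2) * D - ∑ l, E l)
        have h4 := hΛ2 E hE
        omega
      obtain ⟨lam, hlam, E₀, hE₀, hlam0⟩ := cnt_dep (F := F) Λ
        (fun E => Polynomial.aeval t Pi0 ^ w * MvPolynomial.aeval xs (P E)) W
        (fun E hE => hWP _ (hPd E hE)) (by rw [hΛc]; exact hWc.trans_lt hD)
      refine ⟨∑ E ∈ Λ, MvPolynomial.monomial (Finsupp.equivFunOnFinite.symm E)
        (lam E * (c : F) ^ ((n + 2) * D - ∑ l, E l)), ?_, ?_, ?_⟩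
      · intro h
        have := congrArg (MvPolynomial.coeff (Finsupp.equivFunOnFinite.symm E₀)) h
        simp only [MvPolynomial.coeff_sum, MvPolynomial.coeff_monomial, Equiv.apply_eq_iff_eq,
          sum_ite_eq', hE₀, if_true, MvPolynomial.coeff_zero] at this
        exact mul_ne_zero hlam0 (pow_ne_zero _ hc) this
      · intro E hE
        obtain ⟨E', hE', h⟩ := mem_biUnion.mp (MvPolynomial.support_sum hE)
        have := MvPolynomial.support_monomial_subset h
        rw [mem_singleton] at this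
        subst this
        constructor
        · intro l hl
          by_contra hlJ
          have h1 := hΛ1 E' hE' l
          rw [if_neg hlJ] at h1
          exact Finsupp.mem_support_iff.mp hl (by simpa using h1)
        · intro l
          have h1 := hΛ1 E' hE' l
          have : E' l ≤ D := by split_ifs at h1 <;> omega
          simpa using this
      · intro y hy
        simp only [mem_image] at hy
        obtain ⟨_, ⟨N, hN, rfl⟩, rfl⟩ := hy
        obtain ⟨hNT, hN1, hN2, -⟩ := mem_filter.mp hN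
        have h1 := congrFun hlam ⟨N, hNT⟩
        simp only [Finset.sum_apply, Pi.smul_apply, Pi.mul_apply, Pi.pow_apply, haev, haev', smul_eq_mul,
          Pi.zero_apply] at h1
        rw [map_sum]
        apply mul_left_cancel₀ (pow_ne_zero w hN1)
        rw [mul_zero, mul_sum, ← mul_zero (α0 N ^ ((n + 2) * D)), ← h1, mul_sum]
        refine sum_congr rfl fun E hE => ?_
        rw [MvPolynomial.eval_monomial, Finsupp.prod_fintype _ _ (fun _ => pow_zero _)]
        simp only [Finsupp.coe_equivFunOnFinite_symm, P, map_mul, map_prod, map_pow]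
        rw [← hN2]
        simp only [ha N hNT, mul_pow, prod_mul_distrib, prod_pow_eq_pow_sum]
        have h2 : α0 N ^ ((n + 2) * D) = α0 N ^ ((n + 2) * D - ∑ l, E l) * α0 N ^ ∑ l, E l := by
          rw [← pow_add, Nat.sub_add_cancel (hΛ2 E hE)]
        rw [h2]; ring
  · rw [Fintype.card_fin, add_mul, mul_assoc (2 ^ (e + 1))]
    exact Nat.le_add_left _ _

end Vale.Agent.P018
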