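import Mathlib

namespace Vale.Agent.P018

open Polynomial Filter Asymptotics

/-- `a` is `k`-power-free: no prime `k`-th power divides `a` (so `0` is not). -/
def PowFree (k : ℕ) (a : ℤ) : Prop :=
  ∀ p : ℕ, p.Prime → ¬ ((p : ℤ) ^ k ∣ a)

/-- number of residues `a` mod `q` with `f(a) ≡ 0 (mod q)`. -/
def rho (f : ℤ[X]) (q : ℕ) : ℕ :=
  ((Finset.range q).filter fun a : ℕ => (q : ℤ) ∣ f.eval (a : ℤ)).card

open Classical in
/-- number of `1 ≤ n ≤ X` with `f(n)` `k`-power-free. -/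
noncomputable def S (f : ℤ[X]) (k : ℕ) (X : ℝ) : ℕ :=
  ((Finset.Icc 1 ⌊X⌋₊).filter fun n : ℕ => PowFree k (f.eval (n : ℤ))).card

/-- The predicted asymptotic holds for the pair `(d, k)`. -/
def Asymp (d k : ℕ) : Prop :=
  ∀ f : ℤ[X], Irreducible (f.map (Int.castRingHom ℚ)) → f.natDegree = d →
    (∀ p : ℕ, p.Prime → rho f (p ^ k) < p ^ k) →
    ∃ c : ℝ,
      HasProd (fun p : Nat.Primes => 1 - (rho f ((p : ℕ) ^ k) : ℝ) / ((p : ℕ) : ℝ) ^ k) c ∧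
      0 < c ∧
      (fun X : ℝ => (S f k X : ℝ) - c * X) =o[atTop] (fun X : ℝ => X)

end Vale.Agent.P018
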