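import Vale.Agent.P018.Basic

namespace Vale.Agent.P018

open Finset

theorem fam_card_piAntidiag {ι : Type*} [DecidableEq ι] (s : Finset ι) (n : ℕ) :
    (piAntidiag s n).card = (s.card + n - 1).choose n := by
  rw [← Finset.card_finsuppAntidiag_nat_eq_choose]
  simp [finsuppAntidiag]

theorem fam_pow_le (p a : ℕ) : a ^ p ≤ p.factorial * (p + 1 + a - 1).choose a := by
  have h1 : p + 1 + a - 1 = a + p := by omega
  rw [h1, Nat.choose_symm_add, ← Nat.ascFactorial_eq_factorial_mul_choose]
  exact le_trans (Nat.pow_le_pow_left (Nat.le_succ a) p) (Nat.pow_succ_le_ascFactorial (a + 1) p)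

theorem fam_cardA {ι : Type*} [Fintype ι] [DecidableEq ι] (S : Finset ι) (i0 : ι) (hi0 : i0 ∉ S)
    (a k N : ℕ) (hN : a + k * S.card ≤ N) :
    k ^ S.card * (piAntidiag Sᶜ a).card ≤
      ((piAntidiag (univ : Finset ι) N).filter fun A => ∀ i ∈ S, A i < k).card := by
  classical
  set U : Finset (ι → ℕ) := Fintype.piFinset fun i => if i ∈ S then range k else {0} with hU
  have hUcard : U.card = k ^ S.card := by
    rw [hU, Fintype.card_piFinset]
    have : ∀ i : ι, (if i ∈ S then range k else ({0} : Finset ℕ)).card
        = if i ∈ S then k else 1 := by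
      intro i; split_ifs <;> simp
    simp only [this]
    rw [Finset.prod_ite_mem]
    simp
  have hUmem : ∀ u ∈ U, (∀ i ∈ S, u i < k) ∧ (∀ i, i ∉ S → u i = 0) := by
    intro u hu
    rw [hU, Fintype.mem_piFinset] at hu
    refine ⟨fun i hi => ?_, fun i hi => ?_⟩
    · have := hu i; simpa [hi] using this
    · have := hu i; simpa [hi] using this
  have hUsum : ∀ u ∈ U, ∑ i, u i ≤ k * S.card := by
    intro u hu
    obtain ⟨h1, h2⟩ := hUmem u hu
    have : ∑ i, u i = ∑ i ∈ S, u i := by
      symm
      apply Finset.sum_subset (subset_univ S)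
      intro i _ hi; exact h2 i hi
    rw [this, mul_comm]
    have := Finset.sum_le_card_nsmul S u k (fun i hi => (h1 i hi).le)
    simpa using this
  rw [← hUcard, ← Finset.card_product]
  apply Finset.card_le_card_of_injOn
    (fun p : (ι → ℕ) × (ι → ℕ) => p.1 + p.2 + Pi.single i0 (N - a - ∑ i, p.1 i))
  · rintro ⟨u, v⟩ hp
    simp only [coe_product, Set.mem_prod, mem_coe, mem_piAntidiag] at hp
    obtain ⟨hu, hv1, hv2⟩ := hp
    have hv0 : ∀ i ∈ S, v i = 0 := by
      intro i hi
      by_contra h
      have := hv2 i h
      simp [hi] at this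
    have hvs : ∑ i, v i = a := by
      rw [← hv1]; symm
      apply Finset.sum_subset (subset_univ _)
      intro i _ hi
      apply hv0; simpa using hi
    have hs := hUsum u hu
    simp only [coe_filter, mem_piAntidiag, Set.mem_ofPred_eq, mem_univ, implies_true, and_true]
    refine ⟨?_, fun i hi => ?_⟩
    · simp only [Pi.add_apply, Finset.sum_add_distrib, hvs, Finset.sum_pi_single', mem_univ, if_true]
      omega
    · have hne : i ≠ i0 := fun h => hi0 (h ▸ hi)
      simp only [Pi.add_apply, hv0 i hi, Pi.single_eq_of_ne hne, add_zero]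
      exact (hUmem u hu).1 i hi
  · rintro ⟨u, v⟩ hp ⟨u', v'⟩ hp' heq
    simp only [coe_product, Set.mem_prod, mem_coe, mem_piAntidiag] at hp hp'
    obtain ⟨hu, hv1, hv2⟩ := hp
    obtain ⟨hu', hv1', hv2'⟩ := hp'
    have hv0 : ∀ i ∈ S, v i = 0 := by
      intro i hi
      by_contra h
      have := hv2 i h
      simp [hi] at this
    have hv0' : ∀ i ∈ S, v' i = 0 := by
      intro i hi
      by_contra h
      have := hv2' i h
      simp [hi] at this
    have huu : u = u' := by
      funext i
      by_cases hi : i ∈ S
      · have hne : i ≠ i0 := fun h => hi0 (h ▸ hi)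
        have := congrFun heq i
        simpa [hv0 i hi, hv0' i hi, Pi.single_eq_of_ne hne] using this
      · rw [(hUmem u hu).2 i hi, (hUmem u' hu').2 i hi]
    subst huu
    simp only [add_left_inj, add_right_inj] at heq
    rw [heq]

theorem fam_cardB {ι : Type*} [Fintype ι] [DecidableEq ι] (S T : Finset ι) (hST : S ⊆ T) (i0 : ι)
    (hi0 : i0 ∈ T) (b N : ℕ) (hN : b + S.card ≤ N) :
    (piAntidiag T b).card ≤
      ((piAntidiag (univ : Finset ι) N).filter
        fun B => (∀ i ∈ S, B i ≠ 0) ∧ ∀ i, B i ≠ 0 → i ∈ T).card := by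
  classical
  apply Finset.card_le_card_of_injOn
    (fun w : ι → ℕ => w + ((fun i => if i ∈ S then 1 else 0) + Pi.single i0 (N - b - S.card)))
  · intro w hw
    simp only [mem_coe, mem_piAntidiag] at hw
    obtain ⟨hw1, hw2⟩ := hw
    have hws : ∑ i, w i = b := by
      rw [← hw1]; symm
      apply Finset.sum_subset (subset_univ _)
      intro i _ hi
      by_contra h
      exact hi (hw2 i h)
    simp only [coe_filter, mem_piAntidiag, Set.mem_ofPred_eq, mem_univ, implies_true, and_true]
    refine ⟨?_, fun i hi => ?_, fun i hi => ?_⟩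
    · simp only [Pi.add_apply, Finset.sum_add_distrib, hws, Finset.sum_pi_single', mem_univ,
        if_true, Finset.sum_ite_mem, univ_inter, sum_const, smul_eq_mul, mul_one]
      omega
    · simp [hi]
    · by_contra hT
      have h1 : w i = 0 := by
        by_contra h
        exact hT (hw2 i h)
      have h2 : i ∉ S := fun h => hT (hST h)
      have h3 : i ≠ i0 := fun h => hT (h ▸ hi0)
      simp [h1, h2, Pi.single_eq_of_ne h3] at hi
  · intro w _ w' _ heq
    simpa using heq

theorem exists_family (n k a b : ℕ) (hk : 1 ≤ k) :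
    ∃ G : Finset ((Fin (n + 2) → ℕ) × (Fin (n + 2) → ℕ)),
      (∀ AB ∈ G, ∑ i, AB.1 i = a + k * n) ∧ (∀ AB ∈ G, ∑ i, AB.2 i = b + n) ∧
      (∀ AB ∈ G, ∀ i : Fin n, AB.1 i.succ.succ < k ∨ AB.2 i.succ.succ = 0) ∧
      Qp n k a b ≤ ((n + 2).factorial : ℝ) * (G.card : ℝ) := by
  classical
  let e : Fin n ↪ Fin (n + 2) :=
    ⟨fun i => i.succ.succ, fun i j h => Fin.succ_injective _ (Fin.succ_injective _ h)⟩
  have he : ∀ i, e i = i.succ.succ := fun _ => rfl
  have he0 : ∀ i, e i ≠ 0 := fun i => by rw [he]; exact Fin.succ_ne_zero _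
  have he1 : ∀ i, e i ≠ 1 := fun i h => by
    have h' : (i.succ.succ : Fin (n + 2)) = (0 : Fin (n + 1)).succ := h
    exact Fin.succ_ne_zero _ (Fin.succ_injective _ h')
  let AJ : Finset (Fin n) → Finset (Fin (n + 2) → ℕ) := fun J =>
    (piAntidiag univ (a + k * n)).filter fun A => ∀ i ∈ J.map e, A i < k
  let TJ : Finset (Fin n) → Finset (Fin (n + 2)) := fun J => insert 0 (insert 1 (J.map e))
  let BJ : Finset (Fin n) → Finset (Fin (n + 2) → ℕ) := fun J =>
    (piAntidiag univ (b + n)).filter
      fun B => (∀ i ∈ J.map e, B i ≠ 0) ∧ ∀ i, B i ≠ 0 → i ∈ TJ J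
  have hBJ : ∀ J, ∀ B ∈ BJ J, ∀ i, B (e i) ≠ 0 ↔ i ∈ J := by
    intro J B hB i
    simp only [BJ, mem_filter] at hB
    constructor
    · intro h
      have := hB.2.2 _ h
      simp only [TJ, mem_insert, he0 i, he1 i, false_or, mem_map'] at this
      exact this
    · intro h
      exact hB.2.1 _ (mem_map_of_mem e h)
  have hJn : ∀ J : Finset (Fin n), J.card ≤ n := fun J => by
    simpa using Finset.card_le_univ J
  refine ⟨(univ : Finset (Fin n)).powerset.biUnion fun J => AJ J ×ˢ BJ J, ?_, ?_, ?_, ?_⟩
  · intro AB h
    simp only [mem_biUnion, mem_product, AJ, mem_filter, mem_piAntidiag] at h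
    obtain ⟨J, _, h1, _⟩ := h
    exact h1.1.1
  · intro AB h
    simp only [mem_biUnion, mem_product, BJ, mem_filter, mem_piAntidiag] at h
    obtain ⟨J, _, _, h1⟩ := h
    exact h1.1.1
  · intro AB h i
    rw [mem_biUnion] at h
    obtain ⟨J, _, h⟩ := h
    rw [mem_product] at h
    by_cases hi : i ∈ J
    · left
      have h1 := h.1
      simp only [AJ, mem_filter] at h1
      exact h1.2 _ (mem_map_of_mem e hi)
    · right
      by_contra h2
      exact hi ((hBJ J _ h.2 i).1 h2)
  · rw [Finset.card_biUnion]
    · have key : ∀ J : Finset (Fin n),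
          (n + 2).choose (J.card + 1) * k ^ J.card * a ^ (n + 1 - J.card) * b ^ (J.card + 1) ≤
            (n + 2).factorial * (AJ J ×ˢ BJ J).card := by
        intro J
        have hj := hJn J
        have h0 : (0 : Fin (n + 2)) ∉ J.map e := by
          simp only [mem_map, not_exists, not_and]
          intro i _; exact he0 i
        have h1 : (1 : Fin (n + 2)) ∉ J.map e := by
          simp only [mem_map, not_exists, not_and]
          intro i _; exact he1 i
        have hA := fam_cardA (J.map e) 0 h0 a k (a + k * n) (by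
          rw [card_map]; exact Nat.add_le_add_left (Nat.mul_le_mul_left k hj) a)
        have hB := fam_cardB (J.map e) (TJ J)
          ((subset_insert _ _).trans (subset_insert _ _)) 0 (mem_insert_self _ _) b (b + n) (by
            rw [card_map]; omega)
        have hT : (TJ J).card = (J.card + 1) + 1 := by
          simp only [TJ]
          rw [card_insert_of_notMem, card_insert_of_notMem h1, card_map]
          simp only [mem_insert, not_or]
          exact ⟨Fin.zero_ne_one, h0⟩
        have hC : ((J.map e)ᶜ).card = (n + 1 - J.card) + 1 := by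
          rw [card_compl, card_map, Fintype.card_fin]; omega
        rw [fam_card_piAntidiag, hC, card_map] at hA
        rw [fam_card_piAntidiag, hT] at hB
        have hA' : k ^ J.card * (n + 1 - J.card + 1 + a - 1).choose a ≤ (AJ J).card := by
          refine hA.trans (Finset.card_le_card fun x hx => ?_)
          exact mem_filter.2 ((@mem_filter _ _ (_) _ _).1 hx)
        have hB' : (J.card + 1 + 1 + b - 1).choose b ≤ (BJ J).card := by
          refine hB.trans (Finset.card_le_card fun x hx => ?_)
          exact mem_filter.2 ((@mem_filter _ _ (_) _ _).1 hx)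
        have hpa := fam_pow_le (n + 1 - J.card) a
        have hpb := fam_pow_le (J.card + 1) b
        have hf : (n + 2).choose (J.card + 1) * (J.card + 1).factorial *
            (n + 1 - J.card).factorial = (n + 2).factorial := by
          have := Nat.choose_mul_factorial_mul_factorial (show J.card + 1 ≤ n + 2 by omega)
          rwa [show n + 2 - (J.card + 1) = n + 1 - J.card by omega] at this
        rw [card_product, ← hf]
        calc (n + 2).choose (J.card + 1) * k ^ J.card * a ^ (n + 1 - J.card) * b ^ (J.card + 1)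
            ≤ (n + 2).choose (J.card + 1) * k ^ J.card *
              ((n + 1 - J.card).factorial * (n + 1 - J.card + 1 + a - 1).choose a) *
              ((J.card + 1).factorial * (J.card + 1 + 1 + b - 1).choose b) := by gcongr
          _ = (n + 2).choose (J.card + 1) * (J.card + 1).factorial * (n + 1 - J.card).factorial *
              ((k ^ J.card * (n + 1 - J.card + 1 + a - 1).choose a) *
                (J.card + 1 + 1 + b - 1).choose b) := by ring
          _ ≤ (n + 2).choose (J.card + 1) * (J.card + 1).factorial * (n + 1 - J.card).factorial *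
              ((AJ J).card * (BJ J).card) := Nat.mul_le_mul_left _ (Nat.mul_le_mul hA' hB')
      have hsum := Finset.sum_powerset_apply_card (x := (univ : Finset (Fin n)))
        (fun j => (n + 2).choose (j + 1) * k ^ j * a ^ (n + 1 - j) * b ^ (j + 1))
      have hle : ∑ J ∈ (univ : Finset (Fin n)).powerset,
          (n + 2).choose (J.card + 1) * k ^ J.card * a ^ (n + 1 - J.card) * b ^ (J.card + 1) ≤
          (n + 2).factorial * ∑ J ∈ (univ : Finset (Fin n)).powerset, (AJ J ×ˢ BJ J).card := by
        rw [Finset.mul_sum]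
        exact Finset.sum_le_sum fun J _ => key J
      rw [hsum] at hle
      have hle' := (Nat.cast_le (α := ℝ)).2 hle
      rw [Nat.cast_mul] at hle'
      refine le_trans (le_of_eq ?_) hle'
      simp only [Qp, card_univ, Fintype.card_fin, smul_eq_mul]
      push_cast
      refine Finset.sum_congr rfl fun j _ => by ring
    · intro J _ J' _ hne
      rw [Function.onFun, Finset.disjoint_left]
      intro AB h h'
      rw [mem_product] at h h'
      apply hne
      ext i
      rw [← hBJ J _ h.2 i, ← hBJ J' _ h'.2 i]

end Vale.Agent.P018
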