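import Vale.Agent.P018.Basic

namespace Vale.Agent.P018

open Polynomial Filter Asymptotics

theorem sv_bezout (f : ℤ[X]) (hirr : Irreducible (f.map (Int.castRingHom ℚ))) :
    ∃ (U V : ℤ[X]) (D : ℤ), D ≠ 0 ∧ U * f + V * derivative f = C D := by
  obtain ⟨u, v, huv⟩ : IsCoprime (f.map (Int.castRingHom ℚ))
    (derivative (f.map (Int.castRingHom ℚ))) := hirr.separable
  obtain ⟨b₁, hb₁, h₁⟩ := IsLocalization.integerNormalization_spec (nonZeroDivisors ℤ) u
  obtain ⟨b₂, hb₂, h₂⟩ := IsLocalization.integerNormalization_spec (nonZeroDivisors ℤ) v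
  refine ⟨C b₂ * IsLocalization.integerNormalization (nonZeroDivisors ℤ) u,
    C b₁ * IsLocalization.integerNormalization (nonZeroDivisors ℤ) v, b₁ * b₂,
    mul_ne_zero (nonZeroDivisors.ne_zero hb₁) (nonZeroDivisors.ne_zero hb₂), ?_⟩
  apply Polynomial.map_injective (Int.castRingHom ℚ) (Int.castRingHom ℚ).injective_int
  have e : algebraMap ℤ ℚ = Int.castRingHom ℚ := rfl
  rw [e] at h₁ h₂
  simp only [Polynomial.map_add, Polynomial.map_mul, h₁, h₂, ← derivative_map,
    zsmul_eq_mul, eq_intCast, Int.cast_mul, Polynomial.map_intCast]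
  linear_combination ((b₁ : ℚ[X]) * (b₂ : ℚ[X])) * huv

theorem sv_rho_le (f U V : ℤ[X]) (D : ℤ) (h : U * f + V * derivative f = C D) (k : ℕ)
    (hk : 1 ≤ k) (p : ℕ) (hp : p.Prime) (hD : ¬ (p : ℤ) ∣ D) : rho f (p ^ k) ≤ f.natDegree := by
  classical
  have : Fact p.Prime := ⟨hp⟩
  have hpZ : Prime (p : ℤ) := Nat.prime_iff_prime_int.mp hp
  set g := f.map (Int.castRingHom (ZMod p)) with hg
  have hg0 : g ≠ 0 := by
    intro h0
    apply hD
    have := congrArg (Polynomial.map (Int.castRingHom (ZMod p))) h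
    rw [Polynomial.map_add, Polynomial.map_mul, Polynomial.map_mul, ← derivative_map, ← hg, h0,
      map_C] at this
    simp only [mul_zero, derivative_zero, add_zero, eq_intCast] at this
    rw [← ZMod.intCast_zmod_eq_zero_iff_dvd]
    exact C_eq_zero.mp this.symm
  have hpk : (p : ℤ) ∣ ((p ^ k : ℕ) : ℤ) := by
    push_cast; exact dvd_pow_self _ (by omega)
  unfold rho
  refine le_trans (Finset.card_le_card_of_injOn (t := g.roots.toFinset)
    (fun a : ℕ => (a : ZMod p)) ?_ ?_) ((Multiset.toFinset_card_le _).trans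
      ((card_roots' g).trans (natDegree_map_le)))
  · intro a ha
    have ha2 := (Finset.mem_filter.mp ha).2
    simp only [Finset.mem_coe, Multiset.mem_toFinset, mem_roots hg0, IsRoot.def]
    have : ((a : ℕ) : ZMod p) = Int.castRingHom (ZMod p) (a : ℤ) := by simp
    rw [this, hg, eval_map, eval₂_at_apply, eq_intCast, ZMod.intCast_zmod_eq_zero_iff_dvd]
    exact hpk.trans ha2
  · intro a ha b hb hab
    obtain ⟨ha1, ha2⟩ := Finset.mem_filter.mp ha
    obtain ⟨hb1, hb2⟩ := Finset.mem_filter.mp hb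
    have hy : (p : ℤ) ∣ (a : ℤ) - b := by
      rw [← ZMod.intCast_zmod_eq_zero_iff_dvd]
      push_cast
      exact sub_eq_zero.mpr hab
    obtain ⟨c, hc⟩ := f.binomExpansion (b : ℤ) ((a : ℤ) - b)
    rw [add_sub_cancel] at hc
    have h1 : (p : ℤ) ^ k ∣ ((a : ℤ) - b) * (f.derivative.eval (b : ℤ) + c * ((a : ℤ) - b)) := by
      have := dvd_sub ha2 hb2
      push_cast at this
      have e : ((a : ℤ) - b) * (f.derivative.eval (b : ℤ) + c * ((a : ℤ) - b))
          = f.eval (a : ℤ) - f.eval (b : ℤ) := by rw [hc]; ring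
      rwa [e]
    have h2 : ¬ (p : ℤ) ∣ f.derivative.eval (b : ℤ) + c * ((a : ℤ) - b) := by
      intro h3
      apply hD
      have h4 : (p : ℤ) ∣ f.derivative.eval (b : ℤ) :=
        (dvd_add_left (hy.mul_left c)).mp h3
      have h5 := congrArg (eval (b : ℤ)) h
      rw [eval_add, eval_mul, eval_mul, eval_C] at h5
      rw [← h5]
      exact dvd_add ((hpk.trans hb2).mul_left _) (h4.mul_left _)
    have h6 := hpZ.pow_dvd_of_dvd_mul_right k h2 h1
    have h7 : (b : ℕ) ≡ a [MOD p ^ k] := (Nat.modEq_iff_dvd).mpr (by push_cast; exact h6)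
    exact (Nat.ModEq.eq_of_lt_of_lt h7 (Finset.mem_range.mp hb1) (Finset.mem_range.mp ha1)).symm

theorem sv_count_mul (P : ℕ → Prop) [DecidablePred P] (Q : ℕ) (hP : Function.Periodic P Q)
    (m : ℕ) : ((Finset.Ico 1 (1 + Q * m)).filter P).card = Q.count P * m := by
  induction m with
  | zero => simp
  | succ m ih =>
    rw [← Finset.Ico_union_Ico_eq_Ico (b := 1 + Q * m) (by omega) (by rw [mul_add]; omega),
      Finset.filter_union, Finset.card_union_of_disjoint
        (Finset.disjoint_filter_filter (Finset.Ico_disjoint_Ico_consecutive _ _ _)), ih,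
      show 1 + Q * (m + 1) = 1 + Q * m + Q by ring, Nat.filter_Ico_card_eq_of_periodic _ _ _ hP]
    ring

theorem sv_count_approx (P : ℕ → Prop) [DecidablePred P] (Q : ℕ) (hQ : 0 < Q)
    (hP : Function.Periodic P Q) (X : ℕ) :
    |(((Finset.Icc 1 X).filter P).card : ℝ) - (Q.count P : ℝ) / Q * X| ≤ Q.count P := by
  have h1 := Nat.div_add_mod X Q
  have h2 := Nat.mod_lt X hQ
  have a1 : Q.count P * (X / Q) ≤ ((Finset.Icc 1 X).filter P).card := by
    rw [← sv_count_mul P Q hP]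
    refine Finset.card_le_card (Finset.filter_subset_filter _ fun n hn => ?_)
    rw [Finset.mem_Ico] at hn
    rw [Finset.mem_Icc]; omega
  have a2 : ((Finset.Icc 1 X).filter P).card ≤ Q.count P * (X / Q + 1) := by
    rw [← sv_count_mul P Q hP]
    refine Finset.card_le_card (Finset.filter_subset_filter _ fun n hn => ?_)
    rw [Finset.mem_Icc] at hn
    rw [Finset.mem_Ico, mul_add]; omega
  have hQr : (0 : ℝ) < Q := by exact_mod_cast hQ
  have b1 : ((X / Q : ℕ) : ℝ) ≤ (X : ℝ) / Q := Nat.cast_div_le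
  have b2 : (X : ℝ) / Q ≤ ((X / Q : ℕ) : ℝ) + 1 := by
    rw [div_le_iff₀ hQr]
    have : X ≤ (X / Q + 1) * Q := by nlinarith
    exact_mod_cast this
  have a1' : (Q.count P : ℝ) * ((X / Q : ℕ) : ℝ) ≤ ((Finset.Icc 1 X).filter P).card := by
    exact_mod_cast a1
  have a2' : (((Finset.Icc 1 X).filter P).card : ℝ) ≤ Q.count P * (((X / Q : ℕ) : ℝ) + 1) := by
    exact_mod_cast a2
  have hr : (0 : ℝ) ≤ Q.count P := Nat.cast_nonneg _
  have e : (Q.count P : ℝ) / Q * X = Q.count P * ((X : ℝ) / Q) := by ring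
  rw [e, abs_le]
  constructor <;> nlinarith [mul_le_mul_of_nonneg_left b1 hr, mul_le_mul_of_nonneg_left b2 hr]

theorem sv_count_crt (P₁ P₂ : ℕ → Prop) [DecidablePred P₁] [DecidablePred P₂] (Q₁ Q₂ : ℕ)
    (h1 : 0 < Q₁) (h2 : 0 < Q₂) (co : Q₁.Coprime Q₂) (hP₁ : Function.Periodic P₁ Q₁)
    (hP₂ : Function.Periodic P₂ Q₂) :
    (Q₁ * Q₂).count (fun n => P₁ n ∧ P₂ n) = Q₁.count P₁ * Q₂.count P₂ := by
  simp only [Nat.count_eq_card_filter_range]
  rw [← Finset.card_product]
  refine Finset.card_bij (fun n _ => (n % Q₁, n % Q₂)) ?_ ?_ ?_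
  · intro n hn
    obtain ⟨_, h3, h4⟩ := Finset.mem_filter.mp hn
    simp only [Finset.mem_product, Finset.mem_filter, Finset.mem_range]
    exact ⟨⟨Nat.mod_lt _ h1, by rwa [hP₁.map_mod_nat]⟩, Nat.mod_lt _ h2, by rwa [hP₂.map_mod_nat]⟩
  · intro a ha b hb hab
    simp only [Prod.mk.injEq] at hab
    exact Nat.ModEq.eq_of_lt_of_lt ((Nat.modEq_and_modEq_iff_modEq_mul co).mp hab)
      (Finset.mem_range.mp (Finset.mem_filter.mp ha).1)
      (Finset.mem_range.mp (Finset.mem_filter.mp hb).1)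
  · rintro ⟨a, b⟩ hab
    simp only [Finset.mem_product, Finset.mem_filter, Finset.mem_range] at hab
    have e1 : (Nat.chineseRemainder co a b : ℕ) % Q₁ = a :=
      Eq.trans (Nat.chineseRemainder co a b).2.1 (Nat.mod_eq_of_lt hab.1.1)
    have e2 : (Nat.chineseRemainder co a b : ℕ) % Q₂ = b :=
      Eq.trans (Nat.chineseRemainder co a b).2.2 (Nat.mod_eq_of_lt hab.2.1)
    refine ⟨Nat.chineseRemainder co a b, ?_, by rw [e1, e2]⟩
    refine Finset.mem_filter.mpr ⟨Finset.mem_range.mpr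
      (Nat.chineseRemainder_lt_mul co a b h1.ne' h2.ne'), ?_, ?_⟩
    · rw [← hP₁.map_mod_nat, e1]; exact hab.1.2
    · rw [← hP₂.map_mod_nat, e2]; exact hab.2.2

theorem sv_periodic (f : ℤ[X]) (q : ℕ) :
    Function.Periodic (fun n : ℕ => (q : ℤ) ∣ f.eval (n : ℤ)) q := by
  intro n
  apply propext
  have := sub_dvd_eval_sub ((n + q : ℕ) : ℤ) (n : ℤ) f
  have e : ((n + q : ℕ) : ℤ) - n = q := by push_cast; ring
  rw [e] at this
  exact dvd_iff_dvd_of_dvd_sub this

theorem sv_count_rho (f : ℤ[X]) (q : ℕ) :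
    q.count (fun n : ℕ => (q : ℤ) ∣ f.eval (n : ℤ)) = rho f q :=
  Nat.count_eq_card_filter_range _ _

theorem sv_finite (f : ℤ[X]) (k : ℕ) (T : Finset Nat.Primes) :
    Function.Periodic (fun n : ℕ => ∀ p ∈ T, ¬ (((p : ℕ) ^ k : ℕ) : ℤ) ∣ f.eval (n : ℤ))
      (∏ p ∈ T, (p : ℕ) ^ k) ∧
    (((∏ p ∈ T, (p : ℕ) ^ k).count
      (fun n : ℕ => ∀ p ∈ T, ¬ (((p : ℕ) ^ k : ℕ) : ℤ) ∣ f.eval (n : ℤ)) : ℕ) : ℝ)
      / ((∏ p ∈ T, (p : ℕ) ^ k : ℕ) : ℝ)
      = ∏ p ∈ T, (1 - (rho f ((p : ℕ) ^ k) : ℝ) / ((p : ℕ) : ℝ) ^ k) := by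
  classical
  induction T using Finset.induction_on with
  | empty => exact ⟨fun n => by simp, by simp⟩
  | insert a T ha ih =>
    have hpa : Function.Periodic (fun n : ℕ => ¬ (((a : ℕ) ^ k : ℕ) : ℤ) ∣ f.eval (n : ℤ))
        ((a : ℕ) ^ k) := fun n => congrArg Not (sv_periodic f _ n)
    have hq : 0 < (a : ℕ) ^ k := pow_pos a.2.pos _
    have hQ : 0 < ∏ p ∈ T, (p : ℕ) ^ k := Finset.prod_pos fun p _ => pow_pos p.2.pos _
    have co : ((a : ℕ) ^ k).Coprime (∏ p ∈ T, (p : ℕ) ^ k) := by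
      refine Nat.Coprime.prod_right fun p hp => Nat.Coprime.pow _ _ ?_
      exact (Nat.coprime_primes a.2 p.2).mpr fun h => ha (by rwa [Subtype.ext h])
    simp only [Finset.forall_mem_insert, Finset.prod_insert ha]
    constructor
    · intro n
      have e1 := (hpa.nat_mul (∏ p ∈ T, (p : ℕ) ^ k)) n
      have e2 := (ih.1.nat_mul ((a : ℕ) ^ k)) n
      simp only [Nat.cast_id] at e1 e2
      rw [mul_comm] at e1
      exact congrArg₂ And e1 e2
    · rw [sv_count_crt _ _ _ _ hq hQ co hpa ih.1, ← ih.2]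
      have e3 : rho f ((a : ℕ) ^ k) + ((a : ℕ) ^ k).count
          (fun n : ℕ => ¬ (((a : ℕ) ^ k : ℕ) : ℤ) ∣ f.eval (n : ℤ)) = (a : ℕ) ^ k := by
        rw [Nat.count_eq_card_filter_range, rho, Finset.card_filter_add_card_filter_not,
          Finset.card_range]
      have e4 : ((((a : ℕ) ^ k).count
          (fun n : ℕ => ¬ (((a : ℕ) ^ k : ℕ) : ℤ) ∣ f.eval (n : ℤ)) : ℕ) : ℝ)
          = ((a : ℕ) : ℝ) ^ k - rho f ((a : ℕ) ^ k) := by
        rw [eq_sub_iff_add_eq']; exact_mod_cast e3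
      have hq' : (0 : ℝ) < ((a : ℕ) : ℝ) ^ k := by exact_mod_cast hq
      rw [Nat.cast_mul, Nat.cast_mul, e4, Nat.cast_pow]
      field_simp

theorem sieve (f : ℤ[X]) (k : ℕ) (hk : 2 ≤ k)
    (hirr : Irreducible (f.map (Int.castRingHom ℚ)))
    (hloc : ∀ p : ℕ, p.Prime → rho f (p ^ k) < p ^ k) (htail : Tail f k) :
    ∃ c : ℝ,
      HasProd (fun p : Nat.Primes => 1 - (rho f ((p : ℕ) ^ k) : ℝ) / ((p : ℕ) : ℝ) ^ k) c ∧
      0 < c ∧
      (fun X : ℝ => (S f k X : ℝ) - c * X) =o[atTop] (fun X : ℝ => X) := by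
  classical
  obtain ⟨U, V, D, hD, hUV⟩ := sv_bezout f hirr
  set d : ℝ := (f.natDegree : ℝ) with hd
  have hd0 : 0 ≤ d := Nat.cast_nonneg _
  have hrho : ∀ p : ℕ, p.Prime → D.natAbs < p → (rho f (p ^ k) : ℝ) ≤ d := by
    intro p hp hlt
    have := sv_rho_le f U V D hUV k (by omega) p hp (fun h => by
      have := Nat.le_of_dvd (Int.natAbs_pos.mpr hD) (Int.natCast_dvd.mp h)
      omega)
    rw [hd]; exact_mod_cast this
  have hrho2 : ∀ p : ℕ, p.Prime → D.natAbs < p →
      (rho f (p ^ k) : ℝ) / (p : ℝ) ^ k ≤ d * ((p : ℝ) ^ 2)⁻¹ := by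
    intro p hp hlt
    have h1 : (1 : ℝ) ≤ p := by exact_mod_cast hp.one_le
    rw [← div_eq_mul_inv]
    exact div_le_div₀ hd0 (hrho p hp hlt) (by positivity) (pow_le_pow_right₀ h1 hk)
  set a : Nat.Primes → ℝ := fun p => -((rho f ((p : ℕ) ^ k) : ℝ) / ((p : ℕ) : ℝ) ^ k) with ha
  have hpos : ∀ p, 0 < 1 + a p := by
    intro p
    have h1 : (0 : ℝ) < ((p : ℕ) : ℝ) ^ k := by exact_mod_cast pow_pos p.2.pos k
    have h2 : (rho f ((p : ℕ) ^ k) : ℝ) < ((p : ℕ) : ℝ) ^ k := by exact_mod_cast hloc p p.2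
    have := (div_lt_one h1).mpr h2
    simp only [ha]; linarith
  have hsum : Summable fun p => ‖a p‖ := by
    have h1 : Summable fun n : ℕ => d * ((n : ℝ) ^ 2)⁻¹ :=
      (Real.summable_nat_pow_inv.mpr one_lt_two).mul_left d
    have h2 : Summable fun p : Nat.Primes => d * (((p : ℕ) : ℝ) ^ 2)⁻¹ :=
      h1.comp_injective (i := fun p : Nat.Primes => (p : ℕ)) Subtype.val_injective
    refine h2.of_norm_bounded_eventually ?_
    rw [Filter.eventually_cofinite]
    refine Set.Finite.subset ((Set.finite_Iic D.natAbs).preimage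
      (f := fun p : Nat.Primes => (p : ℕ)) Subtype.val_injective.injOn) fun p hp => ?_
    by_contra hcon
    apply hp
    simp only [Set.mem_preimage, Set.mem_Iic, not_le] at hcon
    rw [norm_norm]
    simp only [ha]
    rw [norm_neg, Real.norm_of_nonneg (by positivity)]
    exact hrho2 p p.2 hcon
  have hprod : HasProd (fun p => 1 + a p) (∏' p, (1 + a p)) :=
    (multipliable_one_add_of_summable hsum).hasProd
  set c := ∏' p, (1 + a p) with hc
  have hfun : (fun p : Nat.Primes => 1 - (rho f ((p : ℕ) ^ k) : ℝ) / ((p : ℕ) : ℝ) ^ k)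
      = fun p => 1 + a p := by funext p; simp only [ha]; ring
  have hc0 : 0 < c := by
    refine lt_of_le_of_ne ?_ (tprod_one_add_ne_zero_of_summable (fun p => (hpos p).ne') hsum).symm
    exact ge_of_tendsto' hprod fun s => Finset.prod_nonneg fun p _ => (hpos p).le
  refine ⟨c, hfun ▸ hprod, hc0, ?_⟩
  -- the statement for natural `X`
  have key : ∀ ε : ℝ, 0 < ε → ∀ᶠ X : ℕ in atTop, |(S f k X : ℝ) - c * X| ≤ ε * X := by
    intro ε hε
    obtain ⟨s₀, hs₀⟩ := Filter.eventually_atTop.mp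
      (hprod.eventually (Metric.closedBall_mem_nhds c (show 0 < ε / 5 by positivity)))
    obtain ⟨ξ₁, hξ₁⟩ := exists_nat_ge (5 * d / ε)
    set ξ : ℕ := s₀.sup (fun p => (p : ℕ)) + D.natAbs + ξ₁ + 1 with hξ
    have hξ0 : (0 : ℝ) < ξ := by exact_mod_cast (by omega : 0 < ξ)
    have hξd : d * (ξ : ℝ)⁻¹ ≤ ε / 5 := by
      have : (ξ₁ : ℝ) ≤ ξ := by exact_mod_cast (by omega : ξ₁ ≤ ξ)
      rw [div_le_iff₀ hε] at hξ₁
      rw [← div_eq_mul_inv, div_le_iff₀ hξ0]
      nlinarith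
    set T : Finset Nat.Primes := (Finset.range (ξ + 1)).subtype Nat.Prime with hT
    have hTmem : ∀ p : Nat.Primes, p ∈ T ↔ (p : ℕ) ≤ ξ := by
      intro p
      exact Finset.mem_subtype.trans (by rw [Finset.mem_range]; omega)
    have hcT := hs₀ T (fun p hp => (hTmem p).mpr (by
      have : (p : ℕ) ≤ s₀.sup (fun p => (p : ℕ)) :=
        Finset.le_sup (f := fun p : Nat.Primes => (p : ℕ)) hp
      omega))
    rw [Real.dist_eq, ← hfun] at hcT
    obtain ⟨hper, hcnt⟩ := sv_finite f k T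
    set Q : ℕ := ∏ p ∈ T, (p : ℕ) ^ k with hQ
    have hQ0 : 0 < Q := Finset.prod_pos fun p _ => pow_pos p.2.pos _
    have hπ : ∀ᶠ X : ℕ in atTop, d * (Nat.primeCounting X : ℝ) ≤ ε / 5 * X := by
      have h1 := tendsto_natCast_atTop_atTop (R := ℝ).eventually
        (Chebyshev.eventually_primeCounting_le one_pos)
      have h2 := (Real.tendsto_log_atTop.comp (tendsto_natCast_atTop_atTop (R := ℝ))).eventually
        (eventually_ge_atTop (5 * d * (Real.log 4 + 1) / ε + 1))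
      filter_upwards [h1, h2] with X h1 h2
      rw [Nat.floor_natCast] at h1
      simp only [Function.comp] at h2
      have hl : 0 < Real.log 4 + 1 := by have := Real.log_pos (by norm_num : (1 : ℝ) < 4); linarith
      have h3 : 0 ≤ 5 * d * (Real.log 4 + 1) / ε := by positivity
      have h4 : 0 < Real.log X := by linarith
      refine (mul_le_mul_of_nonneg_left h1 hd0).trans ?_
      rw [← mul_div_assoc, div_le_iff₀ h4]
      have h5 : 5 * d * (Real.log 4 + 1) ≤ Real.log X * ε := by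
        rw [← div_le_iff₀ hε]; linarith
      have h6 : (0 : ℝ) ≤ X := Nat.cast_nonneg _
      nlinarith [mul_le_mul_of_nonneg_right h5 h6]
    have htl := htail.eventually (eventually_le_nhds (show (0 : ℝ) < ε / 5 by positivity))
    have hQX := (tendsto_natCast_atTop_atTop (R := ℝ)).eventually
      (eventually_ge_atTop (5 * (Q : ℝ) / ε))
    filter_upwards [hπ, htl, hQX, eventually_ge_atTop ξ] with X h1 h2 h3 h4
    have hX0 : (0 : ℝ) < X := hξ0.trans_le (by exact_mod_cast h4)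
    rw [div_le_iff₀ hX0] at h2
    rw [div_le_iff₀ hε] at h3
    have happ := sv_count_approx _ Q hQ0 hper X
    rw [hcnt] at happ
    have hcQ : ((Q.count (fun n : ℕ => ∀ p ∈ T,
        ¬ (((p : ℕ) ^ k : ℕ) : ℤ) ∣ f.eval (n : ℤ)) : ℕ) : ℝ) ≤ Q := by
      exact Nat.cast_le.mpr (Nat.count_le _)
    set N := (Finset.Icc 1 X).filter (fun n : ℕ => ∀ p ∈ T,
        ¬ (((p : ℕ) ^ k : ℕ) : ℤ) ∣ f.eval (n : ℤ)) with hN
    set A := (Finset.Icc 1 X).filter (fun n : ℕ => PowFree k (f.eval (n : ℤ))) with hA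
    have hS : S f k X = A.card := by simp only [S, Nat.floor_natCast, hA]
    set B := (Finset.Icc 1 X).filter (fun n : ℕ =>
      ∃ p : ℕ, p.Prime ∧ X < p ∧ (p : ℤ) ^ k ∣ f.eval (n : ℤ)) with hB
    set R := (Finset.Ioc ξ X).filter Nat.Prime with hR
    set E := R.biUnion (fun p => (Finset.Icc 1 X).filter
      (fun n : ℕ => ((p ^ k : ℕ) : ℤ) ∣ f.eval (n : ℤ))) with hE
    have s1 : A ⊆ N := by
      intro n hn
      obtain ⟨h5, h6⟩ := Finset.mem_filter.mp hn
      refine Finset.mem_filter.mpr ⟨h5, fun p _ => ?_⟩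
      push_cast
      exact h6 p p.2
    have s2 : N ⊆ A ∪ E ∪ B := by
      intro n hn
      obtain ⟨h5, h6⟩ := Finset.mem_filter.mp hn
      by_cases h7 : PowFree k (f.eval (n : ℤ))
      · exact Finset.mem_union_left _ (Finset.mem_union_left _ (Finset.mem_filter.mpr ⟨h5, h7⟩))
      · unfold PowFree at h7
        push Not at h7
        obtain ⟨p, hp, hpd⟩ := h7
        by_cases h8 : X < p
        · exact Finset.mem_union_right _ (Finset.mem_filter.mpr ⟨h5, p, hp, h8, hpd⟩)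
        · refine Finset.mem_union_left _ (Finset.mem_union_right _ ?_)
          refine Finset.mem_biUnion.mpr ⟨p, Finset.mem_filter.mpr ⟨Finset.mem_Ioc.mpr
            ⟨?_, by omega⟩, hp⟩, Finset.mem_filter.mpr ⟨h5, by push_cast; exact hpd⟩⟩
          by_contra h9
          exact h6 ⟨p, hp⟩ ((hTmem _).mpr (not_lt.mp h9)) (by push_cast; exact hpd)
    have c1 : (A.card : ℝ) ≤ N.card := by exact_mod_cast Finset.card_le_card s1
    have c2 : (N.card : ℝ) ≤ A.card + E.card + B.card := by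
      have := (Finset.card_le_card s2).trans ((Finset.card_union_le _ _).trans
        (Nat.add_le_add_right (Finset.card_union_le _ _) _))
      exact_mod_cast this
    have c3 : (E.card : ℝ) ≤ ∑ p ∈ R, (d * ((p : ℝ) ^ 2)⁻¹ * X + d) := by
      have : (E.card : ℝ) ≤ ((∑ p ∈ R, ((Finset.Icc 1 X).filter
        (fun n : ℕ => ((p ^ k : ℕ) : ℤ) ∣ f.eval (n : ℤ))).card : ℕ) : ℝ) := by
        exact_mod_cast Finset.card_biUnion_le
      rw [Nat.cast_sum] at this
      refine this.trans (Finset.sum_le_sum fun p hp => ?_)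
      obtain ⟨hp1, hp2⟩ := Finset.mem_filter.mp hp
      have hlt : D.natAbs < p := by have := (Finset.mem_Ioc.mp hp1).1; omega
      have h5 := sv_count_approx _ (p ^ k) (pow_pos hp2.pos k) (sv_periodic f _) X
      rw [sv_count_rho, abs_le] at h5
      have h6 := mul_le_mul_of_nonneg_right (hrho2 p hp2 hlt) hX0.le
      rw [← Nat.cast_pow] at h6
      have h7 := hrho p hp2 hlt
      linarith [h5.2]
    have c4 : ∑ p ∈ R, (d * ((p : ℝ) ^ 2)⁻¹ * X + d) ≤ ε / 5 * X + ε / 5 * X := by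
      rw [Finset.sum_add_distrib, ← Finset.sum_mul, ← Finset.mul_sum, Finset.sum_const,
        nsmul_eq_mul]
      refine add_le_add ?_ ?_
      · refine mul_le_mul_of_nonneg_right (le_trans (mul_le_mul_of_nonneg_left ?_ hd0) hξd) hX0.le
        refine (Finset.sum_le_sum_of_subset_of_nonneg (Finset.filter_subset _ _)
          fun _ _ _ => by positivity).trans ?_
        refine (sum_Ioc_inv_sq_le_sub (by omega) h4).trans ?_
        have : (0 : ℝ) ≤ (X : ℝ)⁻¹ := by positivity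
        linarith
      · refine le_trans ?_ h1
        rw [mul_comm]
        refine mul_le_mul_of_nonneg_left ?_ hd0
        have : R.card ≤ Nat.primeCounting X := by
          rw [Nat.primeCounting, Nat.primeCounting', Nat.count_eq_card_filter_range]
          refine Finset.card_le_card (Finset.filter_subset_filter _ fun n hn => ?_)
          rw [Finset.mem_Ioc] at hn
          rw [Finset.mem_range]; omega
        exact_mod_cast this
    rw [hS]
    have c5 := mul_le_mul_of_nonneg_right hcT hX0.le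
    rw [← abs_of_pos hX0, ← abs_mul, abs_of_pos hX0, sub_mul] at c5
    rw [abs_le] at happ c5 ⊢
    constructor <;> nlinarith [happ.1, happ.2, c5.1, c5.2]
  rw [isLittleO_iff]
  intro ε hε
  have h1 := (tendsto_nat_floor_atTop (α := ℝ)).eventually (key (ε / 2) (by positivity))
  filter_upwards [h1, eventually_ge_atTop (2 * c / ε), eventually_ge_atTop 0] with X h1 h2 h3
  have hS : S f k (⌊X⌋₊ : ℕ) = S f k X := by simp only [S, Nat.floor_natCast]
  rw [hS] at h1
  rw [div_le_iff₀ hε] at h2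
  have h4 := Nat.floor_le h3
  have h5 := Nat.lt_floor_add_one X
  rw [Real.norm_eq_abs, Real.norm_of_nonneg h3, abs_le]
  rw [abs_le] at h1
  constructor <;> nlinarith [h1.1, h1.2]

end Vale.Agent.P018
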