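import Vale.Agent.P018.Core
import Vale.Agent.P018.Sieve

namespace Vale.Agent.P018

open NumberField Finset Filter Topology Polynomial

theorem exists_roots_aux (f : ℤ[X]) (hirr : Irreducible (f.map (Int.castRingHom ℚ))) (e : ℕ)
    (hd : f.natDegree = e + 1) (F : Type) [Field F] [NumberField F]
    (hsplit : ((f.map (Int.castRingHom ℚ)).map (algebraMap ℚ F)).Splits) :
    ∃ (ϑ : Fin (e + 1) → 𝓞 F),
      Function.Injective ϑ ∧ (∀ i (a : Fin (e + 1) → ℤ), a ≠ 0 → pv a (ϑ i) ≠ 0) ∧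
      ∀ n : ℤ, ∏ i, (((f.leadingCoeff * n : ℤ) : 𝓞 F) - ϑ i) =
        ((f.leadingCoeff ^ e * f.eval n : ℤ) : 𝓞 F) := by
  classical
  set g := f.map (Int.castRingHom ℚ) with hg
  have hinjZ : Function.Injective (Int.castRingHom ℚ) := (Int.castRingHom ℚ).injective_int
  have hgd : g.natDegree = e + 1 := by rw [hg, natDegree_map_eq_of_injective hinjZ, hd]
  have hf0 : f ≠ 0 := by rintro rfl; simp at hd
  have hlc : f.leadingCoeff ≠ 0 := leadingCoeff_ne_zero.mpr hf0
  set G := g.map (algebraMap ℚ F) with hG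
  have hGf : G = f.map (Int.castRingHom F) := by
    rw [hG, hg, Polynomial.map_map]
    congr 1
    exact RingHom.ext_int _ _
  have hGd : G.natDegree = e + 1 := by rw [hG, natDegree_map, hgd]
  have hnodup : G.roots.Nodup := nodup_roots (hirr.separable.map)
  have hcard : G.roots.toFinset.card = e + 1 := by
    rw [Multiset.toFinset_card_of_nodup hnodup, ← hsplit.natDegree_eq_card_roots, hGd]
  let eqv := Finset.equivFinOfCardEq hcard
  let θ : Fin (e + 1) → F := fun i => (eqv.symm i : F)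
  have hθinj : Function.Injective θ := fun i j h => eqv.symm.injective (Subtype.ext h)
  have hG0 : G ≠ 0 := by intro h; rw [h] at hGd; simp at hGd
  have hroot : ∀ i, G.eval (θ i) = 0 := fun i =>
    (mem_roots hG0).mp (Multiset.mem_toFinset.mp (eqv.symm i).2)
  have hGlc : G.leadingCoeff = (f.leadingCoeff : F) := by
    rw [hGf, leadingCoeff_map_of_injective (Int.castRingHom F).injective_int]; simp
  have hprod : ∀ t : F, G.eval t = (f.leadingCoeff : F) * ∏ i, (t - θ i) := by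
    intro t
    conv_lhs => rw [hsplit.eq_prod_roots]
    rw [eval_mul, eval_C, hGlc, eval_multiset_prod, Multiset.map_map]
    congr 1
    have h1 : ∏ i, (t - θ i) = ∏ x ∈ G.roots.toFinset, (t - x) := by
      rw [← Finset.prod_coe_sort G.roots.toFinset]
      exact Fintype.prod_equiv eqv.symm _ _ fun i => rfl
    rw [h1, Finset.prod_eq_multiset_prod, Multiset.toFinset_val, hnodup.dedup]
    simp
  have haeval : ∀ i, aeval (θ i) f = 0 := fun i => by
    have := hroot i
    rw [hGf, eval_map] at this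
    rw [aeval_def, ← this]
    congr 1
  have hint : ∀ i, IsIntegral ℤ (f.leadingCoeff • θ i) := fun i =>
    isIntegral_leadingCoeff_smul f (θ i) (haeval i)
  have hlcF : (f.leadingCoeff : F) ≠ 0 := by exact_mod_cast hlc
  obtain ⟨ϑ, hϑ⟩ : ∃ ϑ : Fin (e + 1) → 𝓞 F,
      ∀ i, algebraMap (𝓞 F) F (ϑ i) = (f.leadingCoeff : F) * θ i :=
    ⟨fun i => ⟨f.leadingCoeff • θ i, hint i⟩, fun i => zsmul_eq_mul _ _⟩
  refine ⟨ϑ, ?_, ?_, ?_⟩
  · intro i j h
    have h1 := congrArg (algebraMap (𝓞 F) F) h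
    rw [hϑ, hϑ] at h1
    exact hθinj (mul_left_cancel₀ hlcF h1)
  · intro i a ha h
    have h2 := congrArg (algebraMap (𝓞 F) F) h
    rw [map_pv, map_zero, hϑ] at h2
    let P : ℚ[X] := ∑ l : Fin (e + 1), monomial (l : ℕ) ((a l : ℚ) * (f.leadingCoeff : ℚ) ^ (l : ℕ))
    have hPc : ∀ l : Fin (e + 1), P.coeff l = (a l : ℚ) * (f.leadingCoeff : ℚ) ^ (l : ℕ) := by
      intro l
      simp only [P, finsetSum_coeff, coeff_monomial]
      rw [Finset.sum_eq_single l]
      · simp
      · intro j _ hj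
        rw [if_neg]; exact fun h => hj (Fin.ext h)
      · simp
    have hP0 : P ≠ 0 := by
      intro h
      apply ha
      funext l
      have h3 := hPc l
      rw [h, coeff_zero, eq_comm, mul_eq_zero] at h3
      rcases h3 with h3 | h3
      · exact_mod_cast h3
      · exact absurd (pow_eq_zero_iff'.mp h3).1 (by exact_mod_cast hlc)
    have hPd : P.natDegree ≤ e := by
      refine natDegree_sum_le_of_forall_le _ _ fun l _ => ?_
      exact (natDegree_monomial_le _).trans (Nat.lt_succ_iff.mp l.2)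
    have hPa : aeval (θ i) P = 0 := by
      rw [← h2]
      simp only [P, map_sum, aeval_monomial, pv, map_mul, map_pow, map_intCast]
      refine Finset.sum_congr rfl fun l _ => by ring
    have hga : aeval (θ i) g = 0 := by
      rw [aeval_def, ← eval_map]; exact hroot i
    have h4 := minpoly.eq_of_irreducible hirr hga
    have h5 := minpoly.degree_le_of_ne_zero ℚ (θ i) hP0 hPa
    have h6 := natDegree_le_natDegree h5
    have hg0 : g ≠ 0 := hirr.ne_zero
    rw [← h4, natDegree_mul_C (inv_ne_zero (leadingCoeff_ne_zero.mpr hg0)), hgd] at h6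
    omega
  · intro n
    apply RingOfIntegers.coe_injective
    simp only [map_prod, map_sub, map_intCast, hϑ]
    have h1 := hprod (n : F)
    have h2 : G.eval (n : F) = ((f.eval n : ℤ) : F) := by
      rw [hGf, eval_intCast_map]; simp
    push_cast
    rw [← h2, h1]
    have h3 : ∀ i, (f.leadingCoeff : F) * n -
        (f.leadingCoeff : F) * θ i = (f.leadingCoeff : F) * (n - θ i) := fun i => by ring
    rw [Finset.prod_congr rfl fun i _ => h3 i, Finset.prod_mul_distrib]
    simp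
    ring

theorem exists_roots (f : ℤ[X]) (hirr : Irreducible (f.map (Int.castRingHom ℚ))) (e : ℕ)
    (hd : f.natDegree = e + 1) :
    ∃ (F : Type) (_ : Field F) (_ : NumberField F) (ϑ : Fin (e + 1) → 𝓞 F),
      Function.Injective ϑ ∧ (∀ i (a : Fin (e + 1) → ℤ), a ≠ 0 → pv a (ϑ i) ≠ 0) ∧
      ∀ n : ℤ, ∏ i, (((f.leadingCoeff * n : ℤ) : 𝓞 F) - ϑ i) =
        ((f.leadingCoeff ^ e * f.eval n : ℤ) : 𝓞 F) := by
  haveI : NumberField (f.map (Int.castRingHom ℚ)).SplittingField :=
    NumberField.of_module_finite ℚ _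
  exact ⟨(f.map (Int.castRingHom ℚ)).SplittingField, inferInstance, inferInstance,
    exists_roots_aux f hirr e hd _ (SplittingField.splits _)⟩

/-- The statement proved by the number-field part for the pair `(e + 1, k)`. -/
def CoreBound (e k : ℕ) : Prop :=
  ∀ (F : Type) [Field F] [NumberField F] (ϑ : Fin (e + 1) → 𝓞 F), Function.Injective ϑ →
    (∀ i (a : Fin (e + 1) → ℤ), a ≠ 0 → pv a (ϑ i) ≠ 0) → ∀ A : ℕ,
    Tendsto (fun X : ℝ => ((Bad ϑ k A Set.univ X).card : ℝ) / X) atTop (𝓝 0)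

theorem tail_of_core (f : ℤ[X]) (hirr : Irreducible (f.map (Int.castRingHom ℚ))) (e : ℕ)
    (hd : f.natDegree = e + 1) (k' k : ℕ) (hkk : k' ≤ k) (hcore : CoreBound e k') : Tail f k := by
  classical
  obtain ⟨F, _, _, ϑ, hinj, hind, hprod⟩ := exists_roots f hirr e hd
  have hf0 : f ≠ 0 := by rintro rfl; simp at hd
  have hlc : f.leadingCoeff ≠ 0 := leadingCoeff_ne_zero.mpr hf0
  rw [Tail, Metric.tendsto_atTop]
  intro ε hε
  obtain ⟨M, hM⟩ := exists_nat_gt (2 / ε)
  have hM0 : (0 : ℝ) < M := lt_trans (by positivity) hM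
  have hM1 : (1 : ℝ) ≤ M := by
    have : 0 < M := by exact_mod_cast hM0
    exact_mod_cast this
  set A : ℕ := f.leadingCoeff.natAbs * M with hA
  have h1 := hcore F ϑ hinj hind A
  have h2 : Tendsto (fun X : ℕ => (X : ℝ) / M) atTop atTop :=
    tendsto_natCast_atTop_atTop.atTop_div_const hM0
  have h3 := (h1.comp h2).eventually (gt_mem_nhds zero_lt_one)
  obtain ⟨X0, hX0⟩ := eventually_atTop.mp (h3.and (eventually_gt_atTop 0))
  refine ⟨X0, fun X hX => ?_⟩
  obtain ⟨h4, h5⟩ := hX0 X hX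
  have hXr : (0 : ℝ) < X := by exact_mod_cast h5
  simp only [Function.comp] at h4
  rw [div_lt_one (by positivity)] at h4
  rw [Real.dist_eq, sub_zero, abs_of_nonneg (by positivity), div_lt_iff₀ hXr]
  set s := (Finset.Icc 1 X).filter fun n : ℕ =>
    ∃ p : ℕ, p.Prime ∧ X < p ∧ (p : ℤ) ^ k ∣ f.eval (n : ℤ) with hs
  have hsplit : s.card = (s.filter fun n : ℕ => (n : ℝ) ≤ (X : ℝ) / M).card +
      (s.filter fun n : ℕ => ¬ (n : ℝ) ≤ (X : ℝ) / M).card :=
    (Finset.card_filter_add_card_filter_not (s := s) _).symm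
  have hA1 : ((s.filter fun n : ℕ => (n : ℝ) ≤ (X : ℝ) / M).card : ℝ) ≤ (X : ℝ) / M := by
    have : (s.filter fun n : ℕ => (n : ℝ) ≤ (X : ℝ) / M) ⊆ Finset.Icc 1 ⌊(X : ℝ) / M⌋₊ := by
      intro n hn
      rw [Finset.mem_filter, hs, Finset.mem_filter, Finset.mem_Icc] at hn
      exact Finset.mem_Icc.mpr ⟨hn.1.1.1, Nat.le_floor hn.2⟩
    have h6 := Finset.card_le_card this
    rw [Nat.card_Icc, Nat.add_sub_cancel] at h6
    exact (Nat.cast_le.mpr h6).trans (Nat.floor_le (by positivity))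
  have hA2 : (s.filter fun n : ℕ => ¬ (n : ℝ) ≤ (X : ℝ) / M).card ≤
      (Bad ϑ k' A Set.univ ((X : ℝ) / M)).card := by
    refine Finset.card_le_card_of_injOn (fun n : ℕ => f.leadingCoeff * (n : ℤ)) (fun n hn => ?_)
      (fun n _ n' _ h => by exact_mod_cast mul_left_cancel₀ hlc h)
    simp only [Finset.coe_filter, hs, Finset.mem_filter, Finset.mem_Icc, Set.mem_ofPred_eq,
      not_le] at hn
    obtain ⟨⟨⟨hn1, hn2⟩, p, hp, hXp, hdvd⟩, hn3⟩ := hn
    simp only [Bad, Finset.coe_filter, Set.mem_ofPred_eq, Finset.mem_Icc, Set.mem_univ, true_and]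
    have hl1 : (1 : ℝ) ≤ |(f.leadingCoeff : ℝ)| := by
      exact_mod_cast Int.one_le_abs hlc
    have hnX : (n : ℝ) ≤ X := by exact_mod_cast hn2
    have habs : |((f.leadingCoeff * (n : ℤ) : ℤ) : ℝ)| = |(f.leadingCoeff : ℝ)| * n := by
      push_cast; rw [abs_mul, Nat.abs_cast]
    have hAX : (A : ℝ) * ((X : ℝ) / M) = |(f.leadingCoeff : ℝ)| * X := by
      rw [hA]; push_cast
      rw [Nat.cast_natAbs]; push_cast
      field_simp
    refine ⟨?_, ?_, p, hp, ?_, ?_⟩
    · rw [← abs_le, Int.le_floor, Int.cast_abs, habs, hAX]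
      gcongr
    · rw [habs]
      have : (0 : ℝ) ≤ n := by positivity
      nlinarith
    · have h7 : (X : ℝ) ≤ p := by exact_mod_cast hXp.le
      exact (div_le_self hXr.le hM1).trans h7
    · rw [hprod]
      have h8 : (p : ℤ) ^ k' ∣ f.leadingCoeff ^ e * f.eval (n : ℤ) :=
        ((pow_dvd_pow _ hkk).trans hdvd).mul_left _
      have := map_dvd (Int.castRingHom (𝓞 F)) h8
      simpa using this
  have hA2' : ((s.filter fun n : ℕ => ¬ (n : ℝ) ≤ (X : ℝ) / M).card : ℝ) < (X : ℝ) / M :=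
    lt_of_le_of_lt (by exact_mod_cast hA2) h4
  rw [hsplit]
  push_cast
  have h9 : 2 * ((X : ℝ) / M) ≤ ε * X := by
    rw [div_lt_iff₀ hε] at hM
    rw [← mul_div_assoc, div_le_iff₀ hM0]
    nlinarith
  linarith

theorem asymp_of_core (e k' k : ℕ) (hk : 2 ≤ k) (hkk : k' ≤ k) (hcore : CoreBound e k') :
    Asymp (e + 1) k := fun f hirr hd hloc =>
  sieve f k hk hirr hloc (tail_of_core f hirr e hd k' k hkk hcore)

theorem core_of_good (e k : ℕ) (he : 1 ≤ e) (hk : 1 ≤ k) (hkd : k ≤ e + 1)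
    (hgood : ∀ y : ℝ, 1 ≤ y → (k : ℝ) * y ≤ ((e + 1 : ℕ) : ℝ) → Good (e + 1) k y) :
    CoreBound e k := fun _ _ _ ϑ hinj hind A =>
  core_of_windows he ϑ hind k A hk hkd fun y hy hyk =>
    window he ϑ hinj hind k A hk y hy hyk (hgood y hy hyk)

theorem asymp_half (d k : ℕ) (hd : 6 ≤ d) (hk : d < 2 * k) (h74 : ¬ (d = 7 ∧ k = 4)) :
    Asymp d k := by
  obtain ⟨e, rfl⟩ : ∃ e, d = e + 1 := ⟨d - 1, by omega⟩
  by_cases h5 : 5 ≤ k
  · refine asymp_of_core e (min k (e + 1)) k (by omega) (min_le_left _ _)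
      (core_of_good e _ (by omega) (by omega) (min_le_right _ _) fun y hy hyk => ?_)
    exact good_half (e + 1) _ (by omega) (min_le_right _ _) (by omega) y hy hyk
  · have h1 : e = 5 := by omega
    have h2 : k = 4 := by omega
    subst h1 h2
    refine asymp_of_core 5 4 4 (by omega) le_rfl
      (core_of_good 5 4 (by omega) (by omega) (by omega) fun y hy hyk => ?_)
    exact good_six_four y hy (by push_cast at hyk; linarith)

theorem asymp_quarter (ε : ℝ) (hε : 0 < ε) : ∃ d0 : ℕ, ∀ d k : ℕ, d0 ≤ d →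
    (1 / 4 + ε) * d ≤ (k : ℝ) → Asymp d k := by
  obtain ⟨d0, hd0⟩ := good_quarter ε hε
  refine ⟨max d0 8, fun d k hd hk => ?_⟩
  have hd1 : d0 ≤ d := le_of_max_le_left hd
  have hd2 : 8 ≤ d := le_of_max_le_right hd
  by_cases hkd : k ≤ d
  · obtain ⟨e, rfl⟩ : ∃ e, d = e + 1 := ⟨d - 1, by omega⟩
    have hk2 : 2 ≤ k := by
      have h1 : (8 : ℝ) ≤ ((e + 1 : ℕ) : ℝ) := by exact_mod_cast hd2
      have h2 : (2 : ℝ) ≤ k := by nlinarith
      exact_mod_cast h2
    exact asymp_of_core e k k hk2 le_rfl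
      (core_of_good e k (by omega) (by omega) hkd fun y hy hyk => hd0 _ k hd1 hk y hy hyk)
  · exact asymp_half d k (by omega) (by omega) (by omega)

end Vale.Agent.P018
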