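import Vale.Agent.P018.Basic

namespace Vale.Agent.P018

open Filter Topology

theorem par_Qp_mono (n k : ℕ) {α β α' β' : ℝ} (hα : 0 ≤ α) (hβ : 0 ≤ β) (h1 : α ≤ α')
    (h2 : β ≤ β') : Qp n k α β ≤ Qp n k α' β' := by
  unfold Qp
  refine Finset.sum_le_sum fun j _ => ?_
  have : 0 ≤ α' := hα.trans h1
  gcongr

theorem par_Qp_smul (n k : ℕ) (α β t : ℝ) :
    Qp n k (α * t) (β * t) = t ^ (n + 2) * Qp n k α β := by
  unfold Qp
  rw [Finset.mul_sum]
  refine Finset.sum_congr rfl fun j hj => ?_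
  have hj' : j ≤ n := Nat.lt_succ_iff.1 (Finset.mem_range.1 hj)
  have : t ^ (n + 2) = t ^ (n + 1 - j) * t ^ (j + 1) := by
    rw [← pow_add]; congr 1; omega
  rw [this, mul_pow, mul_pow]; ring

theorem par_Qp_ge (n k : ℕ) {α β : ℝ} (hα : 0 ≤ α) (hβ : 0 ≤ β) :
    α ^ (n + 1) * β ≤ Qp n k α β := by
  unfold Qp
  have h := Finset.single_le_sum (s := Finset.range (n + 1))
    (f := fun j => (n.choose j : ℝ) * ((n + 2).choose (j + 1) : ℝ) * (k : ℝ) ^ j *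
      α ^ (n + 1 - j) * β ^ (j + 1)) (fun j _ => by positivity)
    (Finset.mem_range.2 (Nat.succ_pos n))
  refine le_trans ?_ h
  simp only [Nat.choose_zero_right, Nat.cast_one, zero_add, Nat.choose_one_right, pow_zero,
    Nat.sub_zero, pow_one, one_mul, mul_one]
  have h0 : 0 ≤ α ^ (n + 1) * β := by positivity
  have h1 : (1 : ℝ) ≤ ((n + 2 : ℕ) : ℝ) := by exact_mod_cast (by omega : 1 ≤ n + 2)
  nlinarith

theorem par_Qp_pos (n k : ℕ) {α β : ℝ} (hα : 0 < α) (hβ : 0 < β) : 0 < Qp n k α β :=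
  lt_of_lt_of_le (by positivity) (par_Qp_ge n k hα.le hβ.le)

theorem window_params (d k : ℕ) (hd : 1 ≤ d) (y : ℝ) (hy : 1 ≤ y) (hyk : (k : ℝ) * y ≤ d)
    (h : Good d k y) :
    ∃ (n a b : ℕ) (z W η : ℝ), 0 < z ∧ 0 ≤ W ∧ 0 < η ∧ η < 1 / 2 ∧ 0 < Qp n k a b ∧
      ((d : ℝ) - 1) * z + (y + η) / d < 1 ∧
      ((d : ℝ) - ((n : ℝ) + 2)) * z + ((n : ℝ) + 2) * (y + η) / d < 1 ∧
      (W + (((n : ℝ) + 1) * z + 1)) ^ (n + 3) / (((n : ℝ) + 3) * z ^ (n + 1) * Qp n k a b) <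
        W - (((a + k * n : ℕ) : ℝ) * (y + η) / d + ((b + n : ℕ) : ℝ) * (1 - k * (y - η) / d)) := by
  obtain ⟨n, z, α, β, hz, hα, hβ, h1, h2, h3⟩ := h
  have hd0 : (0 : ℝ) < d := by exact_mod_cast hd
  have hk0 : (0 : ℝ) ≤ k := Nat.cast_nonneg k
  have hn0 : (0 : ℝ) ≤ n := Nat.cast_nonneg n
  set σ : ℝ := (α * y + β * (d - k * y)) / d with hσ
  have hσ0 : 0 < σ := by
    have : 0 ≤ β * (d - k * y) := mul_nonneg hβ.le (by linarith)
    have : 0 < α * y := by positivity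
    positivity
  set ω : ℝ := ((n : ℝ) + 3) / ((n : ℝ) + 2) * σ with hω
  have hω0 : 0 < ω := by positivity
  set Q : ℝ := Qp n k α β with hQ
  have hQ0 : 0 < Q := par_Qp_pos n k hα hβ
  have h3' : ω ^ (n + 2) < z ^ (n + 1) * Q := by rw [hω, mul_pow]; exact h3
  set c : ℝ := ((n : ℝ) + 1) * z + 1 with hc
  have hc0 : 0 < c := by positivity
  let F : ℝ → ℝ := fun s =>
    ω - ((α + (1 + k * n) * s) * (y + s) / d + (β + (1 + n) * s) * (1 - k * (y - s) / d)) -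
      (ω + c * s) ^ (n + 3) / (((n : ℝ) + 3) * z ^ (n + 1) * Q)
  have hF : Continuous F := by
    simp only [F]; fun_prop
  have hF0 : 0 < F 0 := by
    have e1 : α * y / d + β * (1 - k * y / d) = σ := by
      rw [hσ]; field_simp
    have e2 : ω - σ = ω / ((n : ℝ) + 3) := by
      rw [hω]; field_simp; ring
    simp only [F, mul_zero, add_zero, sub_zero]
    rw [e1, e2, sub_pos, div_lt_div_iff₀ (by positivity) (by positivity)]
    have : ω ^ (n + 3) = ω * ω ^ (n + 2) := by ring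
    rw [this]
    have h4 : 0 < ω * ((n : ℝ) + 3) := by positivity
    nlinarith [mul_lt_mul_of_pos_left h3' h4]
  have ev1 : ∀ᶠ s in 𝓝 (0 : ℝ), 0 < F s := hF.continuousAt.eventually (lt_mem_nhds hF0)
  have ev2 : ∀ᶠ s in 𝓝 (0 : ℝ), s < 1 / 2 := gt_mem_nhds (by norm_num)
  have ev3 : ∀ᶠ s in 𝓝 (0 : ℝ), ((d : ℝ) - 1) * z + (y + s) / d < 1 := by
    have hc : Continuous fun s : ℝ => ((d : ℝ) - 1) * z + (y + s) / d := by fun_prop
    exact hc.continuousAt.eventually (gt_mem_nhds (by simpa using h1))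
  have ev4 : ∀ᶠ s in 𝓝 (0 : ℝ),
      ((d : ℝ) - ((n : ℝ) + 2)) * z + ((n : ℝ) + 2) * (y + s) / d < 1 := by
    have hc : Continuous fun s : ℝ =>
        ((d : ℝ) - ((n : ℝ) + 2)) * z + ((n : ℝ) + 2) * (y + s) / d := by fun_prop
    exact hc.continuousAt.eventually (gt_mem_nhds (by simpa using h2))
  have ev : ∀ᶠ s in 𝓝[>] (0 : ℝ), _ :=
    (((ev1.and ev2).and (ev3.and ev4)).filter_mono nhdsWithin_le_nhds).and self_mem_nhdsWithin
  obtain ⟨s, ⟨⟨hs1, hs2⟩, hs3, hs4⟩, hs0⟩ := ev.exists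
  have hs0 : 0 < s := hs0
  set t : ℝ := s⁻¹ with ht
  have ht0 : 0 < t := by positivity
  have hst : s * t = 1 := mul_inv_cancel₀ hs0.ne'
  have ha1 : α * t ≤ (⌈α * t⌉₊ : ℝ) := Nat.le_ceil _
  have hb1 : β * t ≤ (⌈β * t⌉₊ : ℝ) := Nat.le_ceil _
  have ha2 : (⌈α * t⌉₊ : ℝ) ≤ α * t + 1 := (Nat.ceil_lt_add_one (by positivity)).le
  have hb2 : (⌈β * t⌉₊ : ℝ) ≤ β * t + 1 := (Nat.ceil_lt_add_one (by positivity)).le
  have hQab : t ^ (n + 2) * Q ≤ Qp n k (⌈α * t⌉₊ : ℝ) (⌈β * t⌉₊ : ℝ) := by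
    rw [hQ, ← par_Qp_smul]
    exact par_Qp_mono n k (by positivity) (by positivity) ha1 hb1
  have hQt : 0 < t ^ (n + 2) * Q := by positivity
  refine ⟨n, ⌈α * t⌉₊, ⌈β * t⌉₊, z, ω * t, s, hz, by positivity, hs0, hs2,
    lt_of_lt_of_le hQt hQab, hs3, hs4, ?_⟩
  have hw : 0 ≤ 1 - k * (y - s) / d := by
    rw [sub_nonneg, div_le_one hd0]
    nlinarith [mul_nonneg hk0 hs0.le]
  have hys : 0 ≤ (y + s) / d := by positivity
  have hL : (ω * t + c) ^ (n + 3) /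
      (((n : ℝ) + 3) * z ^ (n + 1) * Qp n k (⌈α * t⌉₊ : ℝ) (⌈β * t⌉₊ : ℝ)) ≤
      t * ((ω + c * s) ^ (n + 3) / (((n : ℝ) + 3) * z ^ (n + 1) * Q)) := by
    have e : ω * t + c = t * (ω + c * s) := by
      have : t * (c * s) = c * (s * t) := by ring
      rw [mul_add, this, hst]; ring
    calc _ ≤ (ω * t + c) ^ (n + 3) / (((n : ℝ) + 3) * z ^ (n + 1) * (t ^ (n + 2) * Q)) := by
          gcongr
      _ = _ := by
          rw [e, mul_pow]; field_simp; ring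
  have hR : t * (ω - ((α + (1 + k * n) * s) * (y + s) / d +
      (β + (1 + n) * s) * (1 - k * (y - s) / d))) ≤
      ω * t - (((⌈α * t⌉₊ + k * n : ℕ) : ℝ) * (y + s) / d +
        ((⌈β * t⌉₊ + n : ℕ) : ℝ) * (1 - k * (y - s) / d)) := by
    have e1 : t * (α + (1 + k * n) * s) = α * t + 1 + k * n := by
      have : t * ((1 + k * n) * s) = (1 + k * n) * (s * t) := by ring
      rw [mul_add, this, hst]; ring
    have e2 : t * (β + (1 + n) * s) = β * t + 1 + n := by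
      have : t * ((1 + n) * s) = (1 + n) * (s * t) := by ring
      rw [mul_add, this, hst]; ring
    have e3 : t * (ω - ((α + (1 + k * n) * s) * (y + s) / d +
      (β + (1 + n) * s) * (1 - k * (y - s) / d))) = ω * t -
        ((t * (α + (1 + k * n) * s)) * ((y + s) / d) +
          (t * (β + (1 + n) * s)) * (1 - k * (y - s) / d)) := by ring
    rw [e3, e1, e2, mul_div_assoc _ (y + s)]
    push_cast
    gcongr
  have hFs : 0 < t * F s := mul_pos ht0 hs1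
  simp only [F] at hFs
  rw [mul_sub] at hFs
  linarith

theorem par_good_of (d k n : ℕ) (y z0 α β : ℝ) (hy : 1 ≤ y) (hnd : n + 2 < d) (hz0 : 0 < z0)
    (hα : 0 < α) (hβ : 0 < β)
    (h2 : ((d : ℝ) - ((n : ℝ) + 2)) * z0 + ((n : ℝ) + 2) * y / d ≤ 1)
    (h3 : (((n : ℝ) + 3) / ((n : ℝ) + 2)) ^ (n + 2) * ((α * y + β * (d - k * y)) / d) ^ (n + 2)
      < z0 ^ (n + 1) * Qp n k α β) : Good d k y := by
  have hc : Continuous fun z : ℝ => z ^ (n + 1) * Qp n k α β := by fun_prop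
  have ev1 := (hc.continuousAt (x := z0)).eventually (lt_mem_nhds h3)
  have ev2 : ∀ᶠ z in 𝓝 z0, 0 < z := lt_mem_nhds hz0
  have ev : ∀ᶠ z in 𝓝[<] z0, _ :=
    ((ev1.and ev2).filter_mono nhdsWithin_le_nhds).and self_mem_nhdsWithin
  obtain ⟨z, ⟨hz1, hz2⟩, hz3⟩ := ev.exists
  have hz3 : z < z0 := hz3
  have hnd' : (n : ℝ) + 2 < d := by exact_mod_cast hnd
  have hn0 : (0 : ℝ) ≤ n := Nat.cast_nonneg n
  have hd0 : (0 : ℝ) < d := by linarith
  have h2' : ((d : ℝ) - ((n : ℝ) + 2)) * z + ((n : ℝ) + 2) * y / d < 1 := by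
    have := mul_lt_mul_of_pos_left hz3 (sub_pos.2 hnd')
    linarith
  refine ⟨n, z, α, β, hz2, hα, hβ, ?_, h2', hz1⟩
  set w : ℝ := y / d with hw
  have hyw : y = d * w := by rw [hw]; field_simp
  rw [mul_div_assoc, ← hw] at h2'
  have hm : 0 < (d : ℝ) - ((n : ℝ) + 2) := sub_pos.2 hnd'
  have h4 := mul_lt_mul_of_pos_left h2' (show (0 : ℝ) < d - 1 by linarith)
  have h5 : 0 ≤ ((n : ℝ) + 1) * (d * w - 1) := mul_nonneg (by positivity) (by linarith)
  have h6 : ((d : ℝ) - ((n : ℝ) + 2)) * (((d : ℝ) - 1) * z + w) <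
      ((d : ℝ) - ((n : ℝ) + 2)) * 1 := by nlinarith
  exact lt_of_mul_lt_mul_left h6 hm.le

theorem par_good_zero (d k n : ℕ) (y z0 : ℝ) (hy : 1 ≤ y) (hnd : n + 2 < d) (hz0 : 0 < z0)
    (hμ : (d : ℝ) - k * y = 0)
    (h2 : ((d : ℝ) - ((n : ℝ) + 2)) * z0 + ((n : ℝ) + 2) * y / d ≤ 1) : Good d k y := by
  set C : ℝ := (((n : ℝ) + 3) / ((n : ℝ) + 2)) ^ (n + 2) * (y / d) ^ (n + 2) with hC
  have hC0 : 0 ≤ C := by positivity
  have hzp : 0 < z0 ^ (n + 1) := by positivity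
  refine par_good_of d k n y z0 1 ((C + 1) / z0 ^ (n + 1)) hy hnd hz0 one_pos (by positivity) h2 ?_
  rw [hμ, mul_zero, add_zero, one_mul, ← hC]
  have h := par_Qp_ge n k (α := 1) (β := (C + 1) / z0 ^ (n + 1)) zero_le_one (by positivity)
  rw [one_pow, one_mul, div_le_iff₀ hzp] at h
  nlinarith

theorem par_half_core (k d u : ℝ) (hk : 5 ≤ k) (hd4 : 4 < d) (hdk : d ≤ 2 * k - 1)
    (hu0 : 1 / 2 ≤ u) (hu1 : u ≤ 1) :
    (625 / 64 : ℝ) * (u * (1 - u) * (d - 4) / (k - 4 * u)) ^ 3 < 1 + u * (1 - u) := by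
  have hku : 0 < k - 4 * u := by linarith
  have hv0 : 0 ≤ u * (1 - u) := mul_nonneg (by linarith) (by linarith)
  set v : ℝ := u * (1 - u) with hv
  set w : ℝ := v * (d - 4) / (k - 4 * u) with hw
  have hw0 : 0 ≤ w := div_nonneg (mul_nonneg hv0 (by linarith)) hku.le
  have hcube : ∀ c : ℝ, w ≤ c → w ^ 3 ≤ c ^ 3 := fun c hc => pow_le_pow_left₀ hw0 hc 3
  by_cases h58 : u ≤ 5 / 8
  · have hv1 : v ≤ 1 / 4 := by nlinarith [sq_nonneg (u - 1 / 2)]
    have hv2 : 15 / 64 ≤ v := by nlinarith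
    have : w ≤ 1 / 2 := by
      rw [hw, div_le_iff₀ hku]
      have : d - 4 ≤ 2 * (k - 4 * u) := by linarith
      nlinarith
    have := hcube _ this
    nlinarith
  · push Not at h58
    have h54 : 0 < 5 - 4 * u := by linarith
    have hr : (d - 4) * (5 - 4 * u) ≤ 5 * (k - 4 * u) := by
      have h1 : (d - 4) * (5 - 4 * u) ≤ (2 * k - 5) * (5 - 4 * u) :=
        mul_le_mul_of_nonneg_right (by linarith) h54.le
      nlinarith [mul_nonneg (sub_nonneg.2 hk) (show 0 ≤ 8 * u - 5 by linarith)]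
    have hw1 : w * (5 - 4 * u) ≤ 5 * v := by
      rw [hw, div_mul_eq_mul_div, div_le_iff₀ hku]
      nlinarith [mul_le_mul_of_nonneg_left hr hv0]
    by_cases hv9 : v ≤ 9 / 100
    · have : w ≤ 45 / 100 := by nlinarith
      have := hcube _ this
      nlinarith
    · push Not at hv9
      have h48 : 5 * v ≤ 48 / 100 * (5 - 4 * u) := by
        nlinarith [sq_nonneg (u - 692 / 1000)]
      have : w ≤ 48 / 100 := le_of_mul_le_mul_right (hw1.trans h48) h54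
      have := hcube _ this
      nlinarith

theorem par_Qp_two (k : ℕ) (α β : ℝ) :
    Qp 2 k α β = 4 * α * β * (α ^ 2 + 3 * k * α * β + k ^ 2 * β ^ 2) := by
  simp [Qp, Finset.sum_range_succ, Nat.choose]; ring

theorem par_Qp_one (k : ℕ) (α β : ℝ) :
    Qp 1 k α β = 3 * α * β * (α + k * β) := by
  simp [Qp, Finset.sum_range_succ, Nat.choose]; ring

theorem good_half (d k : ℕ) (hk : 5 ≤ k) (hkd : k ≤ d) (hdk : d < 2 * k) (y : ℝ) (hy : 1 ≤ y)
    (hyk : (k : ℝ) * y ≤ d) : Good d k y := by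
  have hk' : (5 : ℝ) ≤ k := by exact_mod_cast hk
  have hkd' : (k : ℝ) ≤ d := by exact_mod_cast hkd
  have hdk' : (d : ℝ) ≤ 2 * k - 1 := by
    have : ((d + 1 : ℕ) : ℝ) ≤ ((2 * k : ℕ) : ℝ) := by exact_mod_cast hdk
    push_cast at this; linarith
  have hd0 : (0 : ℝ) < d := by linarith
  have hk0 : (0 : ℝ) < k := by linarith
  set u : ℝ := k * y / d with hu
  have hu1 : u ≤ 1 := by rw [hu, div_le_one hd0]; exact hyk
  have hu0 : 1 / 2 ≤ u := by rw [hu, le_div_iff₀ hd0]; nlinarith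
  have hyu : y = u * d / k := by rw [hu]; field_simp
  have hku : 0 < (k : ℝ) - 4 * u := by linarith
  have hd4 : (0 : ℝ) < d - 4 := by linarith
  set z0 : ℝ := (k - 4 * u) / (k * (d - 4)) with hz0
  have hz : 0 < z0 := by positivity
  have h2 : ((d : ℝ) - (((2 : ℕ) : ℝ) + 2)) * z0 + (((2 : ℕ) : ℝ) + 2) * y / d ≤ 1 := by
    apply le_of_eq
    have : ((2 : ℕ) : ℝ) + 2 = 4 := by norm_num
    rw [this, hz0, hu]; field_simp; ring
  have hμ : (d : ℝ) - k * y = d * (1 - u) := by rw [hu]; field_simp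
  rcases eq_or_lt_of_le hu1 with h1 | h1
  · exact par_good_zero d k 2 y z0 hy (by omega) hz (by rw [hμ, h1]; ring) h2
  · have hμ0 : 0 < (d : ℝ) * (1 - u) := mul_pos hd0 (by linarith)
    refine par_good_of d k 2 y z0 (d * (1 - u)) y hy (by omega) hz hμ0 (by linarith) h2 ?_
    have core := par_half_core k d u hk' (by linarith) hdk' hu0 hu1
    have hv : 0 < u * (1 - u) := mul_pos (by linarith) (by linarith)
    have hc : 0 < 4 * z0 ^ 3 * (d : ℝ) ^ 4 * (u * (1 - u)) / k := by positivity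
    have := mul_lt_mul_of_pos_left core hc
    rw [hμ, par_Qp_two]
    refine lt_of_eq_of_lt ?_ (lt_of_lt_of_eq this ?_)
    · rw [hz0]
      clear_value u
      subst hyu
      have hku' : (k : ℝ) - u * 4 ≠ 0 := by intro h; linarith
      norm_num
      field_simp
      ring
    · clear_value u z0
      subst hyu
      norm_num
      field_simp
      ring

theorem good_six_four (y : ℝ) (hy : 1 ≤ y) (hyk : (4 : ℝ) * y ≤ 6) : Good 6 4 y := by
  have hz : 0 < (2 - y) / 6 := by linarith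
  have h2 : (((6 : ℕ) : ℝ) - (((1 : ℕ) : ℝ) + 2)) * ((2 - y) / 6) +
      (((1 : ℕ) : ℝ) + 2) * y / (6 : ℕ) ≤ 1 := by
    apply le_of_eq; push_cast; ring
  rcases eq_or_lt_of_le hyk with h1 | h1
  · exact par_good_zero 6 4 1 y _ hy (by omega) hz (by push_cast; linarith) h2
  · have hμ : 0 < 6 - 4 * y := by linarith
    refine par_good_of 6 4 1 y _ (3 / 4 * (6 - 4 * y)) y hy (by omega) hz (by positivity)
      (by linarith) h2 ?_
    rw [par_Qp_one]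
    push_cast
    set p : ℝ := (6 - 4 * y) * y with hp
    have hp0 : 0 < p := by positivity
    have hp1 : p ≤ 2 * (2 - y) := by nlinarith [sq_nonneg (y - 1)]
    have hp2 : p ^ 2 ≤ (2 * (2 - y)) ^ 2 := pow_le_pow_left₀ hp0.le hp1 2
    have e1 : (((1 : ℝ) + 3) / (1 + 2)) ^ (1 + 2) *
        ((3 / 4 * (6 - 4 * y) * y + y * (6 - 4 * y)) / 6) ^ (1 + 2) = p * (343 / 5832 * p ^ 2) := by
      rw [hp]; ring
    have e2 : ((2 - y) / 6) ^ (1 + 1) * (3 * (3 / 4 * (6 - 4 * y)) * y *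
        (3 / 4 * (6 - 4 * y) + 4 * y)) = p * ((2 - y) ^ 2 * (9 / 2 + y) / 16) := by
      rw [hp]; ring
    rw [e1, e2]
    apply mul_lt_mul_of_pos_left _ hp0
    have h3 : 0 < (2 - y) ^ 2 := pow_pos (by linarith) 2
    nlinarith

theorem par_Qp_lower (n k : ℕ) (p q β : ℝ) (hβ : 0 ≤ β) (hq : q ^ 2 = k * β) :
    p ^ 2 * β * (p + q) ^ (2 * n) ≤ ((n : ℝ) + 1) * Qp n k (p ^ 2) β := by
  have hcs := sq_sum_le_card_mul_sum_sq (s := Finset.range (n + 1))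
    (f := fun j => q ^ j * p ^ (n - j) * (n.choose j : ℝ))
  rw [← add_pow, Finset.card_range, add_comm q p, ← pow_mul, mul_comm n 2] at hcs
  push_cast at hcs
  have h0 : 0 ≤ p ^ 2 * β := by positivity
  refine (mul_le_mul_of_nonneg_left hcs h0).trans ?_
  rw [mul_left_comm]
  apply mul_le_mul_of_nonneg_left _ (by positivity)
  unfold Qp
  rw [Finset.mul_sum]
  refine Finset.sum_le_sum fun j hj => ?_
  have hj' : j ≤ n := Nat.lt_succ_iff.1 (Finset.mem_range.1 hj)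
  have hch : (n.choose j : ℝ) ≤ ((n + 2).choose (j + 1) : ℝ) := by
    have h1 : n.choose j ≤ (n + 1).choose (j + 1) := by
      rw [Nat.choose_succ_succ]; omega
    exact_mod_cast h1.trans (Nat.choose_le_choose _ (by omega))
  have e1 : p ^ 2 * β * (q ^ j * p ^ (n - j) * (n.choose j : ℝ)) ^ 2 =
      (n.choose j : ℝ) * (n.choose j : ℝ) * ((k : ℝ) ^ j * (p ^ 2) ^ (n + 1 - j) * β ^ (j + 1)) := by
    have : n + 1 - j = (n - j) + 1 := by omega
    rw [this, mul_pow, mul_pow, ← pow_mul q, mul_comm j 2, pow_mul q, hq, mul_pow]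
    ring
  rw [e1]
  have h2 : 0 ≤ (k : ℝ) ^ j * (p ^ 2) ^ (n + 1 - j) * β ^ (j + 1) := by positivity
  have h3 : (0 : ℝ) ≤ n.choose j := Nat.cast_nonneg _
  calc _ ≤ (n.choose j : ℝ) * ((n + 2).choose (j + 1) : ℝ) *
        ((k : ℝ) ^ j * (p ^ 2) ^ (n + 1 - j) * β ^ (j + 1)) := by gcongr
    _ = _ := by ring

theorem par_e_lt (n : ℕ) : (((n : ℝ) + 3) / ((n : ℝ) + 2)) ^ (n + 2) ≤ 3 := by
  have hn : (0 : ℝ) < (n : ℝ) + 2 := by positivity
  have h1 : ((n : ℝ) + 3) / ((n : ℝ) + 2) ≤ Real.exp (1 / ((n : ℝ) + 2)) := by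
    refine le_trans (le_of_eq ?_) (Real.add_one_le_exp _)
    field_simp; ring
  have h2 := pow_le_pow_left₀ (by positivity) h1 (n + 2)
  rw [← Real.exp_nat_mul] at h2
  have h3 : ((n + 2 : ℕ) : ℝ) * (1 / ((n : ℝ) + 2)) = 1 := by push_cast; field_simp
  rw [h3] at h2
  have := Real.exp_one_lt_d9
  linarith

theorem par_exists_N (s lam : ℝ) (hs0 : 0 < s) (hsl : s < lam) :
    ∃ N : ℕ, 192 * ((N : ℝ) + 3) * s ^ (N + 3) < lam ^ N := by
  have hlam0 : 0 < lam := by linarith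
  have hr : |s / lam| < 1 := by
    rw [abs_of_pos (by positivity), div_lt_one hlam0]; exact hsl
  have t1 := tendsto_self_mul_const_pow_of_abs_lt_one hr
  have t2 := tendsto_pow_atTop_nhds_zero_of_abs_lt_one hr
  have t3 := (t1.add (t2.const_mul 3)).const_mul (192 * s ^ 3)
  simp only [mul_zero, add_zero] at t3
  obtain ⟨N, hN⟩ := (t3.eventually (gt_mem_nhds zero_lt_one)).exists
  refine ⟨N, ?_⟩
  have hl : 0 < lam ^ N := by positivity
  have e : 192 * s ^ 3 * ((N : ℝ) * (s / lam) ^ N + 3 * (s / lam) ^ N) =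
      192 * ((N : ℝ) + 3) * s ^ (N + 3) / lam ^ N := by
    rw [div_pow]; field_simp; ring
  rw [e, div_lt_one hl] at hN
  exact hN

theorem par_lam_le (d k y ε : ℝ) (hdp : 0 < d) (hkp : 0 < k) (hy0 : 0 < y)
    (hk : (1 / 4 + ε) * d ≤ k) :
    min 2 (1 + 4 * ε) ≤ 1 / y + k / max (d - k * y) (k / 2) := by
  have hp0 : 0 < 1 / y := by positivity
  rcases le_total (d - k * y) (k / 2) with h | h
  · have hq2 : k / (k / 2) = 2 := by field_simp
    rw [max_eq_right h, hq2]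
    have : min 2 (1 + 4 * ε) ≤ 2 := min_le_left _ _
    linarith
  · rw [max_eq_left h]
    refine (min_le_right _ _).trans ?_
    have hμp : 0 < d - k * y := by linarith
    have h1 : 1 / y + k / (d - k * y) = d / (y * (d - k * y)) := by
      rw [div_add_div _ _ hy0.ne' hμp.ne']; congr 1; ring
    have h2 : 4 * k * (y * (d - k * y)) ≤ d * d := by
      nlinarith [sq_nonneg (d - 2 * (k * y))]
    have h5 : 0 < y * (d - k * y) := by positivity
    rw [h1, le_div_iff₀ h5]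
    have h4 : (1 + 4 * ε) * d ≤ 4 * k := by linarith
    have h6 : (1 + 4 * ε) * (y * (d - k * y)) * d ≤ d * d := by
      have := mul_le_mul_of_nonneg_right h4 h5.le
      nlinarith
    exact le_of_mul_le_mul_right h6 hdp

theorem par_quarter_core (N d k : ℕ) (y s lam μ0 : ℝ) (hs0 : 0 < s) (hlam0 : 0 < lam)
    (hN : 192 * ((N : ℝ) + 3) * s ^ (N + 3) < lam ^ N) (hdp : (0 : ℝ) < d)
    (hk4 : (d : ℝ) / 4 ≤ k) (hy0 : 0 < y) (hy4 : y ≤ 4) (hμ0 : 0 ≤ (d : ℝ) - k * y)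
    (hμμ : (d : ℝ) - k * y ≤ μ0) (hμ0p : 0 < μ0) (hμ0d : μ0 ≤ d) (hLam : lam ≤ 1 / y + k / μ0) :
    ((((N + 2 : ℕ) : ℝ) + 3) / (((N + 2 : ℕ) : ℝ) + 2)) ^ (N + 2 + 2) *
        (((1 / y) ^ 2 * y + k / μ0 ^ 2 * (d - k * y)) / d) ^ (N + 2 + 2) <
      (1 / (s * d)) ^ (N + 2 + 1) * Qp (N + 2) k ((1 / y) ^ 2) (k / μ0 ^ 2) := by
  have hkp : (0 : ℝ) < k := by linarith
  have hβ : 0 < (k : ℝ) / μ0 ^ 2 := by positivity
  have e1 : (1 / y) ^ 2 * y = 1 / y := by field_simp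
  have e2 : (k : ℝ) / μ0 ^ 2 * μ0 = k / μ0 := by field_simp
  have h1 : 1 / 4 ≤ 1 / y := by gcongr
  have hQ := par_Qp_lower (N + 2) k (1 / y) (k / μ0) (k / μ0 ^ 2) hβ.le (by field_simp)
  generalize 1 / y = p at *
  generalize (d : ℝ) - k * y = μ at *
  have hp0 : 0 < p := by linarith
  have he := par_e_lt (N + 2)
  have hσ : p ^ 2 * y + k / μ0 ^ 2 * μ ≤ p + k / μ0 := by
    have := mul_le_mul_of_nonneg_left hμμ hβ.le
    linarith
  have hσ0 : 0 ≤ p ^ 2 * y + k / μ0 ^ 2 * μ := by positivity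
  have hL0 : 0 < p + k / μ0 := by positivity
  generalize p + k / μ0 = L at *
  have hLN : lam ^ N ≤ L ^ N := pow_le_pow_left₀ hlam0.le hLam N
  have hpb : 1 / (64 * d) ≤ p ^ 2 * (k / μ0 ^ 2) := by
    have h2 : (d / 4) / (d : ℝ) ^ 2 ≤ k / μ0 ^ 2 := by gcongr
    calc 1 / (64 * (d : ℝ)) = (1 / 4) ^ 2 * ((d / 4) / (d : ℝ) ^ 2) := by field_simp; norm_num
      _ ≤ _ := by gcongr
  have hN3 : (0 : ℝ) < ((N + 2 : ℕ) : ℝ) + 1 := by positivity
  refine lt_of_mul_lt_mul_left ?_ hN3.le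
  calc (((N + 2 : ℕ) : ℝ) + 1) *
          (((((N + 2 : ℕ) : ℝ) + 3) / (((N + 2 : ℕ) : ℝ) + 2)) ^ (N + 2 + 2) *
          ((p ^ 2 * y + k / μ0 ^ 2 * μ) / d) ^ (N + 2 + 2))
      ≤ (((N + 2 : ℕ) : ℝ) + 1) * (3 * (L / d) ^ (N + 2 + 2)) := by gcongr
    _ = (1 / (s * d)) ^ (N + 2 + 1) * (1 / (64 * d) *
          (L ^ (N + 4) * (192 * ((N : ℝ) + 3) * s ^ (N + 3)))) := by
        push_cast
        rw [div_pow, div_pow, mul_pow]; field_simp; ring
    _ < (1 / (s * d)) ^ (N + 2 + 1) * (1 / (64 * d) * (L ^ (N + 4) * L ^ N)) := by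
        gcongr; exact lt_of_lt_of_le hN hLN
    _ ≤ (1 / (s * d)) ^ (N + 2 + 1) * (p ^ 2 * (k / μ0 ^ 2) * L ^ (2 * (N + 2))) := by
        have : L ^ (N + 4) * L ^ N = L ^ (2 * (N + 2)) := by ring
        rw [this]; gcongr
    _ ≤ (1 / (s * d)) ^ (N + 2 + 1) *
          ((((N + 2 : ℕ) : ℝ) + 1) * Qp (N + 2) k (p ^ 2) (k / μ0 ^ 2)) := by gcongr
    _ = _ := by ring

theorem good_quarter (ε : ℝ) (hε : 0 < ε) : ∃ d0 : ℕ, ∀ d k : ℕ, d0 ≤ d →
    (1 / 4 + ε) * d ≤ (k : ℝ) → ∀ y : ℝ, 1 ≤ y → (k : ℝ) * y ≤ d → Good d k y := by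
  obtain ⟨lam, hlam⟩ : ∃ lam : ℝ, lam = min 2 (1 + 4 * ε) := ⟨_, rfl⟩
  have hlam1 : 1 < lam := hlam ▸ lt_min (by norm_num) (by linarith)
  obtain ⟨s, hs1, hsl⟩ := exists_between hlam1
  have hs0 : 0 < s := by linarith
  have hlam0 : 0 < lam := by linarith
  obtain ⟨N, hN⟩ := par_exists_N s lam hs0 hsl
  have hs' : 0 < 1 - 1 / s := by rw [sub_pos, div_lt_one hs0]; exact hs1
  obtain ⟨d0, hd0⟩ := exists_nat_gt (4 * ((N : ℝ) + 4) / (1 - 1 / s))
  refine ⟨d0 + 1, fun d k hd hk y hy hyk => ?_⟩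
  have hd1 : (d0 : ℝ) + 1 ≤ d := by exact_mod_cast hd
  have hd00 : (0 : ℝ) ≤ d0 := Nat.cast_nonneg _
  have hdp : (0 : ℝ) < d := by linarith
  have hN0 : (0 : ℝ) ≤ N := Nat.cast_nonneg _
  have hεd : 0 < ε * d := by positivity
  have hk4 : (d : ℝ) / 4 ≤ k := by linarith
  have hkp : (0 : ℝ) < k := by linarith
  have hy0 : 0 < y := by linarith
  have hy4 : y ≤ 4 := le_of_mul_le_mul_left (by linarith) hkp
  have hky : (k : ℝ) ≤ k * y := le_mul_of_one_le_right hkp.le hy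
  have hbig : 4 * ((N : ℝ) + 4) / d < 1 - 1 / s := by
    rw [div_lt_iff₀ hs'] at hd0
    rw [div_lt_iff₀ hdp]
    have := mul_le_mul_of_nonneg_left (show (d0 : ℝ) ≤ d by linarith) hs'.le
    linarith
  have hkμ : (k : ℝ) / 2 ≤ max (d - k * y : ℝ) (k / 2) := le_max_right _ _
  have hcore := par_quarter_core N d k y s lam (max (d - k * y) (k / 2)) hs0 hlam0 hN hdp hk4 hy0
    hy4 (by linarith) (le_max_left _ _) (by linarith) (max_le (by linarith) (by linarith))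
    (hlam ▸ par_lam_le d k y ε hdp hkp hy0 hk)
  have hμp : 0 < max (d - k * y : ℝ) (k / 2) := by linarith
  have hzs : 0 < 1 / (s * d) := by positivity
  have hdz : (d : ℝ) * (1 / (s * d)) = 1 / s := by field_simp
  refine ⟨N + 2, 1 / (s * d), _, _, hzs, by positivity, by positivity, ?_, ?_, hcore⟩
  · have : y / d ≤ 4 * ((N : ℝ) + 4) / d := by gcongr; linarith
    rw [sub_mul, hdz]
    linarith
  · push_cast
    have h1 : ((N : ℝ) + 2 + 2) * y / d ≤ 4 * ((N : ℝ) + 4) / d := by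
      have := mul_le_mul_of_nonneg_left hy4 (show (0 : ℝ) ≤ N + 2 + 2 by positivity)
      exact div_le_div_of_nonneg_right (by linarith) hdp.le
    have h2 := mul_pos (show (0 : ℝ) < N + 2 + 2 by positivity) hzs
    rw [sub_mul, hdz]
    linarith

end Vale.Agent.P018
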