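import Vale.Agent.P018.Basic

namespace Vale.Agent.P018

open NumberField Finset

/-- pigeonhole: a short polynomial vanishing at `N` mod `p` -/
theorem pigeon (e : ℕ) (p : ℕ) (hp : 1 ≤ p) (N : ℤ) :
    ∃ a : Fin (e + 1) → ℤ, a ≠ 0 ∧
      (∀ l, |(a l : ℝ)| ≤ (p : ℝ) ^ (1 / ((e : ℝ) + 1))) ∧ (p : ℤ) ∣ ∑ l, a l * N ^ (l : ℕ) := by
  classical
  set H : ℕ := ⌊(p : ℝ) ^ (1 / ((e : ℝ) + 1))⌋₊ with hH
  have hpos : (0 : ℝ) < (e : ℝ) + 1 := by positivity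
  have hp0 : (0 : ℝ) < p := by exact_mod_cast hp
  have hHle : (H : ℝ) ≤ (p : ℝ) ^ (1 / ((e : ℝ) + 1)) := Nat.floor_le (by positivity)
  have hlt : p < (H + 1) ^ (e + 1) := by
    have h1 : (p : ℝ) ^ (1 / ((e : ℝ) + 1)) < (H : ℝ) + 1 := Nat.lt_floor_add_one _
    have h2 : ((p : ℝ) ^ (1 / ((e : ℝ) + 1))) ^ (e + 1) < ((H : ℝ) + 1) ^ (e + 1) :=
      pow_lt_pow_left₀ h1 (by positivity) (by omega)
    have h3 : ((p : ℝ) ^ (1 / ((e : ℝ) + 1))) ^ (e + 1) = p := by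
      rw [← Real.rpow_natCast, ← Real.rpow_mul hp0.le]
      push_cast
      rw [one_div_mul_cancel hpos.ne', Real.rpow_one]
    rw [h3] at h2
    exact_mod_cast h2
  haveI : NeZero p := ⟨by omega⟩
  have hcard : Fintype.card (ZMod p) < Fintype.card (Fin (e + 1) → Fin (H + 1)) := by
    simp [ZMod.card, hlt]
  obtain ⟨x, y, hxy, hf⟩ := Fintype.exists_ne_map_eq_of_card_lt
    (fun x : Fin (e + 1) → Fin (H + 1) =>
      ((∑ l, ((x l : ℕ) : ℤ) * N ^ (l : ℕ) : ℤ) : ZMod p)) hcard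
  refine ⟨fun l => ((x l : ℕ) : ℤ) - ((y l : ℕ) : ℤ), ?_, ?_, ?_⟩
  · intro h
    apply hxy
    funext l
    have := congrFun h l
    simp only [Pi.zero_apply, sub_eq_zero, Nat.cast_inj] at this
    exact Fin.ext this
  · intro l
    refine le_trans ?_ hHle
    have hx : ((x l : ℕ) : ℝ) ≤ H := by exact_mod_cast Nat.lt_succ_iff.mp (x l).2
    have hy : ((y l : ℕ) : ℝ) ≤ H := by exact_mod_cast Nat.lt_succ_iff.mp (y l).2
    have hx0 : (0 : ℝ) ≤ ((x l : ℕ) : ℝ) := by positivity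
    have hy0 : (0 : ℝ) ≤ ((y l : ℕ) : ℝ) := by positivity
    push_cast
    rw [abs_le]
    constructor <;> linarith
  · rw [← ZMod.intCast_zmod_eq_zero_iff_dvd]
    have : (∑ l : Fin (e + 1), (((x l : ℕ) : ℤ) - ((y l : ℕ) : ℤ)) * N ^ (l : ℕ)) =
        (∑ l, ((x l : ℕ) : ℤ) * N ^ (l : ℕ)) - ∑ l, ((y l : ℕ) : ℤ) * N ^ (l : ℕ) := by
      rw [← Finset.sum_sub_distrib]
      refine Finset.sum_congr rfl fun l _ => by ring
    rw [this, Int.cast_sub, hf, sub_self]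

/-- the value of the polynomial with coefficient vector `a` at `t` -/
def pv {R : Type*} [CommRing R] {e : ℕ} (a : Fin (e + 1) → ℤ) (t : R) : R :=
  ∑ l, (a l : R) * t ^ (l : ℕ)

theorem map_pv {R S : Type*} [CommRing R] [CommRing S] (φ : R →+* S) {e : ℕ}
    (a : Fin (e + 1) → ℤ) (t : R) : φ (pv a t) = pv a (φ t) := by
  simp [pv, map_sum]

theorem exists_m_beta {R : Type*} [CommRing R] [IsDomain R] {e : ℕ} (ϑ : Fin (e + 1) → R)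
    (k : ℕ) (hk : 1 ≤ k) (p : ℕ) (hp : (p : R) ≠ 0) (N : ℤ) (a : Fin (e + 1) → ℤ)
    (ha : (p : ℤ) ∣ ∑ l, a l * N ^ (l : ℕ)) (hN : (p : R) ^ k ∣ ∏ i, ((N : R) - ϑ i)) :
    ∃ (m : R) (β : Fin (e + 1) → R), ∏ i, pv a (ϑ i) = p * m ∧
      ∀ i, pv a (ϑ i) ^ k * β i = m ^ k * ((N : R) - ϑ i) := by
  classical
  obtain ⟨h, hh⟩ := ha
  have hα : ∀ i, ∃ γ : R, pv a (ϑ i) = p * (h : R) + ((N : R) - ϑ i) * γ := by
    intro i
    have h1 : ((N : R) - ϑ i) ∣ pv a (ϑ i) - pv a (N : R) := by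
      unfold pv
      rw [← Finset.sum_sub_distrib]
      refine Finset.dvd_sum fun l _ => ?_
      rw [← mul_sub]
      refine Dvd.dvd.mul_left ?_ _
      rw [← neg_sub ((N : R) ^ (l : ℕ)), dvd_neg]
      exact sub_dvd_pow_sub_pow _ _ _
    obtain ⟨γ, hγ⟩ := h1
    refine ⟨γ, ?_⟩
    have h2 : pv a (N : R) = p * (h : R) := by
      have := congrArg (fun t : ℤ => (t : R)) hh
      simpa [pv] using this
    rw [← h2, ← hγ]; ring
  choose γ hγ using hα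
  have hcong : ∀ s : Finset (Fin (e + 1)),
      (p : R) ∣ ∏ l ∈ s, pv a (ϑ l) - ∏ l ∈ s, (((N : R) - ϑ l) * γ l) := by
    intro s
    induction s using Finset.induction_on with
    | empty => simp
    | insert i s hi ih =>
      rw [Finset.prod_insert hi, Finset.prod_insert hi]
      obtain ⟨c, hc⟩ := ih
      refine ⟨(h : R) * ∏ l ∈ s, pv a (ϑ l) + (((N : R) - ϑ i) * γ i) * c, ?_⟩
      have hc' : ∏ l ∈ s, (((N : R) - ϑ l) * γ l) = ∏ l ∈ s, pv a (ϑ l) - p * c := by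
        rw [← hc]; ring
      rw [hc', hγ i]; ring
  have hp1 : (p : R) ∣ ∏ i, ((N : R) - ϑ i) := (dvd_pow_self _ (by omega)).trans hN
  have hm : (p : R) ∣ ∏ i, pv a (ϑ i) := by
    have h1 := hcong Finset.univ
    have h2 : (p : R) ∣ ∏ l, (((N : R) - ϑ l) * γ l) := by
      rw [Finset.prod_mul_distrib]; exact hp1.mul_right _
    simpa using dvd_add h1 h2
  obtain ⟨m, hm⟩ := hm
  have hβ : ∀ i, ∃ β : R, pv a (ϑ i) ^ k * β = m ^ k * ((N : R) - ϑ i) := by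
    intro i
    obtain ⟨δ, hδ⟩ := hcong (Finset.univ.erase i)
    set αs := ∏ l ∈ Finset.univ.erase i, pv a (ϑ l) with hαs
    set η := ∏ l ∈ Finset.univ.erase i, (((N : R) - ϑ l) * γ l) with hη
    have h1 : η ∣ αs ^ k - (p * δ) ^ k := by
      have : η = αs - p * δ := by rw [← hδ]; ring
      rw [this]; exact sub_dvd_pow_sub_pow _ _ _
    obtain ⟨w, hw⟩ := h1
    have h2 : (p : R) ^ k ∣ η * ((N : R) - ϑ i) := by
      refine hN.trans ?_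
      rw [hη, Finset.prod_mul_distrib, ← Finset.mul_prod_erase _ _ (Finset.mem_univ i)]
      exact ⟨∏ l ∈ Finset.univ.erase i, γ l, by ring⟩
    have h3 : (p : R) ^ k ∣ αs ^ k * ((N : R) - ϑ i) := by
      have : αs ^ k * ((N : R) - ϑ i) =
          (p : R) ^ k * (δ ^ k * ((N : R) - ϑ i)) + (η * ((N : R) - ϑ i)) * w := by
        have : αs ^ k = (p * δ) ^ k + η * w := by rw [← hw]; ring
        rw [this]; ring
      rw [this]
      exact dvd_add (dvd_mul_right _ _) (h2.mul_right _)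
    obtain ⟨β, hβ⟩ := h3
    refine ⟨β, ?_⟩
    have h4 : pv a (ϑ i) * αs = p * m := by
      rw [← hm, hαs, Finset.mul_prod_erase _ (fun l => pv a (ϑ l)) (Finset.mem_univ i)]
    apply mul_left_cancel₀ (pow_ne_zero k hp)
    calc (p : R) ^ k * (pv a (ϑ i) ^ k * β) = pv a (ϑ i) ^ k * ((p : R) ^ k * β) := by ring
      _ = pv a (ϑ i) ^ k * (αs ^ k * ((N : R) - ϑ i)) := by rw [hβ]
      _ = (pv a (ϑ i) * αs) ^ k * ((N : R) - ϑ i) := by ring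
      _ = (p : R) ^ k * (m ^ k * ((N : R) - ϑ i)) := by rw [h4]; ring
  choose β hβ using hβ
  exact ⟨m, β, hm, hβ⟩

variable {F : Type} [Field F] [NumberField F]

/-- an embedding restricted to the ring of integers -/
noncomputable def emb (φ : F →+* ℂ) : 𝓞 F →+* ℂ := φ.comp (algebraMap (𝓞 F) F)

theorem emb_apply (φ : F →+* ℂ) (x : 𝓞 F) : emb φ x = φ (x : F) := rfl

theorem eq_zero_of_emb_lt_one (x : 𝓞 F) (h : ∀ φ : F →+* ℂ, ‖emb φ x‖ < 1) : x = 0 := by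
  by_contra hx
  obtain ⟨σ, hσ⟩ := exists_conjugate_one_le_norm (K := F) hx
  exact absurd (h σ) (not_lt.mpr hσ)

theorem emb_lower (x : 𝓞 F) (hx : x ≠ 0) (B : ℝ) (hB : ∀ φ : F →+* ℂ, ‖emb φ x‖ ≤ B)
    (φ : F →+* ℂ) : 1 ≤ ‖emb φ x‖ * B ^ (Module.finrank ℚ F - 1) := by
  have h1 := norm_norm_le_norm_mul_house_pow (x : F) φ
  have h2 : house (x : F) ≤ B := by
    rw [house_eq_sup']
    obtain ⟨ψ, -, hψ⟩ := Finset.exists_mem_eq_sup' (Finset.univ_nonempty (α := F →+* ℂ))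
      (fun φ : F →+* ℂ ↦ ‖φ (x : F)‖₊)
    rw [hψ]
    exact hB ψ
  have h3 : (1 : ℝ) ≤ ‖Algebra.norm ℚ (x : F)‖ := by
    rw [← Algebra.coe_norm_int]
    have : Algebra.norm ℤ x ≠ 0 := Algebra.norm_ne_zero_iff.mpr hx
    rw [← Rat.norm_cast_real, Real.norm_eq_abs]
    have h4 : (1 : ℤ) ≤ |Algebra.norm ℤ x| := Int.one_le_abs this
    have h5 : (1 : ℝ) ≤ |((Algebra.norm ℤ x : ℤ) : ℝ)| := by exact_mod_cast h4
    simpa using h5
  calc (1 : ℝ) ≤ ‖φ (x : F)‖ * house (x : F) ^ (Module.finrank ℚ F - 1) := h3.trans h1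
    _ ≤ ‖emb φ x‖ * B ^ (Module.finrank ℚ F - 1) := by
      rw [emb_apply]
      gcongr
      exact house_nonneg _

theorem norm_pv_le {e : ℕ} (a : Fin (e + 1) → ℤ) (P : ℝ) (ha : ∀ l, |(a l : ℝ)| ≤ P) (t : ℂ)
    (Θ : ℝ) (hΘ : 1 ≤ Θ) (ht : ‖t‖ ≤ Θ) : ‖pv a t‖ ≤ (e + 1) * Θ ^ e * P := by
  have hP : 0 ≤ P := (abs_nonneg _).trans (ha 0)
  unfold pv
  calc ‖∑ l, (a l : ℂ) * t ^ (l : ℕ)‖ ≤ ∑ l : Fin (e + 1), ‖(a l : ℂ) * t ^ (l : ℕ)‖ :=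
        norm_sum_le _ _
    _ ≤ ∑ _l : Fin (e + 1), Θ ^ e * P := by
        refine Finset.sum_le_sum fun l _ => ?_
        rw [norm_mul, norm_pow, mul_comm]
        have h1 : ‖t‖ ^ (l : ℕ) ≤ Θ ^ e :=
          (pow_le_pow_left₀ (norm_nonneg _) ht _).trans
            (pow_le_pow_right₀ hΘ (Nat.lt_succ_iff.mp l.2))
        have h2 : ‖(a l : ℂ)‖ ≤ P := by
          rw [Complex.norm_intCast]; exact ha l
        gcongr
    _ = (e + 1) * Θ ^ e * P := by simp; ring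

theorem exists_theta {e : ℕ} (ϑ : Fin (e + 1) → 𝓞 F) :
    ∃ Θ : ℝ, 1 ≤ Θ ∧ ∀ (φ : F →+* ℂ) i, ‖emb φ (ϑ i)‖ ≤ Θ := by
  refine ⟨1 + ∑ i, house (ϑ i : F), ?_, fun φ i => ?_⟩
  · have : 0 ≤ ∑ i, house (ϑ i : F) := Finset.sum_nonneg fun i _ => house_nonneg _
    linarith
  · have h1 := norm_embedding_le_house (ϑ i : F) φ
    have h2 : house (ϑ i : F) ≤ ∑ i, house (ϑ i : F) :=
      Finset.single_le_sum (f := fun i => house (ϑ i : F)) (fun i _ => house_nonneg _)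
        (Finset.mem_univ i)
    rw [emb_apply]; linarith

/-- size bounds for `α` and `m` -/
theorem size_bounds {e : ℕ} (ϑ : Fin (e + 1) → 𝓞 F)
    (hind : ∀ i (a : Fin (e + 1) → ℤ), a ≠ 0 → pv a (ϑ i) ≠ 0) :
    ∃ C : ℝ, 1 ≤ C ∧ (∀ (φ : F →+* ℂ) i, ‖emb φ (ϑ i)‖ ≤ C) ∧
      (∀ (φ : F →+* ℂ) i (a : Fin (e + 1) → ℤ) (P : ℝ), (∀ l, |(a l : ℝ)| ≤ P) →
        ‖pv a (emb φ (ϑ i))‖ ≤ C * P) ∧
      ∀ (p : ℕ) (a : Fin (e + 1) → ℤ) (m : 𝓞 F), 1 ≤ p → a ≠ 0 →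
      (∀ l, |(a l : ℝ)| ≤ (p : ℝ) ^ (1 / ((e : ℝ) + 1))) → ∏ i, pv a (ϑ i) = p * m →
      m ≠ 0 ∧ ∀ φ : F →+* ℂ, ‖emb φ m‖ ≤ C ∧
        ∀ i, (p : ℝ) ^ (1 / ((e : ℝ) + 1)) ≤ C * ‖pv a (emb φ (ϑ i))‖ := by
  obtain ⟨Θ, hΘ, hϑ⟩ := exists_theta ϑ
  set C1 : ℝ := (e + 1) * Θ ^ e with hC1
  have hC1' : 1 ≤ C1 := by
    have : (1 : ℝ) ≤ Θ ^ e := one_le_pow₀ hΘ
    have h2 : (1 : ℝ) ≤ (e : ℝ) + 1 := by linarith [Nat.cast_nonneg (α := ℝ) e]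
    nlinarith
  set n := Module.finrank ℚ F - 1
  set C2 : ℝ := (C1 ^ (e + 1)) ^ n * C1 ^ e with hC2
  have hC2' : 1 ≤ C2 := one_le_mul_of_one_le_of_one_le (one_le_pow₀ (one_le_pow₀ hC1'))
    (one_le_pow₀ hC1')
  have hC3 : 1 ≤ C1 ^ (e + 1) := one_le_pow₀ hC1'
  refine ⟨Θ + C1 + C1 ^ (e + 1) + C2, by linarith, fun φ i => by linarith [hϑ φ i], ?_, ?_⟩
  · intro φ i a P ha
    have hP : 0 ≤ P := (abs_nonneg _).trans (ha 0)
    refine (norm_pv_le a P ha _ Θ hΘ (hϑ φ i)).trans ?_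
    gcongr
    linarith
  intro p a m hp ha0 ha hm
  set P : ℝ := (p : ℝ) ^ (1 / ((e : ℝ) + 1)) with hP
  have hp0 : (0 : ℝ) < p := by exact_mod_cast hp
  have hP0 : 0 < P := by positivity
  have hPe : P ^ (e + 1) = p := by
    rw [hP, ← Real.rpow_natCast, ← Real.rpow_mul hp0.le]
    push_cast
    rw [one_div_mul_cancel (by positivity), Real.rpow_one]
  have hm0 : m ≠ 0 := by
    rintro rfl
    rw [mul_zero, Finset.prod_eq_zero_iff] at hm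
    obtain ⟨i, -, hi⟩ := hm
    exact hind i a ha0 hi
  have hup : ∀ (φ : F →+* ℂ) i, ‖pv a (emb φ (ϑ i))‖ ≤ C1 * P :=
    fun φ i => norm_pv_le a P ha _ Θ hΘ (hϑ φ i)
  have hprod : ∀ φ : F →+* ℂ, ∏ i, ‖pv a (emb φ (ϑ i))‖ = p * ‖emb φ m‖ := by
    intro φ
    have := congrArg (fun t => ‖emb φ t‖) hm
    simpa [map_prod, map_pv, norm_prod] using this
  have hmle : ∀ φ : F →+* ℂ, ‖emb φ m‖ ≤ C1 ^ (e + 1) := by
    intro φ
    have h1 : ∏ i, ‖pv a (emb φ (ϑ i))‖ ≤ ∏ _i : Fin (e + 1), C1 * P :=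
      Finset.prod_le_prod (fun i _ => norm_nonneg _) fun i _ => hup φ i
    rw [hprod, Finset.prod_const, Finset.card_univ, Fintype.card_fin, mul_pow, hPe] at h1
    nlinarith
  refine ⟨hm0, fun φ => ⟨by linarith [hmle φ], fun i => ?_⟩⟩
  have h1 := emb_lower m hm0 _ hmle φ
  have h2 : ∏ l ∈ Finset.univ.erase i, ‖pv a (emb φ (ϑ l))‖ ≤ (C1 * P) ^ e := by
    calc _ ≤ ∏ _l ∈ Finset.univ.erase i, C1 * P :=
          Finset.prod_le_prod (fun i _ => norm_nonneg _) fun i _ => hup φ i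
      _ = (C1 * P) ^ e := by simp [Finset.card_erase_of_mem]
  have h3 := hprod φ
  rw [← Finset.mul_prod_erase _ (fun l => ‖pv a (emb φ (ϑ l))‖) (Finset.mem_univ i)] at h3
  have h4 : p * ‖emb φ m‖ ≤ ‖pv a (emb φ (ϑ i))‖ * (C1 * P) ^ e := by
    rw [← h3]; gcongr
  have h5 : P * P ^ e ≤ (C2 * ‖pv a (emb φ (ϑ i))‖) * P ^ e := by
    calc P * P ^ e = p * 1 := by rw [← hPe]; ring
      _ ≤ p * (‖emb φ m‖ * (C1 ^ (e + 1)) ^ n) := by gcongr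
      _ = (p * ‖emb φ m‖) * (C1 ^ (e + 1)) ^ n := by ring
      _ ≤ (‖pv a (emb φ (ϑ i))‖ * (C1 * P) ^ e) * (C1 ^ (e + 1)) ^ n := by gcongr
      _ = (C2 * ‖pv a (emb φ (ϑ i))‖) * P ^ e := by rw [hC2]; ring
  have h6 : P ≤ C2 * ‖pv a (emb φ (ϑ i))‖ := le_of_mul_le_mul_right h5 (by positivity)
  refine h6.trans ?_
  gcongr
  linarith

end Vale.Agent.P018
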