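import Vale.Agent.P018.BoxRel
import Vale.Agent.P018.Count
import Vale.Agent.P018.Family
import Vale.Agent.P018.Params

namespace Vale.Agent.P018

open NumberField Finset Filter Topology

theorem card_le_of_close (s : Finset ℤ) (L : ℝ) (h : ∀ v ∈ s, ∀ w ∈ s, (v : ℝ) - w ≤ L) :
    s.card ≤ ⌊L⌋₊ + 1 := by
  rcases s.eq_empty_or_nonempty with rfl | hs
  · simp
  have hsub : s ⊆ Finset.Icc (s.min' hs) (s.min' hs + ⌊L⌋₊) := by
    intro v hv
    rw [Finset.mem_Icc]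
    refine ⟨s.min'_le v hv, ?_⟩
    have h1 := h v hv _ (s.min'_mem hs)
    have h0 : s.min' hs ≤ v := s.min'_le v hv
    obtain ⟨t, ht⟩ := Int.le.dest h0
    have h2 : (t : ℝ) ≤ L := by
      have : (v : ℝ) = (s.min' hs : ℝ) + t := by exact_mod_cast ht.symm
      linarith
    have h3 : t ≤ ⌊L⌋₊ := Nat.le_floor h2
    omega
  refine (Finset.card_le_card hsub).trans ?_
  rw [Int.card_Icc]
  omega

open Classical in
theorem card_roots_range (e p A : ℕ) (hp : p.Prime) (a : Fin (e + 1) → ℤ) (ha0 : a ≠ 0)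
    (ha : ∀ l, |a l| < p) (s : Finset ℤ)
    (hs : ∀ N ∈ s, |N| ≤ A * p ∧ (p : ℤ) ∣ ∑ l, a l * N ^ (l : ℕ)) :
    s.card ≤ e * (2 * A + 1) := by
  have : Fact p.Prime := ⟨hp⟩
  have hp0 : (0 : ℤ) < p := by exact_mod_cast hp.pos
  let P : Polynomial (ZMod p) := ∑ l : Fin (e + 1), Polynomial.monomial (l : ℕ) ((a l : ℤ) : ZMod p)
  have hPc : ∀ l : Fin (e + 1), P.coeff l = ((a l : ℤ) : ZMod p) := by
    intro l
    simp only [P, Polynomial.finset_sum_coeff, Polynomial.coeff_monomial]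
    rw [Finset.sum_eq_single l]
    · simp
    · intro j _ hj
      rw [if_neg]; exact fun h => hj (Fin.ext h)
    · simp
  have hP0 : P ≠ 0 := by
    intro h
    apply ha0
    funext l
    have h1 := hPc l
    rw [h, Polynomial.coeff_zero, eq_comm, ZMod.intCast_zmod_eq_zero_iff_dvd] at h1
    exact Int.eq_zero_of_abs_lt_dvd h1 (ha l)
  have hPd : P.natDegree ≤ e := by
    refine Polynomial.natDegree_sum_le_of_forall_le _ _ fun l _ => ?_
    exact (Polynomial.natDegree_monomial_le _).trans (Nat.lt_succ_iff.mp l.2)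
  have hmap : ∀ N ∈ s, (((N : ZMod p), N / p) : ZMod p × ℤ) ∈
      P.roots.toFinset ×ˢ Finset.Icc (-(A : ℤ)) A := by
    intro N hN
    obtain ⟨h1, h2⟩ := hs N hN
    rw [Finset.mem_product, Multiset.mem_toFinset, Polynomial.mem_roots hP0, Finset.mem_Icc]
    refine ⟨?_, ?_, ?_⟩
    · rw [← ZMod.intCast_zmod_eq_zero_iff_dvd] at h2
      simp only [Polynomial.IsRoot.def, P, Polynomial.eval_finsetSum, Polynomial.eval_monomial]
      push_cast at h2
      exact h2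
    · rw [abs_le] at h1
      exact Int.le_ediv_of_mul_le hp0 (by linarith)
    · rw [abs_le] at h1
      exact Int.ediv_le_of_le_mul hp0 h1.2
  have hinj : Set.InjOn (fun N : ℤ => (((N : ZMod p), N / p) : ZMod p × ℤ)) s := by
    intro N _ N' _ h
    simp only [Prod.mk.injEq] at h
    have h1 : N % p = N' % p := (ZMod.intCast_eq_intCast_iff' N N' p).mp h.1
    rw [← Int.mul_ediv_add_emod N p, ← Int.mul_ediv_add_emod N' p, h1, h.2]
  refine (Finset.card_le_card_of_injOn _ hmap hinj).trans ?_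
  rw [Finset.card_product, Int.card_Icc]
  refine Nat.mul_le_mul ((Multiset.toFinset_card_le _).trans ((Polynomial.card_roots' P).trans hPd))
    (by omega)

theorem exists_linear_forms {F : Type} [Field F] {e : ℕ} (θ : Fin (e + 1) → F)
    (hθ : Function.Injective θ) :
    ∃ g : Fin (e + 1) → MvPolynomial (Fin e) F, (∀ l, (g l).totalDegree ≤ 1) ∧
      ∀ a : Fin (e + 1) → ℤ, pv a (θ 0) ≠ 0 → ∀ l, ((a l : ℤ) : F) =
        pv a (θ 0) * MvPolynomial.eval (fun i => pv a (θ i.succ) / pv a (θ 0)) (g l) := by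
  classical
  have hdet : IsUnit (Matrix.vandermonde θ).det :=
    isUnit_iff_ne_zero.mpr (Matrix.det_vandermonde_ne_zero_iff.mpr hθ)
  set M := (Matrix.vandermonde θ)⁻¹ with hM
  refine ⟨fun l => MvPolynomial.C (M l 0) + ∑ i : Fin e, MvPolynomial.C (M l i.succ) *
    MvPolynomial.X i, fun l => ?_, fun a ha l => ?_⟩
  · refine (MvPolynomial.totalDegree_add _ _).trans (max_le (by simp) ?_)
    refine MvPolynomial.totalDegree_finsetSum_le fun i _ => ?_
    refine (MvPolynomial.totalDegree_mul _ _).trans ?_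
    simp
  · have h1 : (Matrix.vandermonde θ).mulVec (fun l => ((a l : ℤ) : F)) = fun i => pv a (θ i) := by
      funext i
      simp [Matrix.mulVec, dotProduct, pv, Matrix.vandermonde_apply, mul_comm]
    have h2 : M.mulVec (fun i => pv a (θ i)) = fun l => ((a l : ℤ) : F) := by
      rw [← h1, Matrix.mulVec_mulVec, hM, Matrix.nonsing_inv_mul _ hdet, Matrix.one_mulVec]
    have h3 := congrFun h2 l
    simp only [Matrix.mulVec, dotProduct, Fin.sum_univ_succ] at h3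
    rw [← h3]
    simp only [map_add, map_sum, map_mul, MvPolynomial.eval_C, MvPolynomial.eval_X, mul_add,
      Finset.mul_sum]
    congr 1
    · ring
    · refine Finset.sum_congr rfl fun i _ => ?_
      field_simp

variable {F : Type} [Field F] [NumberField F]

theorem fiber_bound {e : ℕ} (he : 1 ≤ e) (ϑ : Fin (e + 1) → 𝓞 F)
    (hind : ∀ i (a : Fin (e + 1) → ℤ), a ≠ 0 → pv a (ϑ i) ≠ 0) (k A : ℕ) :
    ∃ X0 : ℝ, ∀ (s : Finset ℤ) (p : ℤ → ℕ) (a : Fin (e + 1) → ℤ) (m : ℤ → 𝓞 F)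
      (β : ℤ → Fin (e + 1) → 𝓞 F), (∀ N ∈ s, PtData ϑ k N (p N) a (m N) (β N)) →
      (∀ N ∈ s, (p N).Prime ∧ X0 ≤ p N ∧ |N| ≤ A * p N) → s.card ≤ e * (2 * A + 1) := by
  obtain ⟨C, hC, -, -, hlow⟩ := size_bounds ϑ hind
  refine ⟨C + 1, fun s p a m β hD hp => ?_⟩
  rcases s.eq_empty_or_nonempty with rfl | ⟨N0, hN0⟩
  · simp
  have hpp : ∀ N ∈ s, p N = p N0 := by
    intro N hN
    by_contra hne
    have hcop : IsCoprime ((p N0 : ℤ) : 𝓞 F) ((p N : ℤ) : 𝓞 F) := by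
      have : IsCoprime (p N0 : ℤ) (p N : ℤ) := by
        rw [Nat.isCoprime_iff_coprime]
        exact (Nat.coprime_primes (hp N0 hN0).1 (hp N hN).1).mpr (Ne.symm hne)
      simpa using this.map (Int.castRingHom (𝓞 F))
    have h1 : (p N : 𝓞 F) * m N = p N0 * m N0 := by rw [← (hD N hN).hm, (hD N0 hN0).hm]
    have h2 : ((p N0 : ℤ) : 𝓞 F) ∣ m N := by
      apply hcop.dvd_of_dvd_mul_left
      push_cast
      rw [h1]; exact dvd_mul_right _ _
    obtain ⟨t, ht⟩ := h2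
    have h3 := hlow (p N) a (m N) (hD N hN).hp (hD N hN).ha0 (hD N hN).hab (hD N hN).hm
    have ht0 : t = 0 := by
      apply eq_zero_of_emb_lt_one
      intro φ
      have h4 := (h3.2 φ).1
      rw [ht, map_mul, norm_mul] at h4
      simp only [Int.cast_natCast, map_natCast, Complex.norm_natCast] at h4
      have h5 := (hp N0 hN0).2.1
      by_contra h6
      push Not at h6
      nlinarith
    exact h3.1 (by rw [ht, ht0, mul_zero])
  refine card_roots_range e (p N0) A (hp N0 hN0).1 a (hD N0 hN0).ha0 (fun l => ?_) s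
    (fun N hN => ?_)
  · have h1 := (hD N0 hN0).hab l
    have h2 : (1 : ℝ) < p N0 := by exact_mod_cast (hp N0 hN0).1.one_lt
    have h3 : (p N0 : ℝ) ^ (1 / ((e : ℝ) + 1)) < (p N0 : ℝ) ^ (1 : ℝ) := by
      refine Real.rpow_lt_rpow_of_exponent_lt h2 ?_
      have : (1 : ℝ) ≤ e := by exact_mod_cast he
      rw [div_lt_one (by linarith)]; linarith
    rw [Real.rpow_one] at h3
    have h4 : |(a l : ℝ)| < p N0 := h1.trans_lt h3
    exact_mod_cast h4
  · rw [← hpp N hN]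
    exact ⟨(hp N hN).2.2, (hD N hN).hdvd⟩

open Classical in
/-- the set to be counted -/
noncomputable def Bad {e : ℕ} (ϑ : Fin (e + 1) → 𝓞 F) (k A : ℕ) (Y : Set ℝ) (X : ℝ) : Finset ℤ :=
  (Finset.Icc (-⌊A * X⌋) ⌊A * X⌋).filter fun N => X ≤ |(N : ℝ)| ∧ ∃ p : ℕ, p.Prime ∧ X ≤ p ∧
    Real.logb X p ∈ Y ∧ (p : 𝓞 F) ^ k ∣ ∏ i, ((N : 𝓞 F) - ϑ i)

theorem box_count {e : ℕ} (he : 1 ≤ e) (ϑ : Fin (e + 1) → 𝓞 F) (hinj : Function.Injective ϑ)
    (hind : ∀ i (a : Fin (e + 1) → ℤ), a ≠ 0 → pv a (ϑ i) ≠ 0) (n k Δ b A : ℕ) :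
    ∃ (C : ℕ) (X0 : ℝ), ∀ (T : Finset ℤ) (p : ℤ → ℕ)
      (av : ℤ → Fin (e + 1) → ℤ) (m : ℤ → 𝓞 F) (β : ℤ → Fin (e + 1) → 𝓞 F) (l0 : Fin (e + 1))
      (H δ : ℝ), 0 ≤ H → 0 ≤ δ →
      (∀ N ∈ T, PtData ϑ k N (p N) (av N) (m N) (β N)) →
      (∀ N ∈ T, (p N).Prime ∧ X0 ≤ p N ∧ |N| ≤ A * p N) →
      (∀ N ∈ T, ∀ l, |(av N l : ℝ)| ≤ |(av N l0 : ℝ)|) →
      (∀ N ∈ T, |(av N l0 : ℝ)| ≤ H) →
      (∀ N ∈ T, ∀ N' ∈ T, ∀ l, |(av N l : ℝ) / av N l0 - (av N' l : ℝ) / av N' l0| ≤ δ) →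
      (∀ τ : Fin (n + 1) ↪ Fin e, ∃ Ψ : MvPolynomial (Fin (n + 1)) (Polynomial F), Ψ ≠ 0 ∧
        (∀ E ∈ Ψ.support, ∀ i, E i ≤ Δ) ∧ (∀ E, (Ψ.coeff E).natDegree ≤ b) ∧
        ∀ N ∈ T, MvPolynomial.eval₂ (Polynomial.evalRingHom ((N : ℤ) : F))
          (fun i => pv (av N) (ϑ (τ i).succ : F) / pv (av N) (ϑ 0 : F)) Ψ = 0) →
      (T.card : ℝ) ≤ C + C * (2 * H + 1) * (H * δ + 1) ^ (n + 1) := by
  classical
  obtain ⟨C, hC⟩ := slice_count e n Δ b
  obtain ⟨X0, hX0⟩ := fiber_bound he ϑ hind k A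
  have hθ : Function.Injective fun i => (ϑ i : F) := fun i j h => hinj (RingOfIntegers.ext h)
  obtain ⟨g, hg, hg'⟩ := exists_linear_forms _ hθ
  refine ⟨C + C * (e * (2 * A + 1)), X0, ?_⟩
  intro T p av m β l0 H δ hH hδ hD hp hmax hHb hclose hrel
  have hl0 : ∀ N ∈ T, av N l0 ≠ 0 := by
    intro N hN h
    apply (hD N hN).ha0
    funext l
    have := hmax N hN l
    rw [h] at this
    simpa using this
  have hα0 : ∀ N ∈ T, pv (av N) (ϑ 0 : F) ≠ 0 := fun N hN => by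
    have := (map_pv (algebraMap (𝓞 F) F) (av N) (ϑ 0))
    rw [← RingOfIntegers.coe_eq_algebraMap, ← RingOfIntegers.coe_eq_algebraMap] at this
    rw [← this]
    exact RingOfIntegers.coe_ne_zero_iff.mpr (hind _ _ (hD N hN).ha0)
  obtain ⟨Pi0, hPi0, hPid, hcount⟩ := hC F T
    (fun N i => pv (av N) (ϑ i.succ : F) / pv (av N) (ϑ 0 : F)) (fun N => pv (av N) (ϑ 0 : F))
    av g l0 hg (fun N hN l => hg' (av N) (hα0 N hN) l) hl0 hrel
  set q : ℕ := ⌊H * δ⌋₊ + 1 with hq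
  set T1 := T.filter fun N => Pi0.eval ((N : ℤ) : F) = 0 with hT1
  set T2 := T.filter fun N => ¬ Pi0.eval ((N : ℤ) : F) = 0 with hT2
  have hT1c : T1.card ≤ C := by
    refine le_trans ?_ ((Multiset.toFinset_card_le _).trans
      ((Polynomial.card_roots' Pi0).trans hPid))
    refine Finset.card_le_card_of_injOn (fun N => ((N : ℤ) : F)) (fun N hN => ?_)
      (fun N _ N' _ h => Int.cast_injective h)
    simp only [Finset.mem_coe, Multiset.mem_toFinset, Polynomial.mem_roots hPi0]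
    exact (Finset.mem_filter.mp hN).2
  have hslice : ∀ c ∈ Finset.Icc (-⌊H⌋) ⌊H⌋,
      (T2.filter fun N => av N l0 = c).card ≤ (e * (2 * A + 1)) * (C * q ^ (n + 1)) := by
    intro c _
    set Tc := T2.filter fun N => av N l0 = c with hTc
    have hTcT : ∀ N ∈ Tc, N ∈ T ∧ Pi0.eval ((N : ℤ) : F) ≠ 0 ∧ av N l0 = c := fun N hN => by
      have h1 := Finset.mem_filter.mp hN
      have h2 := Finset.mem_filter.mp h1.1
      exact ⟨h2.1, h2.2, h1.2⟩
    have hI : ∀ l, l ≠ l0 → (Tc.image fun N => av N l).card ≤ q := by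
      intro l _
      refine card_le_of_close _ _ fun v hv w hw => ?_
      obtain ⟨N, hN, rfl⟩ := Finset.mem_image.mp hv
      obtain ⟨N', hN', rfl⟩ := Finset.mem_image.mp hw
      obtain ⟨h1, -, h2⟩ := hTcT N hN
      obtain ⟨h1', -, h2'⟩ := hTcT N' hN'
      have h3 := hclose N h1 N' h1' l
      have h4 := hHb N h1
      have h5 : (av N l0 : ℝ) ≠ 0 := by exact_mod_cast hl0 N h1
      rw [h2', ← h2, ← sub_div, abs_div, div_le_iff₀ (abs_pos.mpr h5)] at h3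
      calc _ ≤ |(av N l : ℝ) - av N' l| := le_abs_self _
        _ ≤ δ * |(av N l0 : ℝ)| := h3
        _ ≤ δ * H := by gcongr
        _ = H * δ := mul_comm _ _
    have h1 := hcount c q (fun l => Tc.image fun N => av N l) (by omega) hI
    have h2 : (Tc.image av).card ≤ C * q ^ (n + 1) := by
      refine le_trans (Finset.card_le_card (Finset.image_subset_image fun N hN => ?_)) h1
      obtain ⟨h1, h2, h3⟩ := hTcT N hN
      exact Finset.mem_filter.mpr ⟨h1, h2, h3, fun l _ => Finset.mem_image_of_mem _ hN⟩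
    refine (Finset.card_le_mul_card_image (f := av) Tc (e * (2 * A + 1)) fun a _ => ?_).trans
      (Nat.mul_le_mul_left _ h2)
    refine hX0 _ p a m β (fun N hN => ?_) (fun N hN => ?_)
    · have h3 := Finset.mem_filter.mp hN
      rw [← h3.2]; exact hD N (hTcT N h3.1).1
    · exact hp N (hTcT N (Finset.mem_filter.mp hN).1).1
  have hT2c : T2.card ≤ (e * (2 * A + 1)) * (C * q ^ (n + 1)) * (Finset.Icc (-⌊H⌋) ⌊H⌋).card := by
    refine Finset.card_le_mul_card_image_of_maps_to (f := fun N => av N l0) (fun N hN => ?_) _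
      hslice
    have h1 := hHb N (Finset.mem_filter.mp hN).1
    rw [abs_le] at h1
    rw [Finset.mem_Icc]
    constructor
    · rw [neg_le, Int.le_floor]; push_cast; linarith
    · rw [Int.le_floor]; exact h1.2
  have hIc : (((Finset.Icc (-⌊H⌋) ⌊H⌋).card : ℕ) : ℝ) ≤ 2 * H + 1 := by
    have h0 : 0 ≤ ⌊H⌋ := Int.floor_nonneg.mpr hH
    have h1 : (((Finset.Icc (-⌊H⌋) ⌊H⌋).card : ℕ) : ℤ) = 2 * ⌊H⌋ + 1 := by
      rw [Int.card_Icc_of_le _ _ (by omega)]; ring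
    have h2 : (((Finset.Icc (-⌊H⌋) ⌊H⌋).card : ℕ) : ℝ) = 2 * (⌊H⌋ : ℝ) + 1 := by
      exact_mod_cast h1
    rw [h2]; linarith [Int.floor_le H]
  have hq' : (q : ℝ) ≤ H * δ + 1 := by
    rw [hq]; push_cast; linarith [Nat.floor_le (mul_nonneg hH hδ)]
  have hsum : T.card = T1.card + T2.card :=
    (Finset.card_filter_add_card_filter_not (s := T) _).symm
  have hT2r : (T2.card : ℝ) ≤ (e * (2 * A + 1)) * (C * (H * δ + 1) ^ (n + 1)) * (2 * H + 1) := by
    calc (T2.card : ℝ) ≤ (((e * (2 * A + 1)) * (C * q ^ (n + 1)) *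
          (Finset.Icc (-⌊H⌋) ⌊H⌋).card : ℕ) : ℝ) := by exact_mod_cast hT2c
      _ = (e * (2 * A + 1)) * (C * (q : ℝ) ^ (n + 1)) *
          (((Finset.Icc (-⌊H⌋) ⌊H⌋).card : ℕ) : ℝ) := by push_cast; ring
      _ ≤ _ := by gcongr
  have hT1r : (T1.card : ℝ) ≤ C := by exact_mod_cast hT1c
  rw [hsum]
  push_cast
  have h8 : (0 : ℝ) ≤ C * (e * (2 * A + 1)) := by positivity
  have h9 : (0 : ℝ) ≤ C * (2 * H + 1) * (H * δ + 1) ^ (n + 1) := by positivity
  nlinarith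

end Vale.Agent.P018
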